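import Vale.Agent.P197.Defs

/-! # P197 [BL]: block factorisation -/

namespace Vale.Agent.P197

open Equiv Finset

variable {S U : Type} [Fintype S] [DecidableEq S] [Fintype U] [DecidableEq U]

omit [Fintype S] [DecidableEq S] [Fintype U] [DecidableEq U] in
theorem glue_isStair {a : ℕ} {s : S → ℕ × ℕ} {m : U → ℕ × ℕ} (hs : IsStair a s)
    (hm : IsMu (a + 2) m) : IsStair (a + 2) (glue s m) := by
  constructor
  · rintro (p | p) (q | q) h
    · simp only [glue, Sum.elim_inl, Prod.mk.injEq, Nat.add_right_cancel_iff] at h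
      rw [hs.1 (Prod.ext h.1 h.2)]
    · exfalso
      have h1 := (hm.2 (m q)).1 ⟨q, rfl⟩
      simp only [glue, Sum.elim_inl, Sum.elim_inr] at h
      rw [← h] at h1
      simp at h1
    · exfalso
      have h1 := (hm.2 (m p)).1 ⟨p, rfl⟩
      simp only [glue, Sum.elim_inl, Sum.elim_inr] at h
      rw [h] at h1
      simp at h1
    · simp only [glue, Sum.elim_inr] at h
      rw [hm.1 h]
  · rintro ⟨i, j⟩
    constructor
    · rintro ⟨p | p, h⟩
      · have h1 := (hs.2 (s p)).1 ⟨p, rfl⟩
        simp only [glue, Sum.elim_inl, Prod.mk.injEq] at h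
        simp only
        omega
      · have h1 := (hm.2 (m p)).1 ⟨p, rfl⟩
        simp only [glue, Sum.elim_inr] at h
        rw [h] at h1
        exact h1.1
    · intro h
      simp only at h
      by_cases hj : j < 2
      · obtain ⟨q, hq⟩ := (hm.2 (i, j)).2 ⟨h, hj⟩
        exact ⟨Sum.inr q, hq⟩
      · obtain ⟨q, hq⟩ := (hs.2 (i, j - 2)).2 (by simp only; omega)
        refine ⟨Sum.inl q, ?_⟩
        simp only [glue, Sum.elim_inl, hq, Prod.mk.injEq, true_and]
        omega

theorem block (s : S → ℕ × ℕ) (m : U → ℕ × ℕ) (hm : ∀ p, (m p).2 < 2) (z₁ : S → ℕ) (w : U → ℕ)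
    (hw : ∀ p, w p < 2) (x : S ⊕ U → ℕ) :
    E (glue s m) x (Sum.elim (fun p => z₁ p + 2) w) =
      E s (fun p => x (Sum.inl p)) z₁ * E m (fun p => x (Sum.inr p)) w := by
  unfold E
  rw [Finset.sum_mul_sum, ← Finset.sum_product']
  symm
  refine Finset.sum_of_injOn (fun g : Perm S × Perm U => Equiv.sumCongr g.1 g.2) ?_ ?_ ?_ ?_
  · intro g _ h _ hgh
    have h1 : Perm.sumCongrHom S U g = Perm.sumCongrHom S U h := hgh
    exact Perm.sumCongrHom_injective h1
  · intro g _
    simp
  · intro g _ hg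
    rw [if_neg]
    intro h
    apply hg
    have h2 : Set.MapsTo g (Set.range (Sum.inl : S → S ⊕ U)) (Set.range Sum.inl) := by
      rintro _ ⟨p, rfl⟩
      rcases hgp : g (Sum.inl p) with q | q
      · exact ⟨q, rfl⟩
      · exfalso
        have h3 := h (Sum.inl p)
        rw [hgp] at h3
        simp only [glue, Sum.elim_inr, Sum.elim_inl] at h3
        have h4 := hm q
        rw [h3] at h4
        simp at h4
    obtain ⟨g', hg'⟩ := Perm.mem_sumCongrHom_range_of_perm_mapsTo_inl h2
    exact ⟨g', by simp, hg'⟩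
  · intro g _
    have hiff : (∀ p, glue s m (Equiv.sumCongr g.1 g.2 p) =
        (x p, (Sum.elim (fun p => z₁ p + 2) w : S ⊕ U → ℕ) p)) ↔
        (∀ p, s (g.1 p) = (x (Sum.inl p), z₁ p)) ∧ (∀ p, m (g.2 p) = (x (Sum.inr p), w p)) := by
      constructor
      · intro h
        constructor
        · intro p
          have := h (Sum.inl p)
          simp only [glue, Equiv.sumCongr_apply, Sum.map_inl, Sum.elim_inl, Prod.mk.injEq,
            Nat.add_right_cancel_iff] at this
          exact Prod.ext this.1 this.2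
        · intro p
          have := h (Sum.inr p)
          simpa only [glue, Equiv.sumCongr_apply, Sum.map_inr, Sum.elim_inr] using this
      · rintro ⟨h1, h2⟩ (p | p)
        · simp only [glue, Equiv.sumCongr_apply, Sum.map_inl, Sum.elim_inl, h1 p]
        · simp only [glue, Equiv.sumCongr_apply, Sum.map_inr, Sum.elim_inr, h2 p]
    have hsign : Perm.sign (Equiv.sumCongr g.1 g.2) = Perm.sign g.1 * Perm.sign g.2 :=
      Perm.sign_sumCongr g.1 g.2
    by_cases hc : (∀ p, glue s m (Equiv.sumCongr g.1 g.2 p) =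
        (x p, (Sum.elim (fun p => z₁ p + 2) w : S ⊕ U → ℕ) p))
    · rw [if_pos hc, if_pos (hiff.1 hc).1, if_pos (hiff.1 hc).2, hsign]
      push_cast
      ring
    · rw [if_neg hc]
      by_cases h1 : (∀ p, s (g.1 p) = (x (Sum.inl p), z₁ p))
      · rw [if_neg (c := ∀ p, m (g.2 p) = (x (Sum.inr p), w p)) (fun h2 => hc (hiff.2 ⟨h1, h2⟩)),
          mul_zero]
      · rw [if_neg h1, zero_mul]

end Vale.Agent.P197
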