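import Vale.Agent.P197.Defs

/-! # P197: basic properties of the kernels (piece [K1]). -/

namespace Vale.Agent.P197

open Equiv Finset

variable {I : Type} [Fintype I] [DecidableEq I]

theorem E_comp (b : I → ℕ × ℕ) (x z : I → ℕ) (k : Perm I) :
    E b (fun p => x (k p)) (fun p => z (k p)) = ((Perm.sign k : ℤ) : ℚ) * E b x z := by
  unfold E
  rw [mul_sum]
  refine Fintype.sum_equiv (Equiv.mulRight k⁻¹) _ _ ?_
  intro g
  have h1 : (∀ p, b (g p) = (x (k p), z (k p))) ↔
      ∀ p, b ((Equiv.mulRight k⁻¹ g) p) = (x p, z p) := by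
    constructor
    · intro h p
      have := h (k⁻¹ p)
      simpa using this
    · intro h p
      have := h (k p)
      simpa using this
  by_cases hc : ∀ p, b (g p) = (x (k p), z (k p))
  · rw [if_pos hc, if_pos (h1.1 hc)]
    simp only [Equiv.coe_mulRight, Perm.sign_mul, Perm.sign_inv]
    rcases Int.units_eq_one_or (Perm.sign k) with h | h <;> simp [h]
  · rw [if_neg hc, if_neg (fun h => hc (h1.2 h)), mul_zero]

theorem E_eq_sign {b : I → ℕ × ℕ} (hb : Function.Injective b) (x z : I → ℕ) (g : Perm I)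
    (h : ∀ p, b (g p) = (x p, z p)) : E b x z = ((Perm.sign g : ℤ) : ℚ) := by
  unfold E
  rw [Finset.sum_eq_single g]
  · rw [if_pos h]
  · intro g' _ hne
    rw [if_neg]
    intro h'
    apply hne
    ext p
    apply hb
    rw [h p, h' p]
  · intro h; exact absurd (mem_univ _) h

theorem exists_perm_of_E_ne_zero {b : I → ℕ × ℕ} {x z : I → ℕ} (h : E b x z ≠ 0) :
    ∃ g : Perm I, ∀ p, b (g p) = (x p, z p) := by
  unfold E at h
  obtain ⟨g, _, hg⟩ := Finset.exists_ne_zero_of_sum_ne_zero h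
  by_contra hc
  push Not at hc
  apply hg
  rw [if_neg]
  intro hh
  obtain ⟨p, hp⟩ := hc g
  exact hp (hh p)

theorem E_ne_zero_iff {b : I → ℕ × ℕ} (hb : Function.Injective b) {x z : I → ℕ} :
    E b x z ≠ 0 ↔ ∃ g : Perm I, ∀ p, b (g p) = (x p, z p) := by
  constructor
  · exact exists_perm_of_E_ne_zero
  · rintro ⟨g, hg⟩
    rw [E_eq_sign hb x z g hg]
    rcases Int.units_eq_one_or (Perm.sign g) with h | h <;> simp [h]

theorem E_sum_fst {b : I → ℕ × ℕ} {x z : I → ℕ} (h : E b x z ≠ 0) :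
    ∑ p, x p = ∑ p, (b p).1 := by
  obtain ⟨g, hg⟩ := exists_perm_of_E_ne_zero h
  rw [← Equiv.sum_comp g (fun p => (b p).1)]
  exact Finset.sum_congr rfl fun p _ => by rw [hg p]

theorem E_sum_snd {b : I → ℕ × ℕ} {x z : I → ℕ} (h : E b x z ≠ 0) :
    ∑ p, z p = ∑ p, (b p).2 := by
  obtain ⟨g, hg⟩ := exists_perm_of_E_ne_zero h
  rw [← Equiv.sum_comp g (fun p => (b p).2)]
  exact Finset.sum_congr rfl fun p _ => by rw [hg p]

/-- if two positions carry the same cell, `E = 0` -/
theorem E_eq_zero_of_eq {b : I → ℕ × ℕ} (hb : Function.Injective b) {x z : I → ℕ} {p q : I}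
    (hpq : p ≠ q) (hx : x p = x q) (hz : z p = z q) : E b x z = 0 := by
  by_contra h
  obtain ⟨g, hg⟩ := exists_perm_of_E_ne_zero h
  apply hpq
  apply g.injective
  apply hb
  rw [hg p, hg q, hx, hz]

theorem E_inj {b : I → ℕ × ℕ} (hb : Function.Injective b) {x z : I → ℕ} (h : E b x z ≠ 0)
    {p q : I} (hx : x p = x q) (hz : z p = z q) : p = q := by
  by_contra hpq
  exact h (E_eq_zero_of_eq hb hpq hx hz)

theorem E_lt {a : ℕ} {b : I → ℕ × ℕ} (hb : IsStair a b) {x z : I → ℕ} (h : E b x z ≠ 0)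
    (p : I) : x p + z p < a := by
  obtain ⟨g, hg⟩ := exists_perm_of_E_ne_zero h
  have := (hb.2 (x p, z p)).1 ⟨g p, hg p⟩
  exact this

/-- changing the reference labelling by a permutation of positions -/
theorem E_ref (b : I → ℕ × ℕ) (s : Perm I) (x z : I → ℕ) :
    E (fun p => b (s p)) x z = ((Perm.sign s : ℤ) : ℚ) * E b x z := by
  unfold E
  rw [mul_sum]
  refine Fintype.sum_equiv (Equiv.mulLeft s) _ _ ?_
  intro g
  by_cases hc : ∀ p, b (s (g p)) = (x p, z p)
  · rw [if_pos hc, if_pos (by simpa using hc)]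
    simp only [Equiv.coe_mulLeft, Perm.sign_mul]
    rcases Int.units_eq_one_or (Perm.sign s) with h | h <;> simp [h]
  · rw [if_neg hc, if_neg (by simpa using hc), mul_zero]

theorem E_swap (b : I → ℕ × ℕ) (x z : I → ℕ) :
    E (fun p => ((b p).2, (b p).1)) x z = E b z x := by
  unfold E
  refine Finset.sum_congr rfl fun g _ => ?_
  have : (∀ p, ((b (g p)).2, (b (g p)).1) = (x p, z p)) ↔ (∀ p, b (g p) = (z p, x p)) := by
    refine forall_congr' fun p => ?_
    rw [Prod.ext_iff, Prod.ext_iff]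
    exact and_comm
  simp only [this]

/-- transpose symmetry -/
theorem E_transpose {a : ℕ} {b : I → ℕ × ℕ} (hb : IsStair a b) :
    ∃ s : ℚ, s ≠ 0 ∧ ∀ x z, E b z x = s * E b x z := by
  have h : ∀ p, ∃ q, b q = ((b p).2, (b p).1) := by
    intro p
    rw [hb.2]
    have := (hb.2 (b p)).1 ⟨p, rfl⟩
    show (b p).2 + (b p).1 < a
    omega
  choose f hf using h
  have hinj : Function.Injective f := by
    intro p q hpq
    apply hb.1
    have h1 := hf p
    have h2 := hf q
    rw [hpq, h2] at h1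
    rw [Prod.ext_iff] at h1 ⊢
    exact ⟨h1.2.symm, h1.1.symm⟩
  let σ : Perm I := Equiv.ofBijective f (Finite.injective_iff_bijective.1 hinj)
  refine ⟨((Perm.sign σ : ℤ) : ℚ), ?_, ?_⟩
  · rcases Int.units_eq_one_or (Perm.sign σ) with h | h <;> simp [h]
  · intro x z
    rw [← E_ref b σ x z, ← E_swap b x z]
    congr 1
    funext p
    exact (hf p).symm

theorem G_comm (b : I → ℕ × ℕ) (x x' : I → ℕ) : G b x x' = G b x' x := by
  unfold G
  exact Finset.sum_congr rfl fun g _ => mul_comm _ _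

theorem G_comp (b : I → ℕ × ℕ) (x x' : I → ℕ) (k : Perm I) :
    G b (fun p => x (k p)) (fun p => x' (k p)) = G b x x' := by
  unfold G
  refine Fintype.sum_equiv (Equiv.mulRight k⁻¹) _ _ ?_
  intro g
  have h1 : ∀ u : I → ℕ, E b (fun p => u (k p)) (fun p => (b (g p)).2) =
      ((Perm.sign k : ℤ) : ℚ) * E b u (fun p => (b ((Equiv.mulRight k⁻¹ g) p)).2) := by
    intro u
    rw [← E_comp]
    congr 1
    funext p
    simp
  rw [h1 x, h1 x']
  rcases Int.units_eq_one_or (Perm.sign k) with h | h <;> simp [h]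

theorem G_sum {b : I → ℕ × ℕ} {x x' : I → ℕ} (h : G b x x' ≠ 0) :
    ∑ p, x p = ∑ p, (b p).1 := by
  unfold G at h
  obtain ⟨g, _, hg⟩ := Finset.exists_ne_zero_of_sum_ne_zero h
  exact E_sum_fst (left_ne_zero_of_mul hg)

/-- conjugation symmetry -/
theorem YS_symm {a : ℕ} {b : I → ℕ × ℕ} (hb : IsStair a b) :
    ∃ s : ℚ, s ≠ 0 ∧ ∀ ρ γ x y x' z : I → ℕ,
      YS ρ γ (fun u v => G b u x' * E b v z) x y =
        s * YS γ ρ (fun u v => G b u x * E b v y) x' z := by
  obtain ⟨s, hs, hE⟩ := E_transpose hb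
  refine ⟨s, hs, ?_⟩
  intro ρ γ x y x' z
  unfold YS
  rw [Finset.sum_comm, mul_sum]
  refine Fintype.sum_equiv (Equiv.inv (Perm I)) _ _ ?_
  intro r
  rw [mul_sum]
  refine Fintype.sum_equiv (Equiv.inv (Perm I)) _ _ ?_
  intro c
  simp only [Equiv.inv_apply]
  have hcond : ((∀ p, γ (c p) = γ p) ∧ (∀ p, ρ (r p) = ρ p)) ↔
      ((∀ p, ρ (r⁻¹ p) = ρ p) ∧ (∀ p, γ (c⁻¹ p) = γ p)) := by
    constructor
    · rintro ⟨h1, h2⟩
      refine ⟨fun p => ?_, fun p => ?_⟩
      · have := h2 (r⁻¹ p); simpa using this.symm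
      · have := h1 (c⁻¹ p); simpa using this.symm
    · rintro ⟨h1, h2⟩
      refine ⟨fun p => ?_, fun p => ?_⟩
      · have := h2 (c p); simpa using this.symm
      · have := h1 (r p); simpa using this.symm
  by_cases hc : (∀ p, γ (c p) = γ p) ∧ (∀ p, ρ (r p) = ρ p)
  · rw [if_pos hc, if_pos (hcond.1 hc)]
    have h1 : G b (fun p => x (c (r p))) x' = G b (fun p => x' (r⁻¹ (c⁻¹ p))) x := by
      rw [G_comm b _ x, ← G_comp b x _ (c * r)]
      congr 1
      funext p
      simp
    have h2 : E b (fun p => y (c (r p))) z =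
        ((Perm.sign (c * r) : ℤ) : ℚ) * (s * E b (fun p => z (r⁻¹ (c⁻¹ p))) y) := by
      rw [← hE, ← E_comp]
      congr 1
      funext p
      simp
    rw [h1, h2]
    simp only [Perm.sign_mul, Perm.sign_inv]
    rcases Int.units_eq_one_or (Perm.sign c) with h | h <;>
    rcases Int.units_eq_one_or (Perm.sign r) with h' | h' <;> simp [h, h'] <;> ring
  · rw [if_neg hc, if_neg (fun h => hc (hcond.2 h)), mul_zero]

theorem good_symm {a : ℕ} {ρ γ : I → ℕ} (h : Good a ρ γ) : Good a γ ρ := by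
  obtain ⟨b, hb, x, y, x', z, h1, h2, h3⟩ := h
  obtain ⟨s, hs, hYS⟩ := YS_symm hb
  refine ⟨b, hb, x', z, x, y, h2, h1, ?_⟩
  intro h0
  apply h3
  rw [hYS ρ γ x y x' z, h0, mul_zero]

section equiv

variable {J : Type} [Fintype J] [DecidableEq J]

theorem E_equiv (e : J ≃ I) (b : I → ℕ × ℕ) (x z : I → ℕ) :
    E (fun p => b (e p)) (fun p => x (e p)) (fun p => z (e p)) = E b x z := by
  unfold E
  refine Fintype.sum_equiv (Equiv.permCongr e) _ _ ?_
  intro g
  have h1 : (∀ p, b (e (g p)) = (x (e p), z (e p))) ↔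
      ∀ p, b ((Equiv.permCongr e g) p) = (x p, z p) := by
    constructor
    · intro h p
      have := h (e.symm p)
      simpa [Equiv.permCongr_apply] using this
    · intro h p
      have := h (e p)
      simpa [Equiv.permCongr_apply] using this
  have h2 : Perm.sign (Equiv.permCongr e g) = Perm.sign g := by
    exact Equiv.Perm.sign_permCongr e g
  simp only [h1, h2]

theorem G_equiv (e : J ≃ I) (b : I → ℕ × ℕ) (x x' : I → ℕ) :
    G (fun p => b (e p)) (fun p => x (e p)) (fun p => x' (e p)) = G b x x' := by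
  unfold G
  refine Fintype.sum_equiv (Equiv.permCongr e) _ _ ?_
  intro g
  have h1 : ∀ u : I → ℕ, E (fun p => b (e p)) (fun p => u (e p)) (fun p => (b (e (g p))).2) =
      E b u (fun p => (b ((Equiv.permCongr e g) p)).2) := by
    intro u
    rw [← E_equiv e b u]
    congr 1
    funext p
    simp [Equiv.permCongr_apply]
  rw [h1 x, h1 x']

theorem YS_equiv (e : J ≃ I) (ρ γ : I → ℕ) (F : (I → ℕ) → (I → ℕ) → ℚ)
    (F' : (J → ℕ) → (J → ℕ) → ℚ)
    (hF : ∀ u v, F' (fun p => u (e p)) (fun p => v (e p)) = F u v) (x y : I → ℕ) :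
    YS (fun p => ρ (e p)) (fun p => γ (e p)) F' (fun p => x (e p)) (fun p => y (e p)) =
      YS ρ γ F x y := by
  unfold YS
  refine Fintype.sum_equiv (Equiv.permCongr e) _ _ ?_
  intro c
  refine Fintype.sum_equiv (Equiv.permCongr e) _ _ ?_
  intro r
  have hcond : ((∀ p, γ (e (c p)) = γ (e p)) ∧ (∀ p, ρ (e (r p)) = ρ (e p))) ↔
      ((∀ p, γ ((Equiv.permCongr e c) p) = γ p) ∧ (∀ p, ρ ((Equiv.permCongr e r) p) = ρ p)) := by
    constructor
    · rintro ⟨h1, h2⟩
      refine ⟨fun p => ?_, fun p => ?_⟩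
      · have := h1 (e.symm p); simpa [Equiv.permCongr_apply] using this
      · have := h2 (e.symm p); simpa [Equiv.permCongr_apply] using this
    · rintro ⟨h1, h2⟩
      refine ⟨fun p => ?_, fun p => ?_⟩
      · have := h1 (e p); simpa [Equiv.permCongr_apply] using this
      · have := h2 (e p); simpa [Equiv.permCongr_apply] using this
  by_cases hc : (∀ p, γ (e (c p)) = γ (e p)) ∧ (∀ p, ρ (e (r p)) = ρ (e p))
  · rw [if_pos hc, if_pos (hcond.1 hc), Equiv.Perm.sign_permCongr]
    congr 1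
    rw [← hF]
    congr 1 <;> funext p <;> simp [Equiv.permCongr_apply]
  · rw [if_neg hc, if_neg (fun h => hc (hcond.2 h))]

theorem good_equiv {a : ℕ} (e : J ≃ I) {ρ γ : I → ℕ}
    (h : Good a (fun p => ρ (e p)) (fun p => γ (e p))) : Good a ρ γ := by
  obtain ⟨b, hb, x, y, x', z, h1, h2, h3⟩ := h
  refine ⟨fun p => b (e.symm p), ⟨hb.1.comp e.symm.injective, ?_⟩,
    fun p => x (e.symm p), fun p => y (e.symm p), fun p => x' (e.symm p),
    fun p => z (e.symm p), fun p => h1 _, fun p => h2 _, ?_⟩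
  · intro c
    rw [← hb.2 c]
    constructor
    · rintro ⟨p, hp⟩; exact ⟨_, hp⟩
    · rintro ⟨p, hp⟩; exact ⟨e p, by simpa using hp⟩
  · intro h0
    apply h3
    rw [← h0]
    have := YS_equiv e ρ γ
      (fun u v => G (fun p => b (e.symm p)) u (fun p => x' (e.symm p)) *
        E (fun p => b (e.symm p)) v (fun p => z (e.symm p)))
      (fun u v => G b u x' * E b v z)
      (by
        intro u v
        rw [← G_equiv e, ← E_equiv e]
        simp) (fun p => x (e.symm p)) (fun p => y (e.symm p))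
    rw [← this]
    simp

end equiv

end Vale.Agent.P197
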