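import Vale.Agent.P197.Defs

/-! # P197 [W]: minimal weight sets -/

namespace Vale.Agent.P197

open Equiv Finset

theorem eq_of_sum_eq {ι : Type} [DecidableEq ι] (A B : Finset ι) (w : ι → ℤ) (k : ℤ)
    (hcard : A.card = B.card) (hB : ∀ p ∈ B, w p < k) (hA : ∀ p, p ∉ B → k ≤ w p)
    (hsum : ∑ p ∈ A, w p = ∑ p ∈ B, w p) : A = B := by
  have h1 : (A \ B).card = (B \ A).card := by
    have e1 := Finset.card_sdiff_add_card_inter A B
    have e2 := Finset.card_sdiff_add_card_inter B A
    rw [Finset.inter_comm] at e2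
    omega
  have h2 : ∑ p ∈ A \ B, w p = ∑ p ∈ B \ A, w p := by
    have e1 := Finset.sum_inter_add_sum_sdiff A B w
    have e2 := Finset.sum_inter_add_sum_sdiff B A w
    rw [Finset.inter_comm] at e2
    linarith
  have h3 : (B \ A) = ∅ := by
    by_contra hne
    have hne' : (B \ A).Nonempty := Finset.nonempty_iff_ne_empty.2 hne
    have h4 : ∑ p ∈ B \ A, w p < ∑ _p ∈ B \ A, k :=
      Finset.sum_lt_sum_of_nonempty hne' fun p hp => hB p (Finset.mem_sdiff.1 hp).1
    have h5 : ∑ _p ∈ A \ B, k ≤ ∑ p ∈ A \ B, w p :=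
      Finset.sum_le_sum fun p hp => hA p (Finset.mem_sdiff.1 hp).2
    simp only [Finset.sum_const, h1] at h4 h5
    linarith
  exact (Finset.eq_of_subset_of_card_le (Finset.sdiff_eq_empty_iff_subset.1 h3) hcard.le).symm

end Vale.Agent.P197
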