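import Vale.Agent.P197.Kernel
import Vale.Agent.P197.Weight

/-! # P197 [SC]: the one-dimensionality lemma and the reproducing property of `G` -/

namespace Vale.Agent.P197

open Equiv Finset

variable {I : Type} [Fintype I] [DecidableEq I]

theorem exists_perm_of_weight {a : ℕ} {b : I → ℕ × ℕ} (hb : IsStair a b) {x z : I → ℕ}
    (hinj : ∀ p q, x p = x q → z p = z q → p = q)
    (hsum : ∑ p, (x p + z p) = ∑ p, ((b p).1 + (b p).2)) :
    ∃ g : Perm I, ∀ p, b (g p) = (x p, z p) := by
  have hi : Function.Injective (fun p : I => (x p, z p)) := by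
    intro p q h
    rw [Prod.ext_iff] at h
    exact hinj p q h.1 h.2
  have himg : univ.image (fun p : I => (x p, z p)) = univ.image b := by
    apply eq_of_sum_eq _ _ (fun c : ℕ × ℕ => ((c.1 + c.2 : ℕ) : ℤ)) (a : ℤ)
    · rw [Finset.card_image_of_injective _ hi, Finset.card_image_of_injective _ hb.1]
    · intro c hc
      obtain ⟨p, _, rfl⟩ := Finset.mem_image.1 hc
      have := (hb.2 (b p)).1 ⟨p, rfl⟩
      exact_mod_cast this
    · intro c hc
      have : ¬ (c.1 + c.2 < a) := by
        intro h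
        obtain ⟨p, hp⟩ := (hb.2 c).2 h
        exact hc (hp ▸ Finset.mem_image_of_mem b (mem_univ p))
      exact_mod_cast not_lt.1 this
    · rw [Finset.sum_image (fun p _ q _ h => hi h), Finset.sum_image (fun p _ q _ h => hb.1 h)]
      exact_mod_cast hsum
  have hex : ∀ p, ∃ q, b q = (x p, z p) := by
    intro p
    have : (x p, z p) ∈ univ.image b := by
      rw [← himg]
      exact Finset.mem_image_of_mem (fun p : I => (x p, z p)) (mem_univ p)
    obtain ⟨q, _, hq⟩ := Finset.mem_image.1 this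
    exact ⟨q, hq⟩
  choose f hf using hex
  have hfi : Function.Injective f := by
    intro p q h
    apply hi
    show (x p, z p) = (x q, z q)
    rw [← hf p, ← hf q, h]
  exact ⟨Equiv.ofBijective f (Finite.injective_iff_bijective.1 hfi), hf⟩

theorem schur {a : ℕ} {b : I → ℕ × ℕ} (hb : IsStair a b) (Θ : (I → ℕ) → (I → ℕ) → ℚ)
    (hΘ : ∀ (k : Perm I) (x z : I → ℕ),
      Θ (fun p => x (k p)) (fun p => z (k p)) = ((Perm.sign k : ℤ) : ℚ) * Θ x z)
    (hs : ∀ x z, Θ x z ≠ 0 → ∑ p, (x p + z p) = ∑ p, ((b p).1 + (b p).2)) :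
    ∀ x z, Θ x z = Θ (fun p => (b p).1) (fun p => (b p).2) * E b x z := by
  intro x z
  have key : ∀ g : Perm I, (∀ p, b (g p) = (x p, z p)) →
      Θ x z = Θ (fun p => (b p).1) (fun p => (b p).2) * E b x z := by
    intro g hg
    rw [E_eq_sign hb.1 x z g hg, mul_comm, ← hΘ]
    congr 1
    · funext p; rw [hg p]
    · funext p; rw [hg p]
  by_cases hE : E b x z = 0
  · rw [hE, mul_zero]
    by_contra hne
    have hinj : ∀ p q, x p = x q → z p = z q → p = q := by
      intro p q hx hz
      by_contra hpq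
      have h1 := hΘ (swap p q) x z
      have hx' : (fun r => x (swap p q r)) = x := by
        funext r
        by_cases h1 : r = p
        · rw [h1, swap_apply_left, hx]
        · by_cases h2 : r = q
          · rw [h2, swap_apply_right, hx]
          · rw [swap_apply_of_ne_of_ne h1 h2]
      have hz' : (fun r => z (swap p q r)) = z := by
        funext r
        by_cases h1 : r = p
        · rw [h1, swap_apply_left, hz]
        · by_cases h2 : r = q
          · rw [h2, swap_apply_right, hz]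
          · rw [swap_apply_of_ne_of_ne h1 h2]
      rw [hx', hz', Perm.sign_swap hpq] at h1
      apply hne
      simp only [Units.val_neg, Units.val_one, Int.cast_neg, Int.cast_one] at h1
      linarith
    obtain ⟨g, hg⟩ := exists_perm_of_weight hb hinj (hs x z hne)
    exact (E_ne_zero_iff hb.1).2 ⟨g, hg⟩ hE
  · obtain ⟨g, hg⟩ := exists_perm_of_E_ne_zero hE
    exact key g hg

theorem G_E {a : ℕ} {b : I → ℕ × ℕ} (hb : IsStair a b) :
    ∃ lam : ℚ, 0 < lam ∧ ∀ x z, ∑ h : Perm I,
      G b x (fun p => (b (h p)).1) * E b (fun p => (b (h p)).1) z = lam * E b x z := by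
  set Θ : (I → ℕ) → (I → ℕ) → ℚ := fun x z => ∑ h : Perm I,
      G b x (fun p => (b (h p)).1) * E b (fun p => (b (h p)).1) z with hΘdef
  have hequiv : ∀ (k : Perm I) (x z : I → ℕ),
      Θ (fun p => x (k p)) (fun p => z (k p)) = ((Perm.sign k : ℤ) : ℚ) * Θ x z := by
    intro k x z
    simp only [hΘdef]
    rw [mul_sum]
    refine Fintype.sum_equiv (Equiv.mulRight k⁻¹) _ _ ?_
    intro h
    have e1 : (fun p => (b (h p)).1) =
        fun p => (fun q => (b ((Equiv.mulRight k⁻¹ h) q)).1) (k p) := by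
      funext p
      simp
    rw [e1, G_comp b x (fun q => (b ((Equiv.mulRight k⁻¹ h) q)).1) k,
      E_comp b (fun q => (b ((Equiv.mulRight k⁻¹ h) q)).1) z k]
    ring
  have hsum : ∀ x z, Θ x z ≠ 0 → ∑ p, (x p + z p) = ∑ p, ((b p).1 + (b p).2) := by
    intro x z hne
    obtain ⟨h, _, hh⟩ := Finset.exists_ne_zero_of_sum_ne_zero hne
    rw [Finset.sum_add_distrib, Finset.sum_add_distrib, G_sum (left_ne_zero_of_mul hh),
      E_sum_snd (right_ne_zero_of_mul hh)]
  have hS := schur hb Θ hequiv hsum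
  set lam := Θ (fun p => (b p).1) (fun p => (b p).2) with hlam
  refine ⟨lam, ?_, hS⟩
  -- positivity
  let z₀ : I → ℕ := fun p => (b p).2
  let X : Perm I → I → ℕ := fun k p => (b (k p)).1
  have hE1 : E b (X 1) z₀ = 1 := by
    rw [E_eq_sign hb.1 (X 1) z₀ 1 (fun p => rfl)]
    simp
  have hpos : 0 < ∑ k : Perm I, E b (X k) z₀ * E b (X k) z₀ := by
    refine Finset.sum_pos' (fun k _ => mul_self_nonneg _) ⟨1, mem_univ _, ?_⟩
    rw [hE1]; norm_num
  have h1 : ∑ k : Perm I, E b (X k) z₀ * Θ (X k) z₀ =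
      lam * ∑ k : Perm I, E b (X k) z₀ * E b (X k) z₀ := by
    rw [mul_sum]
    exact Finset.sum_congr rfl fun k _ => by rw [hS]; ring
  have h2 : ∑ k : Perm I, E b (X k) z₀ * Θ (X k) z₀ =
      ∑ g : Perm I, (∑ k : Perm I, E b (X k) z₀ * E b (X k) (fun p => (b (g p)).2)) *
        (∑ k : Perm I, E b (X k) z₀ * E b (X k) (fun p => (b (g p)).2)) := by
    simp only [hΘdef, G, Finset.sum_mul, mul_sum]
    have : ∀ k : Perm I, ∑ h : Perm I, ∑ g : Perm I, E b (X k) z₀ *
        (E b (X k) (fun p => (b (g p)).2) * E b (fun p => (b (h p)).1) (fun p => (b (g p)).2) *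
          E b (fun p => (b (h p)).1) z₀) =
        ∑ g : Perm I, ∑ h : Perm I, E b (X k) z₀ *
        (E b (X k) (fun p => (b (g p)).2) * E b (fun p => (b (h p)).1) (fun p => (b (g p)).2) *
          E b (fun p => (b (h p)).1) z₀) := fun k => Finset.sum_comm
    simp only [this]
    rw [Finset.sum_comm]
    refine Finset.sum_congr rfl fun g _ => ?_
    refine Finset.sum_congr rfl fun k _ => ?_
    refine Finset.sum_congr rfl fun h _ => ?_
    show E b (X k) z₀ * (E b (X k) (fun p => (b (g p)).2) *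
      E b (X h) (fun p => (b (g p)).2) * E b (X h) z₀) = _
    ring
  have h3 : 0 < ∑ g : Perm I, (∑ k : Perm I, E b (X k) z₀ * E b (X k) (fun p => (b (g p)).2)) *
        (∑ k : Perm I, E b (X k) z₀ * E b (X k) (fun p => (b (g p)).2)) := by
    refine Finset.sum_pos' (fun g _ => mul_self_nonneg _) ⟨1, mem_univ _, ?_⟩
    have : (fun p => (b ((1 : Perm I) p)).2) = z₀ := rfl
    rw [this]
    exact mul_pos hpos hpos
  rw [← h2, h1] at h3
  exact lt_of_mul_lt_mul_right (by rw [zero_mul]; exact h3) hpos.le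

end Vale.Agent.P197
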