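import Vale.Agent.P197.Garnir

/-! # P197: two-column straightening (piece [ST]). -/

namespace Vale.Agent.P197

open Equiv Finset

namespace StraightAux

theorem ainv {X : Type} (g : Perm X) (q : X) : g (g⁻¹ q) = q := g.apply_symm_apply q

variable {S U : Type} [Fintype S] [DecidableEq S] [Fintype U] [DecidableEq U]

theorem glue_stair {a : ℕ} {s : S → ℕ × ℕ} {m : U → ℕ × ℕ} (hs : IsStair a s)
    (hm : IsMu (a + 2) m) : IsStair (a + 2) (glue s m) := by
  have hm2 : ∀ u, (m u).2 < 2 := fun u => ((hm.2 (m u)).1 ⟨u, rfl⟩).2
  constructor
  · rintro (p | p) (q | q) h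
    · simp only [glue, Sum.elim_inl, Prod.mk.injEq, add_left_inj] at h
      rw [hs.1 (Prod.ext h.1 h.2)]
    · exfalso
      have := hm2 q
      simp only [glue, Sum.elim_inl, Sum.elim_inr] at h
      rw [← h] at this
      simp at this
    · exfalso
      have := hm2 p
      simp only [glue, Sum.elim_inl, Sum.elim_inr] at h
      rw [h] at this
      simp at this
    · simp only [glue, Sum.elim_inr] at h
      rw [hm.1 h]
  · intro c
    constructor
    · rintro ⟨p | p, hp⟩
      · simp only [glue, Sum.elim_inl] at hp
        have := (hs.2 (s p)).1 ⟨p, rfl⟩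
        rw [← hp]
        show (s p).1 + ((s p).2 + 2) < a + 2
        omega
      · simp only [glue, Sum.elim_inr] at hp
        exact ((hm.2 c).1 ⟨p, hp⟩).1
    · intro hc
      by_cases h2 : c.2 < 2
      · obtain ⟨p, hp⟩ := (hm.2 c).2 ⟨hc, h2⟩
        exact ⟨Sum.inr p, hp⟩
      · obtain ⟨p, hp⟩ := (hs.2 (c.1, c.2 - 2)).2 (by show c.1 + (c.2 - 2) < a; omega)
        refine ⟨Sum.inl p, ?_⟩
        simp only [glue, Sum.elim_inl, hp]
        rw [Prod.ext_iff]
        exact ⟨rfl, by show c.2 - 2 + 2 = c.2; omega⟩

variable {I : Type} [Fintype I] [DecidableEq I]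

theorem count_eq {b : I → ℕ × ℕ} {x z : I → ℕ} (h : E b x z ≠ 0) (i : ℕ) :
    (univ.filter (fun q => z q = i)).card = (univ.filter (fun q => (b q).2 = i)).card := by
  obtain ⟨g, hg⟩ := exists_perm_of_E_ne_zero h
  refine Finset.card_bij (fun q _ => g q) ?_ ?_ ?_
  · intro q hq
    simp only [mem_filter, mem_univ, true_and] at hq ⊢
    rw [hg q]; exact hq
  · intro q _ q' _ hqq
    exact g.injective hqq
  · intro q hq
    refine ⟨g⁻¹ q, ?_, by simp⟩
    simp only [mem_filter, mem_univ, true_and] at hq ⊢
    have := hg (g⁻¹ q)
    rw [ainv] at this
    rw [this] at hq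
    exact hq

theorem count_b (s : S → ℕ × ℕ) (m : U → ℕ × ℕ) (w : U → ℕ) (g : Perm U)
    (hw : ∀ p, w p = (m (g p)).2) (i : ℕ) (hi : i < 2) :
    (univ.filter (fun q => (glue s m q).2 = i)).card = (univ.filter (fun u => w u = i)).card := by
  symm
  refine Finset.card_bij (fun u _ => Sum.inr (g u)) ?_ ?_ ?_
  · intro u hu
    simp only [mem_filter, mem_univ, true_and] at hu ⊢
    simp only [glue, Sum.elim_inr]
    rw [← hw, hu]
  · intro u _ u' _ h
    exact g.injective (Sum.inr_injective h)
  · rintro (q | q) hq
    · exfalso
      rw [mem_filter] at hq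
      have h2 : (s q).2 + 2 = i := hq.2
      omega
    · refine ⟨g⁻¹ q, ?_, by rw [ainv]⟩
      rw [mem_filter] at hq
      have h2 : (m q).2 = i := hq.2
      rw [mem_filter]
      exact ⟨mem_univ _, by rw [hw, ainv, h2]⟩

/-- the symmetrization of `E b · z` in `z` over the stabilizer of `w` in `U`. -/
noncomputable def Sy (b : S ⊕ U → ℕ × ℕ) (w : U → ℕ) (z : S ⊕ U → ℕ) : (S ⊕ U → ℕ) → ℚ :=
  fun x => ∑ c : Perm U, if (∀ p, w (c p) = w p) then
    E b x (fun r => z (Equiv.sumCongr (1 : Perm S) c r)) else 0

theorem sumCongr_inv_apply (c : Perm U) (r : S ⊕ U) :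
    Equiv.sumCongr (1 : Perm S) c (Equiv.sumCongr (1 : Perm S) c⁻¹ r) = r := by
  rcases r with r | r <;> simp

theorem sumCongr_apply_inv (c : Perm U) (r : S ⊕ U) :
    Equiv.sumCongr (1 : Perm S) c⁻¹ (Equiv.sumCongr (1 : Perm S) c r) = r := by
  rcases r with r | r <;> simp

theorem stab_inv {w : U → ℕ} {c : Perm U} (h : ∀ p, w (c p) = w p) : ∀ p, w (c⁻¹ p) = w p := by
  intro p
  have := h (c⁻¹ p)
  rw [ainv] at this
  exact this.symm

theorem stab_inv_iff {w : U → ℕ} {c : Perm U} :
    (∀ p, w (c⁻¹ p) = w p) ↔ ∀ p, w (c p) = w p := by
  constructor
  · intro h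
    have := stab_inv h
    simpa using this
  · exact stab_inv

theorem anti_eq_Sy (b : S ⊕ U → ℕ × ℕ) (w : U → ℕ) (z x : S ⊕ U → ℕ) :
    (∑ c : Perm U, if (∀ p, w (c p) = w p) then
        ((Perm.sign c : ℤ) : ℚ) * E b (fun p => x (Equiv.sumCongr (1 : Perm S) c p)) z else 0) =
      Sy b w z x := by
  unfold Sy
  refine Fintype.sum_equiv (Equiv.inv (Perm U)) _ _ ?_
  intro c
  simp only [Equiv.inv_apply]
  by_cases hc : ∀ p, w (c p) = w p
  · rw [if_pos hc, if_pos (stab_inv hc)]
    have h := E_comp b x (fun r => z (Equiv.sumCongr (1 : Perm S) c⁻¹ r))
      (Equiv.sumCongr (1 : Perm S) c)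
    simp only [sumCongr_apply_inv] at h
    rw [h]
    have hs : Perm.sign (Equiv.sumCongr (1 : Perm S) c) = Perm.sign c := by
      have := Perm.sign_sumCongr (1 : Perm S) c
      simpa using this
    rw [hs]
    rcases Int.units_eq_one_or (Perm.sign c) with h | h <;> simp [h]
  · rw [if_neg hc, if_neg (fun h => hc (stab_inv_iff.1 h))]

theorem Sy_inv (b : S ⊕ U → ℕ × ℕ) (w : U → ℕ) (z : S ⊕ U → ℕ) (d : Perm U)
    (hd : ∀ p, w (d p) = w p) :
    Sy b w (fun r => z (Equiv.sumCongr (1 : Perm S) d r)) = Sy b w z := by
  funext x
  unfold Sy
  refine Fintype.sum_equiv (Equiv.mulLeft d) _ _ ?_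
  intro c
  have hiff : (∀ p, w ((Equiv.mulLeft d c) p) = w p) ↔ ∀ p, w (c p) = w p := by
    simp only [Equiv.coe_mulLeft, Perm.mul_apply, hd]
  have hz : (fun r => z (Equiv.sumCongr (1 : Perm S) (Equiv.mulLeft d c) r)) =
      fun r => z (Equiv.sumCongr (1 : Perm S) d (Equiv.sumCongr (1 : Perm S) c r)) := by
    funext r
    rcases r with r | r <;> simp
  by_cases hc : ∀ p, w (c p) = w p
  · rw [if_pos hc, if_pos (hiff.2 hc), hz]
  · rw [if_neg hc, if_neg (fun h => hc (hiff.1 h))]

theorem garnir_Sy {a : ℕ} {b : S ⊕ U → ℕ × ℕ} (hb : IsStair a b) (w : U → ℕ)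
    (z : S ⊕ U → ℕ) (p : U) (i : ℕ) (hi : i < z (Sum.inr p)) :
    Sy b w z = - ∑ q ∈ univ.filter (fun q => z q = i),
      Sy b w (fun r => z (swap (Sum.inr p) q r)) := by
  funext x
  simp only [Pi.neg_apply, Finset.sum_apply]
  unfold Sy
  rw [Finset.sum_comm, ← Finset.sum_neg_distrib]
  refine Finset.sum_congr rfl fun c _ => ?_
  by_cases hc : ∀ p, w (c p) = w p
  · rw [if_pos hc]
    simp only [if_pos hc]
    have h := garnir hb x (fun r => z (Equiv.sumCongr (1 : Perm S) c r)) (Sum.inr (c⁻¹ p)) i
      (by simpa using hi)
    rw [h]
    congr 1
    refine Finset.sum_bij (fun q _ => Equiv.sumCongr (1 : Perm S) c q) ?_ ?_ ?_ ?_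
    · intro q hq
      simp only [mem_filter, mem_univ, true_and] at hq ⊢
      exact hq
    · intro q _ q' _ hqq
      exact (Equiv.sumCongr (1 : Perm S) c).injective hqq
    · intro q hq
      refine ⟨Equiv.sumCongr (1 : Perm S) c⁻¹ q, ?_, sumCongr_inv_apply c q⟩
      simp only [mem_filter, mem_univ, true_and] at hq ⊢
      rw [sumCongr_inv_apply]
      exact hq
    · intro q _
      congr 1
      funext r
      congr 1
      have hpp : (Sum.inr p : S ⊕ U) = Equiv.sumCongr (1 : Perm S) c (Sum.inr (c⁻¹ p)) := by
        simp
      rw [hpp]
      exact (Function.Injective.swap_apply (Equiv.sumCongr (1 : Perm S) c).injective _ _ _).symm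
  · rw [if_neg hc]
    simp only [if_neg hc, Finset.sum_const_zero, neg_zero]

end StraightAux

open StraightAux

variable {S U : Type} [Fintype S] [DecidableEq S] [Fintype U] [DecidableEq U]

/-- antisymmetrizing `E (·, z)` over the column group of `w` in `U` lands in the span of the
`E (·, (z₁+2, w))`. -/
theorem straight {a : ℕ} {s : S → ℕ × ℕ} {m : U → ℕ × ℕ} (hs : IsStair a s)
    (hm : IsMu (a + 2) m) (w : U → ℕ) (g : Perm U) (hw : ∀ p, w p = (m (g p)).2)
    (z : S ⊕ U → ℕ) :
    (fun x : S ⊕ U → ℕ => ∑ c : Perm U, if (∀ p, w (c p) = w p) then
        ((Perm.sign c : ℤ) : ℚ) * E (glue s m) (fun p => x (Equiv.sumCongr 1 c p)) z else 0) ∈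
      Submodule.span ℚ (Set.range fun (z₁ : S → ℕ) (x : S ⊕ U → ℕ) =>
        E (glue s m) x (Sum.elim (fun p => z₁ p + 2) w)) := by
  classical
  set b := glue s m with hbdef
  have hb : IsStair (a + 2) b := glue_stair hs hm
  have hw2 : ∀ p, w p < 2 := by
    intro p
    rw [hw p]
    exact ((hm.2 (m (g p))).1 ⟨g p, rfl⟩).2
  set W := Submodule.span ℚ (Set.range fun (z₁ : S → ℕ) (x : S ⊕ U → ℕ) =>
        E b x (Sum.elim (fun p => z₁ p + 2) w)) with hW
  have hfun : (fun x : S ⊕ U → ℕ => ∑ c : Perm U, if (∀ p, w (c p) = w p) then
        ((Perm.sign c : ℤ) : ℚ) * E b (fun p => x (Equiv.sumCongr 1 c p)) z else 0) =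
      Sy b w z := by
    funext x
    exact anti_eq_Sy b w z x
  rw [hfun]
  -- strong induction on the number of bad positions
  have key : ∀ n : ℕ, ∀ z : S ⊕ U → ℕ,
      (univ.filter (fun p : U => z (Sum.inr p) ≠ w p)).card = n → Sy b w z ∈ W := by
    intro n
    induction n using Nat.strong_induction_on with
    | _ n ih =>
      intro z hn
      by_cases h1 : ∃ p : U, w p < z (Sum.inr p)
      · obtain ⟨p, hp⟩ := h1
        have hg := garnir_Sy hb w z p (w p) hp
        set F := univ.filter (fun q : S ⊕ U => z q = w p) with hF
        set P : S ⊕ U → Prop := fun q => ∃ u : U, q = Sum.inr u ∧ w u = w p with hP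
        rw [← Finset.sum_filter_add_sum_filter_not F P] at hg
        have hF1 : ∑ q ∈ F.filter P, Sy b w (fun r => z (swap (Sum.inr p) q r)) =
            ((F.filter P).card : ℚ) • Sy b w z := by
          rw [Finset.sum_congr rfl (g := fun _ => Sy b w z)]
          · rw [Finset.sum_const]
            rw [Nat.cast_smul_eq_nsmul]
          · intro q hq
            simp only [mem_filter, hP] at hq
            obtain ⟨_, u, rfl, hu⟩ := hq
            have hd : ∀ r, w (swap p u r) = w r := by
              intro r
              by_cases h0 : r = p
              · rw [h0, swap_apply_left, hu]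
              · by_cases h1 : r = u
                · rw [h1, swap_apply_right, hu]
                · rw [swap_apply_of_ne_of_ne h0 h1]
            rw [← Sy_inv b w z (swap p u) hd]
            congr 1
            funext r
            congr 1
            rcases r with r | r
            · have e1 : swap (Sum.inr p) (Sum.inr u) (Sum.inl r) = (Sum.inl r : S ⊕ U) :=
                swap_apply_of_ne_of_ne (by simp) (by simp)
              have e2 : Equiv.sumCongr (1 : Perm S) (swap p u) (Sum.inl r) =
                (Sum.inl r : S ⊕ U) := rfl
              rw [e1, e2]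
            · simp only [sumCongr_apply, Sum.map_inr]
              by_cases h0 : r = p
              · rw [h0, swap_apply_left, swap_apply_left]
              · by_cases h1 : r = u
                · rw [h1, swap_apply_right, swap_apply_right]
                · rw [swap_apply_of_ne_of_ne h0 h1,
                    swap_apply_of_ne_of_ne (by simpa using h0) (by simpa using h1)]
        have hF2 : ∑ q ∈ F.filter (fun q => ¬ P q), Sy b w (fun r => z (swap (Sum.inr p) q r)) ∈
            W := by
          refine Submodule.sum_mem _ fun q hq => ?_
          simp only [mem_filter, hF, mem_univ, true_and] at hq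
          obtain ⟨hzq, hnP⟩ := hq
          refine ih _ ?_ _ rfl
          rw [← hn]
          have hpB : p ∈ univ.filter (fun p : U => z (Sum.inr p) ≠ w p) := by
            simp only [mem_filter, mem_univ, true_and]
            omega
          refine lt_of_le_of_lt (Finset.card_le_card (t := (univ.filter
            (fun p : U => z (Sum.inr p) ≠ w p)).erase p) ?_) (Finset.card_erase_lt_of_mem hpB)
          intro u hu
          simp only [mem_filter, mem_univ, true_and] at hu
          rw [mem_erase]
          have hup : u ≠ p := by
            rintro rfl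
            rw [swap_apply_left] at hu
            exact hu hzq
          refine ⟨hup, ?_⟩
          simp only [mem_filter, mem_univ, true_and]
          by_cases huq : Sum.inr u = q
          · intro hz
            apply hnP
            refine ⟨u, huq.symm, ?_⟩
            rw [← hz, huq, hzq]
          · rw [swap_apply_of_ne_of_ne (by simpa using hup) huq] at hu
            exact hu
        rw [hF1] at hg
        have hcard : (0 : ℚ) < 1 + ((F.filter P).card : ℚ) := by
          have h0 : (0 : ℚ) ≤ ((F.filter P).card : ℚ) := Nat.cast_nonneg _
          linarith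
        have h3 : (1 + ((F.filter P).card : ℚ)) • Sy b w z =
            - ∑ q ∈ F.filter (fun q => ¬ P q), Sy b w (fun r => z (swap (Sum.inr p) q r)) := by
          rw [add_smul, one_smul]
          nth_rewrite 1 [hg]
          abel
        have h4 : Sy b w z = (1 + ((F.filter P).card : ℚ))⁻¹ •
            ((1 + ((F.filter P).card : ℚ)) • Sy b w z) := by
          rw [smul_smul, inv_mul_cancel₀ hcard.ne', one_smul]
        rw [h4, h3]
        exact Submodule.smul_mem _ _ (Submodule.neg_mem _ hF2)
      · push Not at h1
        by_cases h2 : ∀ p : U, z (Sum.inr p) = w p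
        · -- base case
          have hzc : ∀ c : Perm U, (∀ p, w (c p) = w p) →
              (fun r => z (Equiv.sumCongr (1 : Perm S) c r)) = z := by
            intro c hc
            funext r
            rcases r with r | r
            · simp
            · simp only [sumCongr_apply, Sum.map_inr]
              rw [h2, h2, hc]
          have hS : Sy b w z = ((univ.filter (fun c : Perm U => ∀ p, w (c p) = w p)).card : ℚ) •
              fun x => E b x z := by
            funext x
            unfold Sy
            rw [← Finset.sum_filter]
            rw [Finset.sum_congr rfl (g := fun _ => E b x z)]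
            · rw [Finset.sum_const, nsmul_eq_mul]
              simp
            · intro c hc
              simp only [mem_filter, mem_univ, true_and] at hc
              rw [hzc c hc]
          rw [hS]
          refine Submodule.smul_mem _ _ ?_
          by_cases hx : ∃ x, E b x z ≠ 0
          · obtain ⟨x, hx⟩ := hx
            have hge : ∀ p : S, 2 ≤ z (Sum.inl p) := by
              intro p
              by_contra hlt
              push Not at hlt
              have hcnt := count_eq hx (z (Sum.inl p))
              rw [hbdef, count_b s m w g hw _ hlt] at hcnt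
              have : (univ.filter (fun u : U => w u = z (Sum.inl p))).card <
                  (univ.filter (fun q => z q = z (Sum.inl p))).card := by
                rw [← Finset.card_map ⟨Sum.inr, Sum.inr_injective (α := S)⟩]
                apply Finset.card_lt_card
                rw [Finset.ssubset_iff_of_subset]
                · refine ⟨Sum.inl p, by simp, by simp⟩
                · intro q hq
                  simp only [mem_map, mem_filter, mem_univ, true_and,
                    Function.Embedding.coeFn_mk] at hq ⊢
                  obtain ⟨u, hu, rfl⟩ := hq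
                  rw [h2, hu]
              omega
            apply Submodule.subset_span
            refine ⟨fun p => z (Sum.inl p) - 2, ?_⟩
            funext x'
            show E b x' _ = E b x' z
            congr 1
            funext r
            rcases r with r | r
            · simp only [Sum.elim_inl]
              have := hge r
              omega
            · simp only [Sum.elim_inr]
              rw [h2]
          · push Not at hx
            have : (fun x => E b x z) = 0 := by
              funext x
              exact hx x
            rw [this]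
            exact Submodule.zero_mem _
        · -- too many zeros
          push Not at h2
          obtain ⟨p0, hp0⟩ := h2
          have hle := h1 p0
          have hw0 := hw2 p0
          have hz0 : z (Sum.inr p0) = 0 := by omega
          have hwp0 : w p0 = 1 := by omega
          have hzero : Sy b w z = 0 := by
            funext x
            unfold Sy
            refine Finset.sum_eq_zero fun c _ => ?_
            split_ifs with hc
            · by_contra hE
              have hcnt := count_eq hE 0
              rw [hbdef, count_b s m w g hw 0 (by norm_num)] at hcnt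
              have h3 : (univ.filter
                  (fun q => z (Equiv.sumCongr (1 : Perm S) c q) = 0)).card =
                  (univ.filter (fun q => z q = 0)).card := by
                refine Finset.card_bij (fun q _ => Equiv.sumCongr (1 : Perm S) c q) ?_ ?_ ?_
                · intro q hq
                  simp only [mem_filter, mem_univ, true_and] at hq ⊢
                  exact hq
                · intro q _ q' _ hqq
                  exact (Equiv.sumCongr (1 : Perm S) c).injective hqq
                · intro q hq
                  refine ⟨Equiv.sumCongr (1 : Perm S) c⁻¹ q, ?_, sumCongr_inv_apply c q⟩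
                  simp only [mem_filter, mem_univ, true_and] at hq ⊢
                  rw [sumCongr_inv_apply]
                  exact hq
              rw [h3] at hcnt
              have : (univ.filter (fun u : U => w u = 0)).card <
                  (univ.filter (fun q => z q = 0)).card := by
                rw [← Finset.card_map ⟨Sum.inr, Sum.inr_injective (α := S)⟩]
                apply Finset.card_lt_card
                rw [Finset.ssubset_iff_of_subset]
                · refine ⟨Sum.inr p0, by simpa using hz0, ?_⟩
                  simp only [mem_map, mem_filter, mem_univ, true_and,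
                    Function.Embedding.coeFn_mk, not_exists, not_and]
                  intro u hu h
                  have := Sum.inr_injective h
                  subst this
                  omega
                · intro q hq
                  simp only [mem_map, mem_filter, mem_univ, true_and,
                    Function.Embedding.coeFn_mk] at hq ⊢
                  obtain ⟨u, hu, rfl⟩ := hq
                  have := h1 u
                  omega
              omega
            · rfl
          rw [hzero]
          exact Submodule.zero_mem _
  exact key _ z rfl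

end Vale.Agent.P197
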