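import Vale.Agent.P197.Block
import Vale.Agent.P197.Kernel
import Vale.Agent.P197.Schur
import Vale.Agent.P197.Straight

/-! # P197 [CA] -/

namespace Vale.Agent.P197

open Equiv Finset

variable {S U : Type} [Fintype S] [DecidableEq S] [Fintype U] [DecidableEq U]

namespace CA

/-- First coordinates of a relabelling of `m`. -/
def M1 {I : Type} (m : I → ℕ × ℕ) (g : Perm I) : I → ℕ := fun p => (m (g p)).1

/-- Second coordinates of a relabelling of `m`. -/
def M2 {I : Type} (m : I → ℕ × ℕ) (g : Perm I) : I → ℕ := fun p => (m (g p)).2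

/-- The function `h_{x'}`. -/
noncomputable def h (s : S → ℕ × ℕ) (m : U → ℕ × ℕ) (w : U → ℕ) (x' : S → ℕ)
    (x : S ⊕ U → ℕ) : ℚ :=
  ∑ g : Perm U, E m (M1 m g) w * G (glue s m) x (Sum.elim x' (M1 m g))

/-- The reduced kernel `K`. -/
noncomputable def K (s : S → ℕ × ℕ) (m : U → ℕ × ℕ) (w : U → ℕ) (x₁ x' : S → ℕ) : ℚ :=
  ∑ g : Perm U, E m (M1 m g) w * h s m w x' (Sum.elim x₁ (M1 m g))

theorem M1_mul {I : Type} (m : I → ℕ × ℕ) (g c : Perm I) :
    (fun p => M1 m g (c p)) = M1 m (g * c) := rfl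

theorem E_M1 (m : U → ℕ × ℕ) (w : U → ℕ) (g c : Perm U) (hc : ∀ p, w (c p) = w p) :
    E m (M1 m (g * c)) w = ((Perm.sign c : ℤ) : ℚ) * E m (M1 m g) w := by
  rw [← E_comp m (M1 m g) w c, M1_mul]
  congr 1
  funext p
  exact (hc p).symm

theorem h_alt (s : S → ℕ × ℕ) (m : U → ℕ × ℕ) (w : U → ℕ) (x' : S → ℕ)
    (x : S ⊕ U → ℕ) (c : Perm U) (hc : ∀ p, w (c p) = w p) :
    h s m w x' (fun p => x (Equiv.sumCongr 1 c p)) =
      ((Perm.sign c : ℤ) : ℚ) * h s m w x' x := by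
  unfold h
  rw [Finset.mul_sum]
  refine Fintype.sum_equiv (Equiv.mulRight c⁻¹) _ _ ?_
  intro g
  have h1 : E m (M1 m g) w = ((Perm.sign c : ℤ) : ℚ) * E m (M1 m (g * c⁻¹)) w := by
    rw [← E_M1 m w (g * c⁻¹) c hc, inv_mul_cancel_right]
  have h2 : G (glue s m) (fun p => x (Equiv.sumCongr 1 c p)) (Sum.elim x' (M1 m g)) =
      G (glue s m) x (Sum.elim x' (M1 m (g * c⁻¹))) := by
    rw [← G_comp (glue s m) x (Sum.elim x' (M1 m (g * c⁻¹))) (Equiv.sumCongr 1 c)]
    congr 1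
    funext p
    rcases p with p | p
    · rfl
    · simp [M1]
  simp only [Equiv.coe_mulRight]
  rw [h1, h2, mul_assoc]

/-- coefficients of `h` in the polytabloids. -/
noncomputable def coef (s : S → ℕ × ℕ) (m : U → ℕ × ℕ) (w : U → ℕ) (x' : S → ℕ)
    (k : Perm (S ⊕ U)) : ℚ :=
  ∑ g : Perm U, E m (M1 m g) w * E (glue s m) (Sum.elim x' (M1 m g)) (M2 (glue s m) k)

theorem h_eq_coef (s : S → ℕ × ℕ) (m : U → ℕ × ℕ) (w : U → ℕ) (x' : S → ℕ)
    (x : S ⊕ U → ℕ) :
    h s m w x' x = ∑ k : Perm (S ⊕ U), coef s m w x' k * E (glue s m) x (M2 (glue s m) k) := by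
  unfold h coef G
  simp only [Finset.mul_sum, Finset.sum_mul]
  rw [Finset.sum_comm]
  refine Finset.sum_congr rfl fun k _ => Finset.sum_congr rfl fun g _ => ?_
  change _ * (E (glue s m) x (M2 (glue s m) k) *
    E (glue s m) (Sum.elim x' (M1 m g)) (M2 (glue s m) k)) = _
  ring

/-- The linear map `f ↦ f(x.inl) e(x.inr)`. -/
noncomputable def L (S : Type) {U : Type} [Fintype U] [DecidableEq U] (m : U → ℕ × ℕ)
    (w : U → ℕ) : ((S → ℕ) → ℚ) →ₗ[ℚ] ((S ⊕ U → ℕ) → ℚ) where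
  toFun f x := f (fun p => x (Sum.inl p)) * E m (fun p => x (Sum.inr p)) w
  map_add' f g := by funext x; simp [add_mul]
  map_smul' a f := by funext x; simp [mul_assoc]

/-- The span of polytabloids on `S`. -/
noncomputable def W (s : S → ℕ × ℕ) : Submodule ℚ ((S → ℕ) → ℚ) :=
  Submodule.span ℚ (Set.range fun (z : S → ℕ) (x : S → ℕ) => E s x z)

theorem span_eq {s : S → ℕ × ℕ} {m : U → ℕ × ℕ} (hm : ∀ p, (m p).2 < 2) (w : U → ℕ)
    (hw : ∀ p, w p < 2) :
    Submodule.span ℚ (Set.range fun (z₁ : S → ℕ) (x : S ⊕ U → ℕ) =>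
        E (glue s m) x (Sum.elim (fun p => z₁ p + 2) w)) = (W s).map (L S m w) := by
  rw [W, Submodule.map_span, ← Set.range_comp]
  congr 2
  funext z₁ x
  rw [block s m hm z₁ w hw x]
  rfl

theorem h_block {a : ℕ} {s : S → ℕ × ℕ} {m : U → ℕ × ℕ} (hs : IsStair a s)
    (hm : IsMu (a + 2) m) (w : U → ℕ) (hw : ∀ p, w p < 2) (g₀ : Perm U)
    (hg₀ : ∀ p, w p = (m (g₀ p)).2) (x' : S → ℕ) :
    ∃ f ∈ W s, ∀ x, h s m w x' x =
      f (fun p => x (Sum.inl p)) * E m (fun p => x (Sum.inr p)) w := by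
  set N : ℚ := ((univ.filter (fun c : Perm U => ∀ p, w (c p) = w p)).card : ℚ) with hN
  have hNpos : N ≠ 0 := by
    rw [hN]
    have : (univ.filter (fun c : Perm U => ∀ p, w (c p) = w p)).Nonempty :=
      ⟨1, by simp⟩
    exact_mod_cast (Finset.card_pos.2 this).ne'
  have h1 : (fun x => N * h s m w x' x) = ∑ k : Perm (S ⊕ U), coef s m w x' k •
      (fun x : S ⊕ U → ℕ => ∑ c : Perm U, if (∀ p, w (c p) = w p) then
        ((Perm.sign c : ℤ) : ℚ) * E (glue s m) (fun p => x (Equiv.sumCongr 1 c p))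
          (M2 (glue s m) k) else 0) := by
    funext x
    rw [Finset.sum_apply]
    simp only [Pi.smul_apply, smul_eq_mul]
    have h2 : N * h s m w x' x = ∑ c : Perm U, if (∀ p, w (c p) = w p) then
        ((Perm.sign c : ℤ) : ℚ) * h s m w x' (fun p => x (Equiv.sumCongr 1 c p)) else 0 := by
      rw [← Finset.sum_filter, hN, ← nsmul_eq_mul, ← Finset.sum_const]
      refine Finset.sum_congr rfl fun c hc => ?_
      rw [Finset.mem_filter] at hc
      rw [h_alt s m w x' x c hc.2, ← mul_assoc, ← Int.cast_mul, ← Units.val_mul,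
        Int.units_mul_self]
      simp
    rw [h2]
    simp only [Finset.mul_sum]
    rw [Finset.sum_comm]
    refine Finset.sum_congr rfl fun c _ => ?_
    by_cases hc : ∀ p, w (c p) = w p
    · simp only [if_pos hc]
      rw [h_eq_coef, Finset.mul_sum]
      refine Finset.sum_congr rfl fun k _ => ?_
      ring
    · simp [if_neg hc]
  have h3 : (fun x => N * h s m w x' x) ∈ (W s).map (L S m w) := by
    rw [h1]
    refine Submodule.sum_mem _ fun k _ => Submodule.smul_mem _ _ ?_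
    rw [← span_eq (s := s) (fun p => ((hm.2 (m p)).1 ⟨p, rfl⟩).2) w hw]
    exact straight hs hm w g₀ hg₀ _
  obtain ⟨f, hf, hfL⟩ := Submodule.mem_map.1 h3
  refine ⟨N⁻¹ • f, Submodule.smul_mem _ _ hf, fun x => ?_⟩
  have h4 := congrFun hfL x
  change f (fun p => x (Sum.inl p)) * E m (fun p => x (Sum.inr p)) w = N * h s m w x' x at h4
  rw [Pi.smul_apply, smul_eq_mul, mul_assoc, h4, ← mul_assoc, inv_mul_cancel₀ hNpos, one_mul]

theorem K_eq (s : S → ℕ × ℕ) (m : U → ℕ × ℕ) (w : U → ℕ) (x₁ x' : S → ℕ) :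
    K s m w x₁ x' = ∑ g : Perm U, ∑ g' : Perm U, E m (M1 m g) w * E m (M1 m g') w *
      G (glue s m) (Sum.elim x₁ (M1 m g)) (Sum.elim x' (M1 m g')) := by
  unfold K h
  refine Finset.sum_congr rfl fun g _ => ?_
  rw [Finset.mul_sum]
  refine Finset.sum_congr rfl fun g' _ => ?_
  ring

theorem K_comm (s : S → ℕ × ℕ) (m : U → ℕ × ℕ) (w : U → ℕ) (x₁ x' : S → ℕ) :
    K s m w x₁ x' = K s m w x' x₁ := by
  rw [K_eq, K_eq, Finset.sum_comm]
  refine Finset.sum_congr rfl fun g _ => Finset.sum_congr rfl fun g' _ => ?_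
  rw [G_comm]
  ring

theorem K_comp (s : S → ℕ × ℕ) (m : U → ℕ × ℕ) (w : U → ℕ) (x₁ x' : S → ℕ) (k : Perm S) :
    K s m w (fun p => x₁ (k p)) (fun p => x' (k p)) = K s m w x₁ x' := by
  rw [K_eq, K_eq]
  refine Finset.sum_congr rfl fun g _ => Finset.sum_congr rfl fun g' _ => ?_
  rw [← G_comp (glue s m) (Sum.elim x₁ (M1 m g)) (Sum.elim x' (M1 m g'))
    (Equiv.sumCongr k 1)]
  congr 2
  · funext p; rcases p with p | p <;> rfl
  · funext p; rcases p with p | p <;> rfl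

theorem K_self (s : S → ℕ × ℕ) (m : U → ℕ × ℕ) (w : U → ℕ) (x₁ : S → ℕ) :
    K s m w x₁ x₁ = ∑ k : Perm (S ⊕ U), (coef s m w x₁ k) ^ 2 := by
  have h1 : K s m w x₁ x₁ = ∑ g : Perm U, ∑ k : Perm (S ⊕ U), E m (M1 m g) w *
      (coef s m w x₁ k * E (glue s m) (Sum.elim x₁ (M1 m g)) (M2 (glue s m) k)) := by
    unfold K
    refine Finset.sum_congr rfl fun g _ => ?_
    rw [h_eq_coef, Finset.mul_sum]
  rw [h1, Finset.sum_comm]
  refine Finset.sum_congr rfl fun k _ => ?_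
  rw [sq]
  conv_rhs =>
    arg 1
    rw [coef]
  rw [Finset.sum_mul]
  refine Finset.sum_congr rfl fun g _ => ?_
  ring

theorem W_sum {s : S → ℕ × ℕ} {f : (S → ℕ) → ℚ} (hf : f ∈ W s) (x : S → ℕ) (hx : f x ≠ 0) :
    ∑ p, x p = ∑ p, (s p).1 := by
  by_contra hne
  apply hx
  clear hx
  unfold W at hf
  induction hf using Submodule.span_induction with
  | mem f hf =>
    obtain ⟨z, rfl⟩ := hf
    by_contra h
    exact hne (E_sum_fst h)
  | zero => rfl
  | add f g _ _ hf hg => rw [Pi.add_apply, hf, hg, add_zero]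
  | smul a f _ hf => rw [Pi.smul_apply, hf, smul_zero]

theorem G_W {s : S → ℕ × ℕ} {lam : ℚ} (hlam : ∀ x z, ∑ h : Perm S,
      G s x (fun p => (s (h p)).1) * E s (fun p => (s (h p)).1) z = lam * E s x z)
    {f : (S → ℕ) → ℚ} (hf : f ∈ W s) (x : S → ℕ) :
    ∑ k : Perm S, G s x (M1 s k) * f (M1 s k) = lam * f x := by
  unfold W at hf
  induction hf using Submodule.span_induction with
  | mem f hf =>
    obtain ⟨z, rfl⟩ := hf
    exact hlam x z
  | zero => simp
  | add f g _ _ hf hg =>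
    simp only [Pi.add_apply, mul_add, Finset.sum_add_distrib, hf, hg]
  | smul a f _ hf =>
    simp only [Pi.smul_apply, smul_eq_mul]
    rw [mul_left_comm, ← hf, Finset.mul_sum]
    refine Finset.sum_congr rfl fun k _ => ?_
    ring

end CA

theorem claimA {a : ℕ} {s : S → ℕ × ℕ} {m : U → ℕ × ℕ} (hs : IsStair a s)
    (hm : IsMu (a + 2) m) (w : U → ℕ) (hw : ∀ p, w p < 2) (x₁' : S → ℕ) :
    ∃ κ : ℚ, ∀ x : S ⊕ U → ℕ,
      G s (fun p => x (Sum.inl p)) x₁' * E m (fun p => x (Sum.inr p)) w =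
        κ * ∑ g : Perm U, E m (fun p => (m (g p)).1) w *
          G (glue s m) x (Sum.elim x₁' (fun p => (m (g p)).1)) := by
  by_cases hE : ∀ x, E m x w = 0
  · exact ⟨0, fun x => by rw [hE, mul_zero, zero_mul]⟩
  push Not at hE
  obtain ⟨x₂, hx₂⟩ := hE
  obtain ⟨g₀, hg₀⟩ := exists_perm_of_E_ne_zero hx₂
  have hg₀w : ∀ p, w p = (m (g₀ p)).2 := fun p => by rw [hg₀ p]
  -- q > 0
  set q : ℚ := ∑ g : Perm U, (E m (CA.M1 m g) w) ^ 2 with hq
  have hqpos : 0 < q := by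
    refine Finset.sum_pos' (fun g _ => sq_nonneg _) ⟨g₀, Finset.mem_univ _, ?_⟩
    have h1 : E m (CA.M1 m g₀) w = ((Perm.sign g₀ : ℤ) : ℚ) :=
      E_eq_sign hm.1 _ _ g₀ fun p => by rw [hg₀w p]; rfl
    rw [h1]
    rcases Int.units_eq_one_or (Perm.sign g₀) with h | h <;> simp [h]
  -- block form of h
  have hblock := CA.h_block hs hm w hw g₀ hg₀w
  choose f hfW hf using hblock
  have hK : ∀ x₁ x', CA.K s m w x₁ x' = q * f x' x₁ := by
    intro x₁ x'
    unfold CA.K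
    rw [hq, Finset.sum_mul]
    refine Finset.sum_congr rfl fun g _ => ?_
    rw [hf]
    simp only [Sum.elim_inl, Sum.elim_inr]
    change _ * (f x' x₁ * E m (CA.M1 m g) w) = _
    ring
  have hKW : ∀ x', (fun x₁ => CA.K s m w x₁ x') ∈ CA.W s := by
    intro x'
    have : (fun x₁ => CA.K s m w x₁ x') = q • f x' := by
      funext x₁
      rw [hK]; rfl
    rw [this]
    exact Submodule.smul_mem _ _ (hfW x')
  obtain ⟨lam, hlam, hG⟩ := G_E hs
  -- Θ
  set Θ : (S → ℕ) → (S → ℕ) → ℚ := fun x' z =>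
    ∑ k : Perm S, E s (CA.M1 s k) z * CA.K s m w (CA.M1 s k) x' with hΘdef
  have hΘ := schur hs Θ (by
    intro k x z
    simp only [hΘdef]
    rw [Finset.mul_sum]
    refine Fintype.sum_equiv (Equiv.mulRight k⁻¹) _ _ ?_
    intro l
    have h1 : CA.M1 s l = fun p => CA.M1 s (l * k⁻¹) (k p) := by
      rw [CA.M1_mul, inv_mul_cancel_right]
    simp only [Equiv.coe_mulRight]
    conv_lhs => rw [h1]
    rw [E_comp, CA.K_comp]
    ring) (by
    intro x z hne
    obtain ⟨k, _, hk⟩ := Finset.exists_ne_zero_of_sum_ne_zero hne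
    have h1 : E s (CA.M1 s k) z ≠ 0 := left_ne_zero_of_mul hk
    have h2 : CA.K s m w (CA.M1 s k) x ≠ 0 := right_ne_zero_of_mul hk
    rw [CA.K_comm] at h2
    have h3 := CA.W_sum (hKW (CA.M1 s k)) x h2
    rw [Finset.sum_add_distrib, Finset.sum_add_distrib, h3, E_sum_snd h1])
  set T₀ : ℚ := Θ (fun p => (s p).1) (fun p => (s p).2) with hT₀
  have hmain : ∀ x x', lam * CA.K s m w x x' = T₀ * G s x x' := by
    intro x x'
    rw [← CA.G_W hG (hKW x') x]
    have h1 : ∀ k : Perm S, G s x (CA.M1 s k) * CA.K s m w (CA.M1 s k) x' =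
        ∑ l : Perm S, E s x (CA.M2 s l) *
          (E s (CA.M1 s k) (CA.M2 s l) * CA.K s m w (CA.M1 s k) x') := by
      intro k
      unfold G
      rw [Finset.sum_mul]
      refine Finset.sum_congr rfl fun l _ => ?_
      change E s x (CA.M2 s l) * E s (CA.M1 s k) (CA.M2 s l) * _ = _
      ring
    rw [Finset.sum_congr rfl fun k _ => h1 k, Finset.sum_comm]
    unfold G
    rw [Finset.mul_sum]
    refine Finset.sum_congr rfl fun l _ => ?_
    rw [← Finset.mul_sum]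
    have h2 := hΘ x' (CA.M2 s l)
    simp only [hΘdef] at h2
    rw [h2]
    change E s x (CA.M2 s l) * (T₀ * E s x' (CA.M2 s l)) =
      T₀ * (E s x (CA.M2 s l) * E s x' (CA.M2 s l))
    ring
  have hKpos : 0 < CA.K s m w (fun p => (s p).1) (fun p => (s p).1) := by
    rw [CA.K_self]
    refine Finset.sum_pos' (fun k _ => sq_nonneg _)
      ⟨Equiv.sumCongr 1 g₀, Finset.mem_univ _, ?_⟩
    have h1 : CA.M2 (glue s m) (Equiv.sumCongr 1 g₀) =
        Sum.elim (fun p => (s p).2 + 2) w := by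
      funext p
      rcases p with p | p
      · rfl
      · simp only [CA.M2, glue, Equiv.sumCongr_apply, Sum.map_inr, Sum.elim_inr, hg₀w p]
    have h2 : CA.coef s m w (fun p => (s p).1) (Equiv.sumCongr 1 g₀) = q := by
      unfold CA.coef
      rw [hq, h1]
      refine Finset.sum_congr rfl fun g _ => ?_
      rw [block s m (fun p => ((hm.2 (m p)).1 ⟨p, rfl⟩).2) _ w hw]
      simp only [Sum.elim_inl, Sum.elim_inr]
      have h3 : E s (fun p => (s p).1) (fun p => (s p).2) = 1 := by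
        rw [E_eq_sign hs.1 (fun p => (s p).1) (fun p => (s p).2) 1 (fun p => rfl)]
        simp
      rw [h3]
      change _ * (1 * E m (CA.M1 m g) w) = _
      ring
    rw [h2]
    positivity
  have hT₀ne : T₀ ≠ 0 := by
    intro h0
    have h1 := hmain (fun p => (s p).1) (fun p => (s p).1)
    rw [h0, zero_mul] at h1
    exact (mul_pos hlam hKpos).ne' h1
  refine ⟨q * lam / T₀, fun x => ?_⟩
  have h1 := hmain (fun p => x (Sum.inl p)) x₁'
  have h2 := hf x₁' x
  have h3 := hK (fun p => x (Sum.inl p)) x₁'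
  change _ = q * lam / T₀ * CA.h s m w x₁' x
  rw [h2]
  field_simp
  linear_combination (-(E m (fun p => x (Sum.inr p)) w)) * h1 +
    (E m (fun p => x (Sum.inr p)) w * lam) * h3

end Vale.Agent.P197
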