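import Vale.Agent.P197.Kernel

/-! # P197: the one-element Garnir relation (piece [K2]). -/

namespace Vale.Agent.P197

open Equiv Finset

variable {I : Type} [Fintype I] [DecidableEq I]

/-- one-element Garnir relation -/
theorem garnir {a : ℕ} {b : I → ℕ × ℕ} (hb : IsStair a b) (x z : I → ℕ) (p : I) (i : ℕ)
    (hi : i < z p) :
    E b x z = - ∑ q ∈ univ.filter (fun q => z q = i), E b x (fun r => z (swap p q r)) := by
  classical
  set f : I → ℚ := fun q => E b x (fun r => z (swap p q r)) with hf
  set K : Finset I := insert p (univ.filter (fun q => z q = i)) with hK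
  have hp : p ∉ univ.filter (fun q => z q = i) := by
    simp only [mem_filter, mem_univ, true_and]
    omega
  have hfp : f p = E b x z := by
    simp only [hf, swap_self, Equiv.refl_apply]
  have hsum : ∑ q ∈ K, f q = 0 → E b x z = - ∑ q ∈ univ.filter (fun q => z q = i), f q := by
    intro h
    rw [hK, sum_insert hp, hfp] at h
    linarith
  apply hsum
  have hmem : ∀ q, q ∈ K ↔ q = p ∨ z q = i := by
    intro q
    simp [hK]
  by_cases hall : ∀ q ∈ K, f q = 0
  · exact sum_eq_zero hall
  push Not at hall
  obtain ⟨q0, hq0, hne⟩ := hall
  -- the word z ∘ swap p q0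
  obtain ⟨g, hg⟩ := exists_perm_of_E_ne_zero hne
  have hv : z (swap p q0 q0) = z p := by rw [swap_apply_right]
  have hlt : x q0 + z p < a := by
    have := E_lt hb hne q0
    simpa [hv] using this
  obtain ⟨p', hp'⟩ := (hb.2 (x q0, i)).2 (by show x q0 + i < a; omega)
  set q1 : I := g⁻¹ p' with hq1
  have hg1 : b (g q1) = (x q1, z (swap p q0 q1)) := hg q1
  have hg1' : g q1 = p' := by simp [hq1]
  rw [hg1', hp'] at hg1
  rw [Prod.ext_iff] at hg1
  have hx1 : x q1 = x q0 := hg1.1.symm
  have hz1 : z (swap p q0 q1) = i := hg1.2.symm
  have hne01 : q1 ≠ q0 := by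
    intro h
    rw [h, hv] at hz1
    omega
  have hq1K : q1 ∈ K := by
    rw [hmem]
    by_cases h : q1 = p
    · exact Or.inl h
    · right
      rwa [swap_apply_of_ne_of_ne h hne01] at hz1
  have hf1 : f q1 = - f q0 := by
    have h := E_comp b x (fun r => z (swap p q0 r)) (swap q0 q1)
    have hx : (fun r => x (swap q0 q1 r)) = x := by
      funext r
      by_cases h0 : r = q0
      · rw [h0, swap_apply_left, hx1]
      · by_cases h1 : r = q1
        · rw [h1, swap_apply_right, hx1]
        · rw [swap_apply_of_ne_of_ne h0 h1]
    have hz : (fun r => z (swap p q0 (swap q0 q1 r))) = fun r => z (swap p q1 r) := by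
      funext r
      by_cases h0 : r = q0
      · subst h0
        rw [swap_apply_left, hz1]
        by_cases h : r = p
        · subst h
          rw [swap_apply_left]
          rw [swap_self, Equiv.refl_apply] at hz1
          exact hz1.symm
        · rw [swap_apply_of_ne_of_ne h hne01.symm]
          rcases (hmem r).1 hq0 with h' | h'
          · exact absurd h' h
          · exact h'.symm
      · by_cases h1 : r = q1
        · rw [h1, swap_apply_right, swap_apply_right, swap_apply_right]
        · rw [swap_apply_of_ne_of_ne h0 h1]
          by_cases h : r = p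
          · subst h
            rw [swap_apply_left, swap_apply_left]
            have e0 : z q0 = i := by
              rcases (hmem q0).1 hq0 with h' | h'
              · exact absurd h'.symm h0
              · exact h'
            have e1 : z q1 = i := by
              rcases (hmem q1).1 hq1K with h' | h'
              · exact absurd h'.symm h1
              · exact h'
            rw [e0, e1]
          · rw [swap_apply_of_ne_of_ne h h0, swap_apply_of_ne_of_ne h h1]
    rw [hx, hz, Perm.sign_swap hne01.symm] at h
    simp only [hf]
    rw [h]
    simp
  rw [sum_eq_add q0 q1 hne01.symm]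
  · rw [hf1]; ring
  · intro q hq hqne
    -- q0 and q1 carry the same cell
    have h0 : z (swap p q q0) = i := by
      rcases eq_or_ne q0 p with h | h
      · subst h
        rw [swap_apply_left]
        rcases (hmem q).1 hq with h' | h'
        · exact absurd h' hqne.1
        · exact h'
      · rw [swap_apply_of_ne_of_ne h hqne.1.symm]
        rcases (hmem q0).1 hq0 with h' | h'
        · exact absurd h' h
        · exact h'
    have h1 : z (swap p q q1) = i := by
      rcases eq_or_ne q1 p with h | h
      · rw [h, swap_apply_left]
        rcases (hmem q).1 hq with h' | h'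
        · exact absurd (h'.trans h.symm) hqne.2
        · exact h'
      · rw [swap_apply_of_ne_of_ne h hqne.2.symm]
        rcases (hmem q1).1 hq1K with h' | h'
        · exact absurd h' h
        · exact h'
    exact E_eq_zero_of_eq hb.1 hne01 hx1 (h1.trans h0.symm)
  · intro h; exact absurd hq0 h
  · intro h; exact absurd hq1K h

end Vale.Agent.P197
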