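import Vale.Agent.P197.Kernel
import Vale.Agent.P197.Weight

/-! # P197 [ISO]: isolation -/

namespace Vale.Agent.P197

open Equiv Finset

variable {S U : Type} [Fintype S] [DecidableEq S] [Fintype U] [DecidableEq U]

/-- summand of `YS` -/
noncomputable def ysTerm {I : Type} [Fintype I] [DecidableEq I] (ρ γ : I → ℕ)
    (F : (I → ℕ) → (I → ℕ) → ℚ) (x y : I → ℕ) (c r : Perm I) : ℚ :=
  if (∀ p, γ (c p) = γ p) ∧ (∀ p, ρ (r p) = ρ p) then
      ((Perm.sign c : ℤ) : ℚ) * F (fun p => x (c (r p))) (fun p => y (c (r p))) else 0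

theorem image_inl_eq_of_weight (w : S ⊕ U → ℤ) (k : ℤ) (hlow : ∀ p, w (Sum.inl p) < k)
    (hhigh : ∀ p, k ≤ w (Sum.inr p)) (g : Perm (S ⊕ U))
    (hsum : ∑ p : S, w (g (Sum.inl p)) = ∑ p : S, w (Sum.inl p)) :
    (univ.image fun p : S => g (Sum.inl p)) = univ.image (Sum.inl : S → S ⊕ U) := by
  have hi1 : Function.Injective (fun p : S => g (Sum.inl p)) :=
    g.injective.comp Sum.inl_injective
  apply eq_of_sum_eq _ _ w k
  · rw [Finset.card_image_of_injective _ hi1, Finset.card_image_of_injective _ Sum.inl_injective]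
  · intro p hp
    obtain ⟨q, _, rfl⟩ := Finset.mem_image.1 hp
    exact hlow q
  · intro p hp
    rcases p with p | p
    · exact absurd (Finset.mem_image_of_mem _ (mem_univ p)) hp
    · exact hhigh p
  · rw [Finset.sum_image (fun a _ b _ h => hi1 h),
      Finset.sum_image (fun a _ b _ h => Sum.inl_injective h), hsum]

theorem mem_range_of_image (g : Perm (S ⊕ U))
    (h : (univ.image fun p : S => g (Sum.inl p)) = univ.image (Sum.inl : S → S ⊕ U)) :
    g ∈ (Perm.sumCongrHom S U).range := by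
  apply Perm.mem_sumCongrHom_range_of_perm_mapsTo_inl
  rintro _ ⟨p, rfl⟩
  have : g (Sum.inl p) ∈ univ.image (Sum.inl : S → S ⊕ U) := by
    rw [← h]
    exact Finset.mem_image_of_mem (fun p : S => g (Sum.inl p)) (mem_univ p)
  obtain ⟨q, _, hq⟩ := Finset.mem_image.1 this
  exact ⟨q, hq⟩

theorem isolation (ρ₁ γ₁ x₁ y₁ : S → ℕ) (ρ₂ γ₂ x₂ y₂ : U → ℕ) (t : ℕ → ℕ) (k : ℕ)
    (hS : ∀ p, t (γ₁ p) ≤ ρ₁ p) (hU : ∀ p, ρ₂ p < t (γ₂ p))
    (hlow : ∀ p, x₁ p + y₁ p < k) (hhigh : ∀ p, k ≤ x₂ p + y₂ p)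
    (FS : (S → ℕ) → (S → ℕ) → ℚ) (FU : (U → ℕ) → (U → ℕ) → ℚ)
    (hF : ∀ u v, FS u v ≠ 0 → ∑ p, (u p + v p) = ∑ p, (x₁ p + y₁ p)) :
    YS (Sum.elim ρ₁ ρ₂) (Sum.elim γ₁ γ₂)
      (fun u v => FS (fun p => u (Sum.inl p)) (fun p => v (Sum.inl p)) *
        FU (fun p => u (Sum.inr p)) (fun p => v (Sum.inr p)))
      (Sum.elim x₁ x₂) (Sum.elim y₁ y₂) = YS ρ₁ γ₁ FS x₁ y₁ * YS ρ₂ γ₂ FU x₂ y₂ := by
  set ρ : S ⊕ U → ℕ := Sum.elim ρ₁ ρ₂ with hρ
  set γ : S ⊕ U → ℕ := Sum.elim γ₁ γ₂ with hγ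
  set x : S ⊕ U → ℕ := Sum.elim x₁ x₂ with hx
  set y : S ⊕ U → ℕ := Sum.elim y₁ y₂ with hy
  set F : (S ⊕ U → ℕ) → (S ⊕ U → ℕ) → ℚ := fun u v =>
    FS (fun p => u (Sum.inl p)) (fun p => v (Sum.inl p)) *
        FU (fun p => u (Sum.inr p)) (fun p => v (Sum.inr p)) with hFdef
  -- only block permutations contribute
  have key : ∀ c r : Perm (S ⊕ U), ysTerm ρ γ F x y c r ≠ 0 →
      c ∈ (Perm.sumCongrHom S U).range ∧ r ∈ (Perm.sumCongrHom S U).range := by
    intro c r hne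
    unfold ysTerm at hne
    by_cases hc : (∀ p, γ (c p) = γ p) ∧ (∀ p, ρ (r p) = ρ p)
    swap
    · rw [if_neg hc] at hne
      exact absurd rfl hne
    rw [if_pos hc] at hne
    have hFS := left_ne_zero_of_mul (right_ne_zero_of_mul hne)
    have hsum := hF _ _ hFS
    have h1 := image_inl_eq_of_weight (fun q : S ⊕ U => ((x q + y q : ℕ) : ℤ)) (k : ℤ)
      (fun p => by
        simp only [hx, hy, Sum.elim_inl]
        exact_mod_cast hlow p)
      (fun p => by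
        simp only [hx, hy, Sum.elim_inr]
        exact_mod_cast hhigh p) (c * r)
      (by
        have : ∑ p : S, (x (c (r (Sum.inl p))) + y (c (r (Sum.inl p)))) =
            ∑ p : S, (x (Sum.inl p) + y (Sum.inl p)) := by
          simpa [hx, hy] using hsum
        exact_mod_cast this)
    have h2 := mem_range_of_image _ h1
    -- now `r` preserves `S`
    obtain ⟨⟨g₁, g₂⟩, hg⟩ := h2
    have hcr : ∀ p : S, c (r (Sum.inl p)) = Sum.inl (g₁ p) := by
      intro p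
      have := congrArg (fun f : Perm (S ⊕ U) => f (Sum.inl p)) hg
      simpa using this.symm
    have hr : r ∈ (Perm.sumCongrHom S U).range := by
      apply mem_range_of_image
      apply image_inl_eq_of_weight (fun q : S ⊕ U => (t (γ q) : ℤ) - (ρ q : ℤ)) 1
      · intro p
        have := hS p
        simp only [hρ, hγ, Sum.elim_inl]
        omega
      · intro p
        have := hU p
        simp only [hρ, hγ, Sum.elim_inr]
        omega
      · rw [Finset.sum_sub_distrib, Finset.sum_sub_distrib]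
        congr 1
        · have e1 : ∀ p : S, γ (r (Sum.inl p)) = γ (Sum.inl (g₁ p)) := by
            intro p
            rw [← hcr p, hc.1]
          simp only [e1]
          exact Equiv.sum_comp g₁ (fun p : S => (t (γ (Sum.inl p)) : ℤ))
        · exact Finset.sum_congr rfl fun p _ => by rw [hc.2]
    refine ⟨?_, hr⟩
    have : c = (c * r) * r⁻¹ := by group
    rw [this]
    exact (Perm.sumCongrHom S U).range.mul_mem ⟨⟨g₁, g₂⟩, hg⟩
      ((Perm.sumCongrHom S U).range.inv_mem hr)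
  have hinj : Function.Injective (Perm.sumCongrHom S U) := Perm.sumCongrHom_injective
  have hred : YS ρ γ F x y = ∑ c : Perm S × Perm U, ∑ r : Perm S × Perm U,
      ysTerm ρ γ F x y (Perm.sumCongrHom S U c) (Perm.sumCongrHom S U r) := by
    have h1 : YS ρ γ F x y = ∑ c : Perm (S ⊕ U), ∑ r : Perm (S ⊕ U), ysTerm ρ γ F x y c r := rfl
    rw [h1]
    symm
    apply Fintype.sum_of_injective (Perm.sumCongrHom S U) hinj
    · intro c hc
      refine Finset.sum_eq_zero fun r _ => ?_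
      by_contra hne
      exact hc (key c r hne).1
    · intro c
      apply Fintype.sum_of_injective (Perm.sumCongrHom S U) hinj
      · intro r hr
        by_contra hne
        exact hr (key _ r hne).2
      · intro r
        rfl
  have hterm : ∀ c r : Perm S × Perm U,
      ysTerm ρ γ F x y (Perm.sumCongrHom S U c) (Perm.sumCongrHom S U r) =
        ysTerm ρ₁ γ₁ FS x₁ y₁ c.1 r.1 * ysTerm ρ₂ γ₂ FU x₂ y₂ c.2 r.2 := by
    intro c r
    unfold ysTerm
    have hcond : ((∀ p, γ ((Perm.sumCongrHom S U c) p) = γ p) ∧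
        (∀ p, ρ ((Perm.sumCongrHom S U r) p) = ρ p)) ↔
        (((∀ p, γ₁ (c.1 p) = γ₁ p) ∧ (∀ p, ρ₁ (r.1 p) = ρ₁ p)) ∧
          ((∀ p, γ₂ (c.2 p) = γ₂ p) ∧ (∀ p, ρ₂ (r.2 p) = ρ₂ p))) := by
      simp only [Sum.forall, Perm.sumCongrHom_apply, Perm.sumCongr_apply, Sum.map_inl,
        Sum.map_inr, hρ, hγ, Sum.elim_inl, Sum.elim_inr]
      tauto
    have hval : F (fun p => x ((Perm.sumCongrHom S U c) ((Perm.sumCongrHom S U r) p)))
        (fun p => y ((Perm.sumCongrHom S U c) ((Perm.sumCongrHom S U r) p))) =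
        FS (fun p => x₁ (c.1 (r.1 p))) (fun p => y₁ (c.1 (r.1 p))) *
        FU (fun p => x₂ (c.2 (r.2 p))) (fun p => y₂ (c.2 (r.2 p))) := by
      simp only [hFdef, Perm.sumCongrHom_apply, Perm.sumCongr_apply, Sum.map_inl,
        Sum.map_inr, hx, hy, Sum.elim_inl, Sum.elim_inr]
    have hsign : Perm.sign (Perm.sumCongrHom S U c) = Perm.sign c.1 * Perm.sign c.2 := by
      rw [Perm.sumCongrHom_apply, Perm.sign_sumCongr]
    by_cases hA : (∀ p, γ₁ (c.1 p) = γ₁ p) ∧ (∀ p, ρ₁ (r.1 p) = ρ₁ p)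
    · by_cases hB : (∀ p, γ₂ (c.2 p) = γ₂ p) ∧ (∀ p, ρ₂ (r.2 p) = ρ₂ p)
      · rw [if_pos (hcond.2 ⟨hA, hB⟩), if_pos hA, if_pos hB, hval, hsign]
        push_cast
        ring
      · rw [if_neg (fun h => hB (hcond.1 h).2), if_neg hB, mul_zero]
    · rw [if_neg (fun h => hA (hcond.1 h).1), if_neg hA, zero_mul]
  rw [hred]
  simp only [hterm]
  have hYS1 : YS ρ₁ γ₁ FS x₁ y₁ = ∑ c : Perm S, ∑ r : Perm S, ysTerm ρ₁ γ₁ FS x₁ y₁ c r := rfl
  have hYS2 : YS ρ₂ γ₂ FU x₂ y₂ = ∑ c : Perm U, ∑ r : Perm U, ysTerm ρ₂ γ₂ FU x₂ y₂ c r := rfl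
  rw [hYS1, hYS2, Finset.sum_mul_sum, Fintype.sum_prod_type]
  refine Finset.sum_congr rfl fun c₁ _ => Finset.sum_congr rfl fun c₂ _ => ?_
  rw [Finset.sum_mul_sum, Fintype.sum_prod_type]

end Vale.Agent.P197
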