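import Mathlib

/-! # P197 (Saxl's conjecture): kernels on words.

`E b x z` is `sign g` when `p ↦ (x p, z p)` equals `b ∘ g` for a permutation `g`
(with `b` an injective reference labelling of the cells), and `0` otherwise. -/

namespace Vale.Agent.P197

open Equiv Finset

variable {I : Type} [Fintype I] [DecidableEq I]

/-- Sign kernel relative to the reference labelling `b`. -/
noncomputable def E (b : I → ℕ × ℕ) (x z : I → ℕ) : ℚ :=
  ∑ g : Perm I, if (∀ p, b (g p) = (x p, z p)) then ((Perm.sign g : ℤ) : ℚ) else 0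

/-- `b` labels bijectively the cells `i + j < a`. -/
def IsStair (a : ℕ) (b : I → ℕ × ℕ) : Prop :=
  Function.Injective b ∧ ∀ c : ℕ × ℕ, (∃ p, b p = c) ↔ c.1 + c.2 < a

/-- `m` labels bijectively the cells `i + j < a`, `j < 2`. -/
def IsMu (a : ℕ) (m : I → ℕ × ℕ) : Prop :=
  Function.Injective m ∧ ∀ c : ℕ × ℕ, (∃ p, m p = c) ↔ (c.1 + c.2 < a ∧ c.2 < 2)

/-- Gram kernel. -/
noncomputable def G (b : I → ℕ × ℕ) (x x' : I → ℕ) : ℚ :=
  ∑ g : Perm I, E b x (fun p => (b (g p)).2) * E b x' (fun p => (b (g p)).2)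

/-- Young symmetrizer `b_T a_T` applied to the two-variable function `F`,
evaluated at `(x, y)`. -/
noncomputable def YS (ρ γ : I → ℕ) (F : (I → ℕ) → (I → ℕ) → ℚ) (x y : I → ℕ) : ℚ :=
  ∑ c : Perm I, ∑ r : Perm I,
    if (∀ p, γ (c p) = γ p) ∧ (∀ p, ρ (r p) = ρ p) then
      ((Perm.sign c : ℤ) : ℚ) * F (fun p => x (c (r p))) (fun p => y (c (r p))) else 0

/-- The statement `R(a)` for the cell set `(ρ, γ)`. -/
def Good (a : ℕ) (ρ γ : I → ℕ) : Prop :=
  ∃ b : I → ℕ × ℕ, IsStair a b ∧ ∃ x y x' z : I → ℕ,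
    (∀ p, x p + y p < a) ∧ (∀ p, x' p + z p < a) ∧
    YS ρ γ (fun u v => G b u x' * E b v z) x y ≠ 0

/-- Gluing a labelling of the staircase `a` (shifted by two columns) and a labelling of
the first two columns. -/
def glue {S U : Type} (s : S → ℕ × ℕ) (m : U → ℕ × ℕ) : S ⊕ U → ℕ × ℕ :=
  Sum.elim (fun p => ((s p).1, (s p).2 + 2)) m

end Vale.Agent.P197
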