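import Mathlib

/-!
P197 (Saxl), LEMMA P, part 1: the anticommuting 2 x 2 matrices and the transfer product.
-/

namespace Vale.Agent.P197.PCore

open Matrix Finset Equiv

/-- `eps 0 1 = 1`, `eps 1 0 = -1`, and `0` on the diagonal. -/
def eps (a b : Fin 2) : ℤ := if a = b then 0 else if a = 0 then 1 else -1

/-- the four matrices `u_a * k`, `k = [[1,0],[1,1]]` -/
def vM : Fin 4 → Fin 2 → Fin 2 → ℤ :=
  ![![![1, 0], ![1, 1]], ![![1, 1], ![-1, 0]], ![![1, 1], ![1, 0]], ![![1, 0], ![-1, -1]]]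

/-- transfer matrix of two consecutive positions -/
def tM (a b : Fin 4) (i j : Fin 2) : ℤ :=
  ∑ z : Fin 2, ∑ w : Fin 2, ∑ w' : Fin 2, eps i z * vM a w z * eps w w' * vM b w' j

/-- transfer vector after `2 m + 1` positions of the word `f` -/
def rV (f : ℕ → Fin 4) : ℕ → Fin 2 → ℤ
  | 0 => fun j => vM (f 0) 0 j
  | (m + 1) => fun j => ∑ i : Fin 2, rV f m i * tM (f (2 * m + 1)) (f (2 * m + 2)) i j

theorem tM_swap : ∀ a b : Fin 4, a ≠ b → ∀ i j, tM a b i j = - tM b a i j := by
  decide

theorem tM_tM_swap : ∀ a b : Fin 4, a ≠ b → ∀ c d i j,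
    ∑ l : Fin 2, tM c a i l * tM b d l j = - ∑ l : Fin 2, tM c b i l * tM a d l j := by
  decide +kernel

theorem vM_tM_swap : ∀ a b : Fin 4, a ≠ b → ∀ d j,
    ∑ l : Fin 2, vM a 0 l * tM b d l j = - ∑ l : Fin 2, vM b 0 l * tM a d l j := by
  decide +kernel

/-- the transfer vector only depends on the letters up to `2 m` -/
theorem rV_congr {f g : ℕ → Fin 4} : ∀ m : ℕ, (∀ i ≤ 2 * m, f i = g i) → rV f m = rV g m := by
  intro m
  induction m with
  | zero => intro h; funext j; simp [rV, h 0 (by omega)]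
  | succ m ih =>
    intro h
    funext j
    simp only [rV]
    rw [ih (fun i hi => h i (by omega)), h (2 * m + 1) (by omega), h (2 * m + 2) (by omega)]

/-- the four possible states up to sign -/
def Good (r : Fin 2 → ℤ) : Prop :=
  r = ![1, 0] ∨ r = ![-1, 0] ∨ r = ![1, 1] ∨ r = ![-1, -1]

instance (r : Fin 2 → ℤ) : Decidable (Good r) := by unfold Good; infer_instance

theorem good_v : ∀ a : Fin 4, Good (fun j => vM a 0 j) := by
  decide

theorem good_t1 : ∀ a b : Fin 4, Good (fun j => ∑ i : Fin 2, (![1, 0] : Fin 2 → ℤ) i * tM a b i j) := by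
  decide +kernel
theorem good_t2 : ∀ a b : Fin 4, Good (fun j => ∑ i : Fin 2, (![-1, 0] : Fin 2 → ℤ) i * tM a b i j) := by
  decide +kernel
theorem good_t3 : ∀ a b : Fin 4, Good (fun j => ∑ i : Fin 2, (![1, 1] : Fin 2 → ℤ) i * tM a b i j) := by
  decide +kernel
theorem good_t4 : ∀ a b : Fin 4, Good (fun j => ∑ i : Fin 2, (![-1, -1] : Fin 2 → ℤ) i * tM a b i j) := by
  decide +kernel

theorem rV_good (f : ℕ → Fin 4) (m : ℕ) : Good (rV f m) := by
  induction m with
  | zero => exact good_v (f 0)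
  | succ m ih =>
    rcases ih with h | h | h | h <;> simp only [rV, h]
    · exact good_t1 _ _
    · exact good_t2 _ _
    · exact good_t3 _ _
    · exact good_t4 _ _

theorem rV_ne_zero (f : ℕ → Fin 4) (m : ℕ) : rV f m 0 ≠ 0 := by
  rcases rV_good f m with h | h | h | h <;> rw [h] <;> simp

/-- adjacent transposition on `ℕ` words -/
theorem rV_swap (f : ℕ → Fin 4) (i : ℕ) (hf : f i ≠ f (i + 1)) (m : ℕ) (hi : i + 1 ≤ 2 * m) :
    ∀ j, rV (f ∘ swap i (i + 1)) m j = - rV f m j := by
  induction m with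
  | zero => omega
  | succ m ih =>
    intro j
    rcases Nat.lt_or_ge (2 * m) (i + 1) with h1 | h1
    · -- the swap touches the last two positions
      rcases Nat.lt_or_ge (2 * m) i with h2 | h2
      · have hi' : i = 2 * m + 1 := by omega
        subst hi'
        have e1 : rV (f ∘ swap (2 * m + 1) (2 * m + 1 + 1)) m = rV f m := by
          apply rV_congr
          intro k hk
          simp only [Function.comp]
          rw [swap_apply_of_ne_of_ne (by omega) (by omega)]
        simp only [rV, e1]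
        have e2 : (f ∘ swap (2 * m + 1) (2 * m + 1 + 1)) (2 * m + 1) = f (2 * m + 2) := by simp
        have e3 : (f ∘ swap (2 * m + 1) (2 * m + 1 + 1)) (2 * m + 2) = f (2 * m + 1) := by simp
        rw [e2, e3, ← Finset.sum_neg_distrib]
        apply Finset.sum_congr rfl
        intro l _
        rw [tM_swap _ _ (Ne.symm hf)]
        ring
      · have hi' : i = 2 * m := by omega
        subst hi'
        cases m with
        | zero =>
          simp only [rV]
          have e0 : (f ∘ swap (2 * 0) (2 * 0 + 1)) 0 = f 1 := by simp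
          have e1 : (f ∘ swap (2 * 0) (2 * 0 + 1)) (2 * 0 + 1) = f 0 := by simp
          have e2 : (f ∘ swap (2 * 0) (2 * 0 + 1)) (2 * 0 + 2) = f 2 := by
            simp only [Function.comp]
            rw [swap_apply_of_ne_of_ne (by omega) (by omega)]
          rw [e0, e1, e2]
          have := vM_tM_swap (f 1) (f 0) (by simpa using hf.symm) (f 2) j
          simpa using this
        | succ k =>
          have e1 : rV (f ∘ swap (2 * (k + 1)) (2 * (k + 1) + 1)) k = rV f k := by
            apply rV_congr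
            intro k' hk
            simp only [Function.comp]
            rw [swap_apply_of_ne_of_ne (by omega) (by omega)]
          simp only [rV, e1]
          have e2 : (f ∘ swap (2 * (k + 1)) (2 * (k + 1) + 1)) (2 * k + 1) = f (2 * k + 1) := by
            simp only [Function.comp]
            rw [swap_apply_of_ne_of_ne (by omega) (by omega)]
          have e3 : (f ∘ swap (2 * (k + 1)) (2 * (k + 1) + 1)) (2 * k + 2) = f (2 * (k + 1) + 1) := by
            simp only [Function.comp]
            rw [show 2 * k + 2 = 2 * (k + 1) by ring, swap_apply_left]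
          have e4 : (f ∘ swap (2 * (k + 1)) (2 * (k + 1) + 1)) (2 * (k + 1) + 1) = f (2 * k + 2) := by
            simp only [Function.comp]
            rw [swap_apply_right]
            congr 1
          have e5 : (f ∘ swap (2 * (k + 1)) (2 * (k + 1) + 1)) (2 * (k + 1) + 2)
              = f (2 * (k + 1) + 2) := by
            simp only [Function.comp]
            rw [swap_apply_of_ne_of_ne (by omega) (by omega)]
          rw [e2, e3, e4, e5]
          have key := tM_tM_swap (f (2 * (k + 1) + 1)) (f (2 * k + 2))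
            (by rw [show 2 * k + 2 = 2 * (k + 1) by ring]; exact hf.symm)
            (f (2 * k + 1)) (f (2 * (k + 1) + 2))
          have k0 := key 0 j
          have k1 := key 1 j
          simp only [Fin.sum_univ_two] at k0 k1 ⊢
          linear_combination (rV f k 0) * k0 + (rV f k 1) * k1
    · have e2 : (f ∘ swap i (i + 1)) (2 * m + 1) = f (2 * m + 1) := by
        simp only [Function.comp]
        rw [swap_apply_of_ne_of_ne (by omega) (by omega)]
      have e3 : (f ∘ swap i (i + 1)) (2 * m + 2) = f (2 * m + 2) := by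
        simp only [Function.comp]
        rw [swap_apply_of_ne_of_ne (by omega) (by omega)]
      simp only [rV]
      rw [e2, e3, ← Finset.sum_neg_distrib]
      apply Finset.sum_congr rfl
      intro l _
      rw [ih h1]
      ring

theorem sum_snoc (n : ℕ) (F : (Fin (n + 1) → Fin 2) → ℤ) :
    ∑ w, F w = ∑ w' : Fin n → Fin 2, ∑ a : Fin 2, F (Fin.snoc (α := fun _ => Fin 2) w' a) := by
  rw [← (Fin.snocEquiv (fun _ : Fin (n + 1) => Fin 2)).sum_comp, Fintype.sum_prod_type,
    Finset.sum_comm]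
  rfl

theorem sum_dbl (n : ℕ) (F : (Fin (n + 1 + 1) → Fin 2) → ℤ) :
    ∑ w, F w = ∑ w' : Fin n → Fin 2, ∑ a : Fin 2, ∑ b : Fin 2,
      F (Fin.snoc (α := fun _ => Fin 2) (Fin.snoc (α := fun _ => Fin 2) w' a) b) := by
  rw [sum_snoc, sum_snoc]

def sW (m : ℕ) (w : Fin (2 * m + 1) → Fin 2) : ℤ :=
  (if w 0 = 0 then 1 else 0) *
    ∏ k : Fin m, eps (w ⟨2 * k + 1, by omega⟩) (w ⟨2 * k + 2, by omega⟩)

def qZ (m : ℕ) (z : Fin (2 * m + 1) → Fin 2) : ℤ :=
  ∏ k : Fin m, eps (z ⟨2 * k, by omega⟩) (z ⟨2 * k + 1, by omega⟩)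

theorem dbl_lt {n : ℕ} (w' : Fin n → Fin 2) (a b : Fin 2) (i : ℕ) (hi : i < n) (h : i < n + 1 + 1) :
    (Fin.snoc (α := fun _ => Fin 2) (Fin.snoc (α := fun _ => Fin 2) w' a) b : Fin (n + 1 + 1) → Fin 2)
      ⟨i, h⟩ = w' ⟨i, hi⟩ := by
  simp [Fin.snoc, hi, Nat.lt_succ_of_lt hi]

theorem dbl_one {n : ℕ} (w' : Fin n → Fin 2) (a b : Fin 2) (h : n < n + 1 + 1) :
    (Fin.snoc (α := fun _ => Fin 2) (Fin.snoc (α := fun _ => Fin 2) w' a) b : Fin (n + 1 + 1) → Fin 2)
      ⟨n, h⟩ = a := by
  simp [Fin.snoc]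

theorem dbl_two {n : ℕ} (w' : Fin n → Fin 2) (a b : Fin 2) (h : n + 1 < n + 1 + 1) :
    (Fin.snoc (α := fun _ => Fin 2) (Fin.snoc (α := fun _ => Fin 2) w' a) b : Fin (n + 1 + 1) → Fin 2)
      ⟨n + 1, h⟩ = b := by
  simp [Fin.snoc]

theorem sW_succ (m : ℕ) (w' : Fin (2 * m + 1) → Fin 2) (a b : Fin 2) :
    sW (m + 1) (Fin.snoc (α := fun _ => Fin 2) (Fin.snoc (α := fun _ => Fin 2) w' a) b)
      = sW m w' * eps a b := by
  unfold sW
  rw [Fin.prod_univ_castSucc]
  have h0 := dbl_lt w' a b 0 (by omega) (by omega)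
  have e0 : (Fin.snoc (α := fun _ => Fin 2) (Fin.snoc (α := fun _ => Fin 2) w' a) b :
    Fin (2 * (m + 1) + 1) → Fin 2) 0 = w' 0 := h0
  rw [e0, ← mul_assoc]
  congr 1
  · congr 1
    apply Finset.prod_congr rfl
    intro k _
    have h1 := dbl_lt w' a b (2 * k + 1) (by omega) (by omega)
    have h2 := dbl_lt w' a b (2 * k + 2) (by omega) (by omega)
    exact congrArg₂ eps h1 h2
  · have h1 := dbl_one w' a b (by omega)
    have h2 := dbl_two w' a b (by omega)
    exact congrArg₂ eps h1 h2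

theorem qZ_succ (m : ℕ) (z' : Fin (2 * m + 1) → Fin 2) (a b : Fin 2) :
    qZ (m + 1) (Fin.snoc (α := fun _ => Fin 2) (Fin.snoc (α := fun _ => Fin 2) z' a) b)
      = qZ m z' * eps (z' (Fin.last _)) a := by
  unfold qZ
  rw [Fin.prod_univ_castSucc]
  congr 1
  · apply Finset.prod_congr rfl
    intro k _
    have h1 := dbl_lt z' a b (2 * k) (by omega) (by omega)
    have h2 := dbl_lt z' a b (2 * k + 1) (by omega) (by omega)
    exact congrArg₂ eps h1 h2
  · have h1 := dbl_lt z' a b (2 * m) (by omega) (by omega)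
    have h2 := dbl_one z' a b (by omega)
    exact congrArg₂ eps h1 h2

theorem prod_dbl (m : ℕ) (f : ℕ → Fin 4) (w' z' : Fin (2 * m + 1) → Fin 2) (a b c d : Fin 2) :
    ∏ p : Fin (2 * (m + 1) + 1), vM (f p)
      ((Fin.snoc (α := fun _ => Fin 2) (Fin.snoc (α := fun _ => Fin 2) w' a) b :
        Fin (2 * (m + 1) + 1) → Fin 2) p)
      ((Fin.snoc (α := fun _ => Fin 2) (Fin.snoc (α := fun _ => Fin 2) z' c) d :
        Fin (2 * (m + 1) + 1) → Fin 2) p)
    = (∏ p : Fin (2 * m + 1), vM (f p) (w' p) (z' p)) *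
      (vM (f (2 * m + 1)) a c * vM (f (2 * m + 2)) b d) := by
  have := Fin.prod_univ_castSucc (n := 2 * m + 1 + 1) (fun p => vM (f p)
      ((Fin.snoc (α := fun _ => Fin 2) (Fin.snoc (α := fun _ => Fin 2) w' a) b :
        Fin (2 * m + 1 + 1 + 1) → Fin 2) p)
      ((Fin.snoc (α := fun _ => Fin 2) (Fin.snoc (α := fun _ => Fin 2) z' c) d :
        Fin (2 * m + 1 + 1 + 1) → Fin 2) p))
  refine this.trans ?_
  rw [Fin.prod_univ_castSucc]
  simp only [Fin.snoc_castSucc, Fin.snoc_last, Fin.val_castSucc, Fin.val_last]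
  rw [mul_assoc]

/-- the state sum over all pairs of `0/1` words is the transfer product -/
theorem state_sum (f : ℕ → Fin 4) (m : ℕ) : ∀ j : Fin 2,
    ∑ w : Fin (2 * m + 1) → Fin 2, ∑ z : Fin (2 * m + 1) → Fin 2,
      sW m w * (qZ m z * (if z (Fin.last _) = j then 1 else 0)) *
        ∏ p : Fin (2 * m + 1), vM (f p) (w p) (z p) = rV f m j := by
  induction m with
  | zero =>
    intro j
    have h1 : ∀ G : (Fin (2 * 0 + 1) → Fin 2) → ℤ, ∑ w, G w
      = ∑ a : Fin 2, G (fun _ => a) := by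
      intro G
      exact ((Equiv.funUnique (Fin 1) (Fin 2)).symm.sum_comp G).symm
    rw [h1]
    simp only [h1, sW, qZ, rV]
    simp
  | succ m ih =>
    intro j
    have h1 : ∀ G : (Fin (2 * (m + 1) + 1) → Fin 2) → ℤ, ∑ w, G w
      = ∑ w' : Fin (2 * m + 1) → Fin 2, ∑ a : Fin 2, ∑ b : Fin 2,
      G (Fin.snoc (α := fun _ => Fin 2) (Fin.snoc (α := fun _ => Fin 2) w' a) b) :=
      sum_dbl (2 * m + 1)
    have hl : ∀ (z' : Fin (2 * m + 1) → Fin 2) (c d : Fin 2),
      (Fin.snoc (α := fun _ => Fin 2) (Fin.snoc (α := fun _ => Fin 2) z' c) d :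
        Fin (2 * (m + 1) + 1) → Fin 2) (Fin.last _) = d := by
      intro z' c d
      exact dbl_two z' c d (by omega)
    rw [h1]
    simp only [h1, sW_succ, qZ_succ, prod_dbl, hl, rV]
    simp only [Fin.sum_univ_two, ← Finset.sum_add_distrib, ← ih, Finset.sum_mul]
    apply Finset.sum_congr rfl
    intro w _
    apply Finset.sum_congr rfl
    intro z _
    simp only [tM, Fin.sum_univ_two]
    generalize z (Fin.last _) = l
    generalize sW m w = A
    generalize qZ m z = B
    generalize (∏ p : Fin (2 * m + 1), vM (f p) (w p) (z p)) = C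
    generalize f (2 * m + 1) = α
    generalize f (2 * m + 2) = β
    fin_cases l <;> fin_cases j <;> simp [eps] <;> ring

end Vale.Agent.P197.PCore
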