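import Mathlib
import Vale.Agent.P197.Defs
import Vale.Agent.P197.PCore

/-!
P197 (Saxl), LEMMA P, part 2.
-/

namespace Vale.Agent.P197.PAux

open Equiv Finset PCore

/-! ### a uniqueness principle for antisymmetric functions on 0/1 words -/

theorem pair_uniq {n : ℕ} {J : Type} [Fintype J] [DecidableEq J] (a b : J → Fin n) (s : Fin n)
    (hab : ∀ i j, a i ≠ b j) (ha : Function.Injective a)
    (hcov : ∀ p, p = s ∨ (∃ j, p = a j) ∨ ∃ j, p = b j)
    (H : (Fin n → Fin 2) → ℚ) (hs : ∀ w, w s ≠ 0 → H w = 0)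
    (hsw : ∀ w j, H (fun p => w (swap (a j) (b j) p)) = - H w)
    (w0 : Fin n → Fin 2) (hw0 : w0 s = 0) (hwa : ∀ j, w0 (a j) = 0) (hwb : ∀ j, w0 (b j) = 1)
    (h0 : H w0 = 0) : ∀ w, H w = 0 := by
  have main : ∀ N : ℕ, ∀ w : Fin n → Fin 2,
      (univ.filter (fun j => w (a j) ≠ 0)).card = N → H w = 0 := by
    intro N
    induction N using Nat.strong_induction_on with
    | _ N ih =>
      intro w hw
      by_cases h1 : w s ≠ 0
      · exact hs w h1
      push Not at h1
      by_cases h2 : ∃ j, w (a j) = w (b j)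
      · obtain ⟨j, hj⟩ := h2
        have h3 : (fun p => w (swap (a j) (b j) p)) = w := by
          funext p
          by_cases hp : p = a j
          · subst hp; simp [hj]
          by_cases hp' : p = b j
          · subst hp'; simp [hj]
          rw [swap_apply_of_ne_of_ne hp hp']
        have h4 := hsw w j
        rw [h3] at h4
        linarith
      push Not at h2
      by_cases h3 : ∃ j, w (a j) ≠ 0
      · obtain ⟨j, hj⟩ := h3
        have h4 := hsw w j
        have h5 : H (fun p => w (swap (a j) (b j) p)) = 0 := by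
          apply ih _ _ _ rfl
          rw [← hw]
          apply Finset.card_lt_card
          refine Finset.ssubset_iff_subset_ne.mpr ⟨?_, ?_⟩
          · intro i hi
            simp only [mem_filter, mem_univ, true_and] at hi ⊢
            by_cases hij : i = j
            · subst hij; exact hj
            · rw [swap_apply_of_ne_of_ne (fun h => hij (ha h)) (hab i j)] at hi
              exact hi
          · intro heq
            have : j ∈ univ.filter (fun j' => w (a j') ≠ 0) := by simp [hj]
            rw [← heq] at this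
            simp only [mem_filter, mem_univ, true_and, swap_apply_left] at this
            have h6 := h2 j
            omega
        linarith
      · push Not at h3
        have : w = w0 := by
          funext p
          rcases hcov p with h | ⟨j, h⟩ | ⟨j, h⟩
          · rw [h, h1, hw0]
          · rw [h, h3 j, hwa j]
          · have h6 := h2 j
            have h7 := h3 j
            rw [h, hwb j]
            omega
        rw [this]; exact h0
  intro w
  exact main _ w rfl

/-! ### stabilizers of monotone words are generated by adjacent transpositions -/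

theorem stab_induction {n : ℕ} (γ : Fin n → ℕ) (hγ : Monotone γ) (P : Perm (Fin n) → Prop)
    (h1 : P 1)
    (hs : ∀ c : Perm (Fin n), (∀ p, γ (c p) = γ p) → P c → ∀ (i : ℕ) (hi : i + 1 < n),
      γ ⟨i, by omega⟩ = γ ⟨i + 1, hi⟩ → P (c * swap ⟨i, by omega⟩ ⟨i + 1, hi⟩)) :
    ∀ c : Perm (Fin n), (∀ p, γ (c p) = γ p) → P c := by
  have bound : ∀ c : Perm (Fin n), ∑ p : Fin n, (p : ℕ) * (c p : ℕ) ≤ ∑ _p : Fin n, n * n := by
    intro c
    apply Finset.sum_le_sum
    intro p _
    exact Nat.mul_le_mul p.2.le (c p).2.le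
  have main : ∀ N : ℕ, ∀ c : Perm (Fin n), (∀ p, γ (c p) = γ p) →
      (∑ _p : Fin n, n * n) - ∑ p : Fin n, (p : ℕ) * (c p : ℕ) = N → P c := by
    intro N
    induction N using Nat.strong_induction_on with
    | _ N ih =>
      intro c hc hN
      by_cases hd : ∃ (i : ℕ) (hi : i + 1 < n), c ⟨i + 1, hi⟩ < c ⟨i, by omega⟩
      · obtain ⟨i, hi, hlt⟩ := hd
        have hγi : γ ⟨i, by omega⟩ = γ ⟨i + 1, hi⟩ := by
          apply le_antisymm
          · apply hγ
            simp [Fin.le_def]
          · rw [← hc ⟨i + 1, hi⟩, ← hc ⟨i, by omega⟩]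
            exact hγ hlt.le
        set τ : Perm (Fin n) := swap ⟨i, by omega⟩ ⟨i + 1, hi⟩ with hτ
        have hγτ : ∀ p, γ (τ p) = γ p := by
          intro p
          by_cases hp : p = ⟨i, by omega⟩
          · rw [hp, hτ, swap_apply_left, hγi]
          by_cases hp' : p = ⟨i + 1, hi⟩
          · rw [hp', hτ, swap_apply_right, hγi]
          rw [hτ, swap_apply_of_ne_of_ne hp hp']
        have hc' : ∀ p, γ ((c * τ) p) = γ p := by
          intro p
          rw [Perm.mul_apply, hc, hγτ]
        have hτc : c = c * τ * τ := by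
          rw [mul_assoc, hτ, swap_mul_self, mul_one]
        have hne : (⟨i, by omega⟩ : Fin n) ≠ ⟨i + 1, hi⟩ := by simp
        have hsum : ∑ p : Fin n, (p : ℕ) * (c p : ℕ) < ∑ p : Fin n, (p : ℕ) * ((c * τ) p : ℕ) := by
          have e : ∀ g : Fin n → ℕ, ∑ p, g p = g ⟨i, by omega⟩ + (g ⟨i + 1, hi⟩ +
              ∑ p ∈ (univ.erase (⟨i, by omega⟩ : Fin n)).erase ⟨i + 1, hi⟩, g p) := by
            intro g
            rw [Finset.add_sum_erase _ _ (by simp), Finset.add_sum_erase _ _ (by simp)]
          rw [e, e (fun p => (p : ℕ) * ((c * τ) p : ℕ))]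
          have e3 : ∑ p ∈ (univ.erase (⟨i, by omega⟩ : Fin n)).erase ⟨i + 1, hi⟩,
              (p : ℕ) * (c p : ℕ) = ∑ p ∈ (univ.erase (⟨i, by omega⟩ : Fin n)).erase ⟨i + 1, hi⟩,
              (p : ℕ) * ((c * τ) p : ℕ) := by
            apply Finset.sum_congr rfl
            intro p hp
            simp only [mem_erase, ne_eq, mem_univ, and_true] at hp
            rw [Perm.mul_apply, hτ, swap_apply_of_ne_of_ne hp.2 hp.1]
          rw [e3]
          simp only [Perm.mul_apply, hτ, swap_apply_left, swap_apply_right]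
          have h8 : ((c ⟨i + 1, hi⟩ : Fin n) : ℕ) < (c ⟨i, by omega⟩ : Fin n) := hlt
          nlinarith
        have hb := bound (c * τ)
        rw [hτc]
        apply hs (c * τ) hc' _ i hi hγi
        apply ih _ _ (c * τ) hc' rfl
        omega
      · push Not at hd
        have hmono : StrictMono c := by
          rcases n with _ | n
          · intro a; exact a.elim0
          rw [Fin.strictMono_iff_lt_succ]
          intro i
          refine lt_of_le_of_ne ?_ ?_
          · have := hd i (by omega)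
            exact this
          · intro h
            have := c.injective h
            simp [Fin.ext_iff] at this
        have hc1 : (c : Fin n → Fin n) = id := by
          apply (StrictMono.range_inj hmono strictMono_id).mp
          rw [Set.range_id, c.surjective.range_eq]
        have : c = 1 := by
          ext p
          rw [hc1]; rfl
        rw [this]; exact h1
  intro c hc
  exact main _ c hc rfl

/-! ### the kernel `E` -/

variable {U : Type} [Fintype U] [DecidableEq U]

theorem E_comp (b : U → ℕ × ℕ) (x z : U → ℕ) (k : Perm U) :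
    E b (fun p => x (k p)) (fun p => z (k p)) = ((Perm.sign k : ℤ) : ℚ) * E b x z := by
  unfold E
  rw [Finset.mul_sum, ← Equiv.sum_comp (Equiv.mulRight k)]
  apply Finset.sum_congr rfl
  intro g _
  simp only [Equiv.coe_mulRight, Perm.mul_apply]
  have : (∀ p, b (g (k p)) = (x (k p), z (k p))) ↔ ∀ p, b (g p) = (x p, z p) := by
    constructor
    · intro h p
      simpa using h (k.symm p)
    · intro h p
      exact h (k p)
  simp only [this, mul_ite, mul_zero]
  split_ifs
  · rw [Perm.sign_mul]; push_cast; ring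
  · rfl

theorem exists_of_E_ne_zero {b : U → ℕ × ℕ} {x z : U → ℕ} (h : E b x z ≠ 0) (p : U) :
    ∃ q, b q = (x p, z p) := by
  by_contra hc
  push Not at hc
  apply h
  unfold E
  apply Finset.sum_eq_zero
  intro g _
  rw [if_neg]
  intro h'
  exact hc (g p) (h' p)

theorem E_ne_zero {b : U → ℕ × ℕ} (hb : Function.Injective b) (x z : U → ℕ) (g : Perm U)
    (h : ∀ p, b (g p) = (x p, z p)) : E b x z ≠ 0 := by
  unfold E
  rw [Finset.sum_eq_single g]
  · rw [if_pos h]
    exact_mod_cast (Perm.sign g).ne_zero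
  · intro g' _ hg'
    rw [if_neg]
    intro h'
    apply hg'
    exact Equiv.ext fun p => hb ((h' p).trans (h p).symm)
  · simp

/-- antisymmetry in a pair of positions with the same letter -/
theorem E_swap (b : U → ℕ × ℕ) (x z : U → ℕ) {p q : U} (hpq : p ≠ q) (hx : x p = x q) :
    E b x (fun r => z (swap p q r)) = - E b x z := by
  have h1 := E_comp b x z (swap p q)
  have h2 : (fun r => x (swap p q r)) = x := by
    funext r
    by_cases hr : r = p
    · rw [hr, swap_apply_left, hx]
    by_cases hr' : r = q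
    · rw [hr', swap_apply_right, hx]
    rw [swap_apply_of_ne_of_ne hr hr']
  rw [h2, Perm.sign_swap hpq] at h1
  rw [h1]
  simp

/-! ### the words of Lemma P on `Fin (2 k + 1)` -/

/-- `x t = k - ⌊(t+1)/2⌋` -/
def xw (k : ℕ) (t : Fin (2 * k + 1)) : ℕ := k - ((t : ℕ) + 1) / 2
/-- `y t = ⌊t/2⌋` -/
def yw (k : ℕ) (t : Fin (2 * k + 1)) : ℕ := (t : ℕ) / 2
/-- reference column word for `xw` : `0` at `0` and at odd positions -/
def w0 (k : ℕ) (t : Fin (2 * k + 1)) : Fin 2 := if (t : ℕ) = 0 then 0 else if (t : ℕ) % 2 = 1 then 0 else 1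
/-- reference column word for `yw` : `0` at even positions -/
def z0 (k : ℕ) (t : Fin (2 * k + 1)) : Fin 2 := if (t : ℕ) % 2 = 0 then 0 else 1

/-- reference labelling of the two columns -/
def mref (k : ℕ) (t : Fin (2 * k + 1)) : ℕ × ℕ := (xw k t, (w0 k t : ℕ))

theorem mref_isMu (k : ℕ) : IsMu (k + 1) (mref k) := by
  constructor
  · intro s t h
    simp only [mref, Prod.mk.injEq] at h
    obtain ⟨h1, h2⟩ := h
    unfold xw at h1
    unfold w0 at h2
    have hs := s.2
    have ht := t.2
    apply Fin.ext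
    split_ifs at h2 <;> simp at h2 <;> omega
  · intro c
    constructor
    · rintro ⟨t, rfl⟩
      simp only [mref, xw, w0]
      have ht := t.2
      split_ifs <;> simp <;> omega
    · rintro ⟨h1, h2⟩
      obtain ⟨i, j⟩ := c
      simp only at h1 h2
      interval_cases j
      · -- column 0
        by_cases hi : i = k
        · refine ⟨⟨0, by omega⟩, ?_⟩
          simp [mref, xw, w0, hi]
        · refine ⟨⟨2 * (k - 1 - i) + 1, by omega⟩, ?_⟩
          simp only [mref, xw, w0, Prod.mk.injEq]
          refine ⟨by omega, ?_⟩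
          rw [if_neg (by omega), if_pos (by omega)]
          rfl
      · refine ⟨⟨2 * (k - 1 - i) + 2, by omega⟩, ?_⟩
        simp only [mref, xw, w0, Prod.mk.injEq]
        refine ⟨by omega, ?_⟩
        rw [if_neg (by omega), if_neg (by omega)]
        rfl

theorem mref2_isMu (k : ℕ) : IsMu (k + 1) (fun t : Fin (2 * k + 1) => (yw k t, (z0 k t : ℕ))) := by
  constructor
  · intro s t h
    simp only [Prod.mk.injEq] at h
    obtain ⟨h1, h2⟩ := h
    unfold yw at h1
    unfold z0 at h2
    have hs := s.2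
    have ht := t.2
    apply Fin.ext
    split_ifs at h2 <;> simp at h2 <;> omega
  · intro c
    constructor
    · rintro ⟨t, rfl⟩
      simp only [yw, z0]
      have ht := t.2
      split_ifs <;> simp <;> omega
    · rintro ⟨h1, h2⟩
      obtain ⟨i, j⟩ := c
      simp only at h1 h2
      interval_cases j
      · refine ⟨⟨2 * i, by omega⟩, ?_⟩
        simp only [yw, z0, Prod.mk.injEq]
        refine ⟨by omega, ?_⟩
        rw [if_pos (by omega)]
        rfl
      · refine ⟨⟨2 * i + 1, by omega⟩, ?_⟩
        simp only [yw, z0, Prod.mk.injEq]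
        refine ⟨by omega, ?_⟩
        rw [if_neg (by omega)]
        rfl

omit [DecidableEq U] in
/-- two labellings of the same cells differ by a permutation -/
theorem exists_perm_of_isMu {a : ℕ} {m m' : U → ℕ × ℕ} (h : IsMu a m) (h' : IsMu a m') :
    ∃ g : Perm U, ∀ p, m (g p) = m' p := by
  have h1 : ∀ p, ∃ q, m q = m' p := fun p => (h.2 _).mpr ((h'.2 _).mp ⟨p, rfl⟩)
  choose g hg using h1
  have hinj : Function.Injective g := by
    intro p q hpq
    apply h'.1
    rw [← hg p, ← hg q, hpq]
  exact ⟨Equiv.ofBijective g (Finite.injective_iff_bijective.mp hinj), fun p => hg p⟩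

theorem E_x_w0 (k : ℕ) : E (mref k) (xw k) (fun p => (w0 k p : ℕ)) ≠ 0 :=
  E_ne_zero (mref_isMu k).1 _ _ 1 (fun _ => rfl)

theorem E_y_z0 (k : ℕ) : E (mref k) (yw k) (fun p => (z0 k p : ℕ)) ≠ 0 := by
  obtain ⟨g, hg⟩ := exists_perm_of_isMu (mref_isMu k) (mref2_isMu k)
  exact E_ne_zero (mref_isMu k).1 _ _ g hg

/-! ### identification of `E m x w` and `E m y z` -/

theorem eps_antisymm (a b : Fin 2) : eps b a = - eps a b := by
  revert a b; decide

theorem sW_swap (k : ℕ) (w : Fin (2 * k + 1) → Fin 2) (j : Fin k) :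
    sW k (fun p => w (swap ⟨2 * j + 1, by omega⟩ ⟨2 * j + 2, by omega⟩ p)) = - sW k w := by
  unfold sW
  beta_reduce
  have e0 : (swap (⟨2 * j + 1, by omega⟩ : Fin (2 * k + 1)) ⟨2 * j + 2, by omega⟩) 0 = 0 := by
    apply swap_apply_of_ne_of_ne <;> simp [Fin.ext_iff]
  rw [e0, ← mul_neg]
  congr 1
  rw [← Finset.mul_prod_erase univ _ (mem_univ j), ← Finset.mul_prod_erase univ
    (fun i : Fin k => eps (w ⟨2 * i + 1, by omega⟩) (w ⟨2 * i + 2, by omega⟩)) (mem_univ j),
    ← neg_mul]
  congr 1
  · rw [swap_apply_left, swap_apply_right, eps_antisymm]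
  · apply Finset.prod_congr rfl
    intro i hi
    have hij : (i : ℕ) ≠ j := by
      intro h
      exact (mem_erase.mp hi).1 (Fin.ext h)
    rw [swap_apply_of_ne_of_ne, swap_apply_of_ne_of_ne] <;> simp [Fin.ext_iff] <;> omega

/-- the sign function for `yw` -/
def tZ (k : ℕ) (z : Fin (2 * k + 1) → Fin 2) : ℤ := qZ k z * (if z (Fin.last _) = 0 then 1 else 0)

theorem tZ_swap (k : ℕ) (w : Fin (2 * k + 1) → Fin 2) (j : Fin k) :
    tZ k (fun p => w (swap ⟨2 * j, by omega⟩ ⟨2 * j + 1, by omega⟩ p)) = - tZ k w := by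
  unfold tZ qZ
  beta_reduce
  have e0 : (swap (⟨2 * j, by omega⟩ : Fin (2 * k + 1)) ⟨2 * j + 1, by omega⟩) (Fin.last _)
      = Fin.last _ := by
    apply swap_apply_of_ne_of_ne <;> simp [Fin.ext_iff] <;> omega
  rw [e0, ← neg_mul]
  congr 1
  rw [← Finset.mul_prod_erase univ _ (mem_univ j), ← Finset.mul_prod_erase univ
    (fun i : Fin k => eps (w ⟨2 * i, by omega⟩) (w ⟨2 * i + 1, by omega⟩)) (mem_univ j),
    ← neg_mul]
  congr 1
  · rw [swap_apply_left, swap_apply_right, eps_antisymm]
  · apply Finset.prod_congr rfl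
    intro i hi
    have hij : (i : ℕ) ≠ j := by
      intro h
      exact (mem_erase.mp hi).1 (Fin.ext h)
    rw [swap_apply_of_ne_of_ne, swap_apply_of_ne_of_ne] <;> simp [Fin.ext_iff] <;> omega

theorem sW_w0 (k : ℕ) : sW k (w0 k) = 1 := by
  unfold sW
  rw [if_pos (by simp [w0]), one_mul]
  apply Finset.prod_eq_one
  intro j _
  have h1 : w0 k ⟨2 * j + 1, by omega⟩ = 0 := by
    unfold w0; rw [if_neg (by simp), if_pos (by simp <;> omega)]
  have h2 : w0 k ⟨2 * j + 2, by omega⟩ = 1 := by
    unfold w0; rw [if_neg (by simp), if_neg (by simp <;> omega)]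
  rw [h1, h2]; rfl

theorem tZ_z0 (k : ℕ) : tZ k (z0 k) = 1 := by
  unfold tZ qZ
  rw [if_pos (by simp [z0]), mul_one]
  apply Finset.prod_eq_one
  intro j _
  have h1 : z0 k ⟨2 * j, by omega⟩ = 0 := by
    unfold z0; rw [if_pos (by simp)]
  have h2 : z0 k ⟨2 * j + 1, by omega⟩ = 1 := by
    unfold z0; rw [if_neg (by simp <;> omega)]
  rw [h1, h2]; rfl

theorem E_x_eq (k : ℕ) (w : Fin (2 * k + 1) → Fin 2) :
    E (mref k) (xw k) (fun p => (w p : ℕ)) =
      E (mref k) (xw k) (fun p => (w0 k p : ℕ)) * (sW k w : ℚ) := by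
  set κ := E (mref k) (xw k) (fun p => (w0 k p : ℕ)) with hκ
  have key := pair_uniq (n := 2 * k + 1) (J := Fin k) (fun j => ⟨2 * j + 1, by omega⟩)
    (fun j => ⟨2 * j + 2, by omega⟩) ⟨0, by omega⟩
    (by intro i j h; simp only [Fin.mk.injEq] at h; omega)
    (by intro i j h; simp only [Fin.mk.injEq] at h; exact Fin.ext (by omega))
    (by
      intro p
      have hp := p.2
      rcases Nat.eq_zero_or_pos (p : ℕ) with h | h
      · left; exact Fin.ext h
      rcases Nat.even_or_odd' (p : ℕ) with ⟨c, hc | hc⟩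
      · right; right
        exact ⟨⟨c - 1, by omega⟩, Fin.ext (by simp <;> omega)⟩
      · right; left
        exact ⟨⟨c, by omega⟩, Fin.ext (by simp <;> omega)⟩)
    (fun w => E (mref k) (xw k) (fun p => (w p : ℕ)) - κ * (sW k w : ℚ))
    (by
      intro w hw
      have h1 : E (mref k) (xw k) (fun p => (w p : ℕ)) = 0 := by
        by_contra hne
        obtain ⟨q, hq⟩ := exists_of_E_ne_zero hne ⟨0, by omega⟩
        have h2 := ((mref_isMu k).2 _).mp ⟨q, hq⟩
        simp only [xw] at h2
        have h3 : (w ⟨0, by omega⟩ : ℕ) ≠ 0 := fun h => hw (Fin.ext h)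
        omega
      have h2 : sW k w = 0 := by
        unfold sW
        rw [if_neg (by exact hw), zero_mul]
      rw [h1, h2]; simp)
    (by
      intro w j
      simp only
      rw [sW_swap k w j, E_swap (mref k) (xw k) (fun p => (w p : ℕ))
        (p := ⟨2 * j + 1, by omega⟩) (q := ⟨2 * j + 2, by omega⟩) (by simp)
        (by simp only [xw]; omega)]
      push_cast; ring)
    (w0 k) (by simp [w0])
    (by intro j; unfold w0; rw [if_neg (by simp), if_pos (by simp <;> omega)])
    (by intro j; unfold w0; rw [if_neg (by simp), if_neg (by simp <;> omega)])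
    (by rw [sW_w0, ← hκ]; simp)
  have := key w
  linarith

theorem E_y_eq (k : ℕ) (z : Fin (2 * k + 1) → Fin 2) :
    E (mref k) (yw k) (fun p => (z p : ℕ)) =
      E (mref k) (yw k) (fun p => (z0 k p : ℕ)) * (tZ k z : ℚ) := by
  set κ := E (mref k) (yw k) (fun p => (z0 k p : ℕ)) with hκ
  have key := pair_uniq (n := 2 * k + 1) (J := Fin k) (fun j => ⟨2 * j, by omega⟩)
    (fun j => ⟨2 * j + 1, by omega⟩) (Fin.last _)
    (by intro i j h; simp only [Fin.mk.injEq] at h; omega)
    (by intro i j h; simp only [Fin.mk.injEq] at h; exact Fin.ext (by omega))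
    (by
      intro p
      have hp := p.2
      by_cases h : (p : ℕ) = 2 * k
      · left; exact Fin.ext (by simp [h])
      rcases Nat.even_or_odd' (p : ℕ) with ⟨c, hc | hc⟩
      · right; left
        exact ⟨⟨c, by omega⟩, Fin.ext (by simp <;> omega)⟩
      · right; right
        exact ⟨⟨c, by omega⟩, Fin.ext (by simp <;> omega)⟩)
    (fun w => E (mref k) (yw k) (fun p => (w p : ℕ)) - κ * (tZ k w : ℚ))
    (by
      intro w hw
      have h1 : E (mref k) (yw k) (fun p => (w p : ℕ)) = 0 := by
        by_contra hne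
        obtain ⟨q, hq⟩ := exists_of_E_ne_zero hne (Fin.last _)
        have h2 := ((mref_isMu k).2 _).mp ⟨q, hq⟩
        simp only [yw, Fin.val_last] at h2
        have h3 : (w (Fin.last _) : ℕ) ≠ 0 := fun h => hw (Fin.ext h)
        omega
      have h2 : tZ k w = 0 := by
        unfold tZ
        rw [if_neg (by exact hw), mul_zero]
      rw [h1, h2]; simp)
    (by
      intro w j
      simp only
      rw [tZ_swap k w j, E_swap (mref k) (yw k) (fun p => (w p : ℕ))
        (p := ⟨2 * j, by omega⟩) (q := ⟨2 * j + 1, by omega⟩) (by simp)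
        (by simp only [yw]; omega)]
      push_cast; ring)
    (z0 k) (by simp [z0])
    (by intro j; unfold z0; rw [if_pos (by simp)])
    (by intro j; unfold z0; rw [if_neg (by simp <;> omega)])
    (by rw [tZ_z0, ← hκ]; simp)
  have := key z
  linarith

/-! ### the function `Psi` -/

/-- extension of a word to `ℕ` -/
def ext {n : ℕ} (f : Fin n → Fin 4) (i : ℕ) : Fin 4 := if h : i < n then f ⟨i, h⟩ else 0

theorem ext_val {n : ℕ} (f : Fin n → Fin 4) (p : Fin n) : ext f p = f p := by
  simp [ext]

noncomputable def Psi (k : ℕ) (f : Fin (2 * k + 1) → Fin 4) : ℚ :=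
  ∑ w : Fin (2 * k + 1) → Fin 2, ∑ z : Fin (2 * k + 1) → Fin 2,
    E (mref k) (xw k) (fun p => (w p : ℕ)) * E (mref k) (yw k) (fun p => (z p : ℕ)) *
      ∏ p, (vM (f p) (w p) (z p) : ℚ)

noncomputable def kap (k : ℕ) : ℚ :=
  E (mref k) (xw k) (fun p => (w0 k p : ℕ)) * E (mref k) (yw k) (fun p => (z0 k p : ℕ))

theorem kap_ne (k : ℕ) : kap k ≠ 0 := mul_ne_zero (E_x_w0 k) (E_y_z0 k)

theorem Psi_eq (k : ℕ) (f : Fin (2 * k + 1) → Fin 4) :
    Psi k f = kap k * (rV (ext f) k 0 : ℚ) := by
  rw [← state_sum]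
  unfold Psi
  push_cast
  rw [Finset.mul_sum]
  apply Finset.sum_congr rfl
  intro w _
  rw [Finset.mul_sum]
  apply Finset.sum_congr rfl
  intro z _
  rw [E_x_eq, E_y_eq]
  unfold kap tZ
  push_cast
  simp only [ext_val]
  ring

theorem Psi_ne_zero (k : ℕ) (f : Fin (2 * k + 1) → Fin 4) : Psi k f ≠ 0 := by
  rw [Psi_eq]
  apply mul_ne_zero (kap_ne k)
  exact_mod_cast rV_ne_zero _ _

theorem Psi_swap (k : ℕ) (f : Fin (2 * k + 1) → Fin 4) (i : ℕ) (hi : i + 1 < 2 * k + 1)
    (hf : f ⟨i, by omega⟩ ≠ f ⟨i + 1, hi⟩) :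
    Psi k (fun p => f (swap ⟨i, by omega⟩ ⟨i + 1, hi⟩ p)) = - Psi k f := by
  rw [Psi_eq, Psi_eq]
  have h1 : rV (ext (fun p => f (swap ⟨i, by omega⟩ ⟨i + 1, hi⟩ p))) k
      = rV (ext f ∘ swap i (i + 1)) k := by
    apply rV_congr
    intro j hj
    have hj' : j < 2 * k + 1 := by omega
    simp only [ext, Function.comp, hj', dif_pos]
    by_cases h1 : j = i
    · subst h1
      have e1 : swap (⟨j, by omega⟩ : Fin (2 * k + 1)) ⟨j + 1, hi⟩ ⟨j, hj'⟩ = ⟨j + 1, hi⟩ :=
        swap_apply_left _ _
      rw [e1, swap_apply_left, dif_pos hi]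
    by_cases h2 : j = i + 1
    · subst h2
      have e1 : swap (⟨i, by omega⟩ : Fin (2 * k + 1)) ⟨i + 1, hi⟩ ⟨i + 1, hj'⟩ = ⟨i, by omega⟩ :=
        swap_apply_right _ _
      rw [e1, swap_apply_right, dif_pos (by omega)]
    rw [swap_apply_of_ne_of_ne h1 h2, swap_apply_of_ne_of_ne (by simpa using h1)
      (by simpa using h2), dif_pos hj']
  rw [h1, rV_swap (ext f) i _ k (by omega)]
  · push_cast; ring
  · simp only [ext]
    rw [dif_pos (by omega), dif_pos hi]
    exact hf

theorem Psi_stab (k : ℕ) (γ : Fin (2 * k + 1) → ℕ) (hγ : Monotone γ) :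
    ∀ c : Perm (Fin (2 * k + 1)), (∀ p, γ (c p) = γ p) → ∀ f : Fin (2 * k + 1) → Fin 4,
      (∀ p q, γ p = γ q → p ≠ q → f p ≠ f q) →
      Psi k (fun p => f (c p)) = ((Perm.sign c : ℤ) : ℚ) * Psi k f := by
  apply stab_induction γ hγ
  · intro f _
    simp
  · intro c hc ih i hi hγi f hf
    have hne : (⟨i, by omega⟩ : Fin (2 * k + 1)) ≠ ⟨i + 1, hi⟩ := by simp
    have h1 := Psi_swap k (fun p => f (c p)) i hi (hf _ _ (by rw [hc, hc, hγi])
      (fun h => hne (c.injective h)))
    simp only [Perm.mul_apply]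
    rw [h1, ih f hf, Perm.sign_mul, Perm.sign_swap hne]
    push_cast
    ring

/-! ### ranks in columns -/

/-- rank of `p` in its column -/
def rk (ρ γ : U → ℕ) (p : U) : ℕ := (univ.filter (fun q => γ q = γ p ∧ ρ q < ρ p)).card

theorem rk_lt {ρ γ : U → ℕ} {p q : U} (hγ : γ q = γ p) (hρ : ρ q < ρ p) :
    rk ρ γ q < rk ρ γ p := by
  apply Finset.card_lt_card
  refine Finset.ssubset_iff_subset_ne.mpr ⟨?_, ?_⟩
  · intro r hr
    simp only [mem_filter, mem_univ, true_and] at hr ⊢
    exact ⟨hr.1.trans hγ, hr.2.trans hρ⟩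
  · intro h
    have : q ∈ univ.filter (fun q => γ q = γ p ∧ ρ q < ρ p) := by simp [hγ, hρ]
    rw [← h] at this
    simp at this

theorem rk_lt_card (ρ γ : U → ℕ) (p : U) :
    rk ρ γ p < (univ.filter (fun q => γ q = γ p)).card := by
  apply Finset.card_lt_card
  refine Finset.ssubset_iff_subset_ne.mpr ⟨?_, ?_⟩
  · intro r hr
    simp only [mem_filter, mem_univ, true_and] at hr ⊢
    exact hr.1
  · intro h
    have : p ∈ univ.filter (fun q => γ q = γ p) := by simp
    rw [← h] at this
    simp at this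

/-- if `r` preserves rows and `rank ∘ r` is injective on columns then `rank ∘ r = rank` -/
theorem rk_rigid (ρ γ : U → ℕ) (hinj : Function.Injective (fun p => (ρ p, γ p))) (r : Perm U)
    (hr : ∀ p, ρ (r p) = ρ p)
    (hcol : ∀ p q, γ p = γ q → p ≠ q → rk ρ γ (r p) ≠ rk ρ γ (r q)) :
    ∀ p, rk ρ γ (r p) = rk ρ γ p := by
  have main : ∀ v : ℕ, ∀ p, ρ p = v → rk ρ γ (r p) = rk ρ γ p := by
    intro v
    induction v using Nat.strong_induction_on with
    | _ v ih =>
      -- lower bound on the row
      have hge : ∀ p, ρ p = v → rk ρ γ p ≤ rk ρ γ (r p) := by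
        intro p hp
        by_contra hlt
        push Not at hlt
        -- `f` maps `S ∪ {p}` injectively into `range (rk p)`
        set S := univ.filter (fun q => γ q = γ p ∧ ρ q < ρ p) with hS
        have hpS : p ∉ S := by simp [hS]
        have hcard : (insert p S).card ≤ (Finset.range (rk ρ γ p)).card := by
          apply Finset.card_le_card_of_injOn (fun q => rk ρ γ (r q))
          · intro q hq
            simp only [coe_insert, Set.mem_insert_iff, mem_coe] at hq
            simp only [coe_range, Set.mem_Iio]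
            rcases hq with h | h
            · rw [h]; exact hlt
            · simp only [hS, mem_filter, mem_univ, true_and] at h
              rw [ih (ρ q) (by omega) q rfl]
              exact rk_lt h.1 h.2
          · intro q hq q' hq' heq
            by_contra hne
            have g1 : γ q = γ p := by
              simp only [coe_insert, Set.mem_insert_iff, mem_coe] at hq
              rcases hq with h | h
              · rw [h]
              · simp only [hS, mem_filter, mem_univ, true_and] at h; exact h.1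
            have g2 : γ q' = γ p := by
              simp only [coe_insert, Set.mem_insert_iff, mem_coe] at hq'
              rcases hq' with h | h
              · rw [h]
              · simp only [hS, mem_filter, mem_univ, true_and] at h; exact h.1
            exact hcol q q' (g1.trans g2.symm) hne heq
        rw [Finset.card_insert_of_notMem hpS, Finset.card_range] at hcard
        have : S.card = rk ρ γ p := rfl
        omega
      intro p hp
      have hsum : ∑ q ∈ univ.filter (fun q => ρ q = v), rk ρ γ q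
          = ∑ q ∈ univ.filter (fun q => ρ q = v), rk ρ γ (r q) := by
        symm
        apply Finset.sum_bij (fun q _ => r q)
        · intro q hq
          simp only [mem_filter, mem_univ, true_and] at hq ⊢
          rw [hr, hq]
        · intro q _ q' _ h
          exact r.injective h
        · intro q hq
          simp only [mem_filter, mem_univ, true_and] at hq ⊢
          refine ⟨r.symm q, ?_, by simp⟩
          rw [← hr, Equiv.apply_symm_apply, hq]
        · intro q _
          rfl
      have := (Finset.sum_eq_sum_iff_of_le (fun q hq => hge q (by simpa using hq))).mp hsum p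
        (by simp [hp])
      exact this.symm
  intro p
  exact main _ p rfl

/-! ### the generating function identity -/

theorem sum_word_comp {n : ℕ} (g : Perm (Fin n)) (F : (Fin n → Fin 2) → ℚ) :
    ∑ w, F w = ∑ w : Fin n → Fin 2, F (fun p => w (g p)) := by
  symm
  apply Fintype.sum_bijective (fun w : Fin n → Fin 2 => fun p => w (g p))
  · constructor
    · intro w w' h
      funext p
      have := congrFun h (g.symm p)
      simpa using this
    · intro w
      exact ⟨fun p => w (g.symm p), by funext p; simp⟩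
  · intro w; rfl

theorem gen_term (k : ℕ) (e : Fin (2 * k + 1) → Fin 4) (g : Perm (Fin (2 * k + 1))) :
    ∑ w : Fin (2 * k + 1) → Fin 2, ∑ z : Fin (2 * k + 1) → Fin 2,
      E (mref k) (fun p => xw k (g p)) (fun p => (w p : ℕ)) *
        E (mref k) (fun p => yw k (g p)) (fun p => (z p : ℕ)) *
        ∏ p, (vM (e p) (w p) (z p) : ℚ) = Psi k (fun p => e (g⁻¹ p)) := by
  unfold Psi
  rw [sum_word_comp g]
  apply Finset.sum_congr rfl
  intro w _
  rw [sum_word_comp g]
  apply Finset.sum_congr rfl
  intro z _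
  rw [E_comp (mref k) (xw k) (fun p => (w p : ℕ)) g, E_comp (mref k) (yw k) (fun p => (z p : ℕ)) g]
  have h1 : ∏ p, (vM (e p) (w (g p)) (z (g p)) : ℚ) = ∏ p, (vM (e (g⁻¹ p)) (w p) (z p) : ℚ) := by
    rw [← Equiv.prod_comp g (fun p => (vM (e (g⁻¹ p)) (w p) (z p) : ℚ))]
    simp
  rw [h1]
  have h2 : (((Perm.sign g : ℤˣ) : ℤ) : ℚ) * (((Perm.sign g : ℤˣ) : ℤ) : ℚ) = 1 := by
    rw [← Int.cast_mul, ← Units.val_mul, Int.units_mul_self]
    simp
  linear_combination (E (mref k) (xw k) (fun p => (w p : ℕ)) *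
    E (mref k) (yw k) (fun p => (z p : ℕ)) * ∏ p, (vM (e (g⁻¹ p)) (w p) (z p) : ℚ)) * h2

/-- column antisymmetrization of `Psi` vanishes on words that repeat a letter in a column -/
theorem col_sum_zero (k : ℕ) (γ : Fin (2 * k + 1) → ℕ) (f : Fin (2 * k + 1) → Fin 4)
    (p q : Fin (2 * k + 1)) (hpq : p ≠ q) (hγ : γ p = γ q) (hf : f p = f q) :
    (∑ c : Perm (Fin (2 * k + 1)), if (∀ t, γ (c t) = γ t) then
      ((Perm.sign c : ℤ) : ℚ) * Psi k (fun t => f (c t)) else 0) = 0 := by
  set S := (∑ c : Perm (Fin (2 * k + 1)), if (∀ t, γ (c t) = γ t) then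
      ((Perm.sign c : ℤ) : ℚ) * Psi k (fun t => f (c t)) else 0) with hS
  have hγs : ∀ t, γ (swap p q t) = γ t := by
    intro t
    by_cases h1 : t = p
    · rw [h1, swap_apply_left, hγ]
    by_cases h2 : t = q
    · rw [h2, swap_apply_right, hγ]
    rw [swap_apply_of_ne_of_ne h1 h2]
  have hfs : ∀ t, f (swap p q t) = f t := by
    intro t
    by_cases h1 : t = p
    · rw [h1, swap_apply_left, hf]
    by_cases h2 : t = q
    · rw [h2, swap_apply_right, hf]
    rw [swap_apply_of_ne_of_ne h1 h2]
  have : S = - S := by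
    conv_lhs => rw [hS]
    rw [← Equiv.sum_comp (Equiv.mulLeft (swap p q)), hS, ← Finset.sum_neg_distrib]
    apply Finset.sum_congr rfl
    intro c _
    simp only [Equiv.coe_mulLeft, Perm.mul_apply, hγs, hfs, Perm.sign_mul, Perm.sign_swap hpq]
    split_ifs
    · push_cast; ring
    · simp
  linarith

theorem core (k : ℕ) (ρ γ : Fin (2 * k + 1) → ℕ) (hγ : Monotone γ)
    (hinj : Function.Injective (fun p => (ρ p, γ p)))
    (hcol : ∀ j, (univ.filter (fun p => γ p = j)).card ≤ 4) :
    ∃ w z : Fin (2 * k + 1) → Fin 2,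
      YS ρ γ (fun u v => E (mref k) u (fun p => (w p : ℕ)) * E (mref k) v (fun p => (z p : ℕ)))
        (xw k) (yw k) ≠ 0 := by
  by_contra hno
  push Not at hno
  have h4 : ∀ p, rk ρ γ p < 4 := fun p => lt_of_lt_of_le (rk_lt_card ρ γ p) (hcol _)
  set e : Fin (2 * k + 1) → Fin 4 := fun p => ⟨rk ρ γ p, h4 p⟩ with he
  have h1 : ∑ w : Fin (2 * k + 1) → Fin 2, ∑ z : Fin (2 * k + 1) → Fin 2,
      YS ρ γ (fun u v => E (mref k) u (fun p => (w p : ℕ)) * E (mref k) v (fun p => (z p : ℕ)))
        (xw k) (yw k) * ∏ p, (vM (e p) (w p) (z p) : ℚ) = 0 := by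
    apply Finset.sum_eq_zero
    intro w _
    apply Finset.sum_eq_zero
    intro z _
    rw [hno w z, zero_mul]
  have h2 : ∑ w : Fin (2 * k + 1) → Fin 2, ∑ z : Fin (2 * k + 1) → Fin 2,
      YS ρ γ (fun u v => E (mref k) u (fun p => (w p : ℕ)) * E (mref k) v (fun p => (z p : ℕ)))
        (xw k) (yw k) * ∏ p, (vM (e p) (w p) (z p) : ℚ) =
      ∑ c : Perm (Fin (2 * k + 1)), ∑ r : Perm (Fin (2 * k + 1)),
        if (∀ p, γ (c p) = γ p) ∧ (∀ p, ρ (r p) = ρ p) then
          ((Perm.sign c : ℤ) : ℚ) * Psi k (fun p => e ((c * r)⁻¹ p)) else 0 := by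
    unfold YS
    simp only [Finset.sum_mul]
    have comm1 : ∀ F : (Fin (2 * k + 1) → Fin 2) → (Fin (2 * k + 1) → Fin 2) →
        Perm (Fin (2 * k + 1)) → Perm (Fin (2 * k + 1)) → ℚ,
        ∑ w, ∑ z, ∑ c, ∑ r, F w z c r = ∑ c, ∑ r, ∑ w, ∑ z, F w z c r := by
      intro F
      have e1 : ∀ w, ∑ z, ∑ c, ∑ r, F w z c r = ∑ c, ∑ r, ∑ z, F w z c r := by
        intro w
        rw [Finset.sum_comm]
        apply Finset.sum_congr rfl
        intro c _
        rw [Finset.sum_comm]
      simp only [e1]
      rw [Finset.sum_comm]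
      apply Finset.sum_congr rfl
      intro c _
      rw [Finset.sum_comm]
    rw [comm1]
    apply Finset.sum_congr rfl
    intro c _
    apply Finset.sum_congr rfl
    intro r _
    split_ifs with h
    · rw [← gen_term k e (c * r), Finset.mul_sum]
      apply Finset.sum_congr rfl
      intro w _
      rw [Finset.mul_sum]
      apply Finset.sum_congr rfl
      intro z _
      simp only [Perm.mul_apply]
      ring
    · simp
  have h3 : (∑ c : Perm (Fin (2 * k + 1)), ∑ r : Perm (Fin (2 * k + 1)),
        if (∀ p, γ (c p) = γ p) ∧ (∀ p, ρ (r p) = ρ p) then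
          ((Perm.sign c : ℤ) : ℚ) * Psi k (fun p => e ((c * r)⁻¹ p)) else 0) =
      ∑ r : Perm (Fin (2 * k + 1)), if (∀ p, ρ (r p) = ρ p) then
        (∑ c : Perm (Fin (2 * k + 1)), if (∀ p, γ (c p) = γ p) then
          ((Perm.sign c : ℤ) : ℚ) * Psi k (fun p => e (r (c p))) else 0) else 0 := by
    have inv_iff : ∀ (δ : Fin (2 * k + 1) → ℕ) (c : Perm (Fin (2 * k + 1))),
        (∀ p, δ (c⁻¹ p) = δ p) ↔ ∀ p, δ (c p) = δ p := by
      intro δ c
      constructor
      · intro h p
        have := h (c p)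
        simpa using this.symm
      · intro h p
        have := h (c⁻¹ p)
        simpa using this.symm
    rw [← Equiv.sum_comp (Equiv.inv (Perm (Fin (2 * k + 1))))]
    simp only [Equiv.inv_apply, inv_iff]
    rw [Finset.sum_comm, ← Equiv.sum_comp (Equiv.inv (Perm (Fin (2 * k + 1))))]
    apply Finset.sum_congr rfl
    intro r _
    simp only [Equiv.inv_apply, inv_iff]
    by_cases hr : ∀ p, ρ (r p) = ρ p
    · simp only [hr, implies_true, and_true, if_true]
      apply Finset.sum_congr rfl
      intro c _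
      split_ifs
      · rw [Perm.sign_inv]
        congr 2
      · rfl
    · simp [hr]
  have h5 : ∀ r : Perm (Fin (2 * k + 1)), (∀ p, ρ (r p) = ρ p) →
      (∑ c : Perm (Fin (2 * k + 1)), if (∀ p, γ (c p) = γ p) then
          ((Perm.sign c : ℤ) : ℚ) * Psi k (fun p => e (r (c p))) else 0) =
      if (∀ p, e (r p) = e p) then (∑ c : Perm (Fin (2 * k + 1)),
        if (∀ p, γ (c p) = γ p) then (1 : ℚ) else 0) * Psi k e else 0 := by
    intro r hr
    by_cases hi : ∀ p q, γ p = γ q → p ≠ q → rk ρ γ (r p) ≠ rk ρ γ (r q)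
    · have h6 := rk_rigid ρ γ hinj r hr hi
      have h7 : ∀ p, e (r p) = e p := fun p => Fin.ext (h6 p)
      rw [if_pos h7, Finset.sum_mul]
      apply Finset.sum_congr rfl
      intro c _
      split_ifs with hc
      · have h8 : (fun p => e (r (c p))) = fun p => e (c p) := by
          funext p; exact h7 (c p)
        rw [h8, Psi_stab k γ hγ c hc e]
        · have h2 : (((Perm.sign c : ℤˣ) : ℤ) : ℚ) * (((Perm.sign c : ℤˣ) : ℤ) : ℚ) = 1 := by
            rw [← Int.cast_mul, ← Units.val_mul, Int.units_mul_self]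
            simp
          linear_combination Psi k e * h2
        · intro p q hpq hne
          have := hi p q hpq hne
          rw [h6, h6] at this
          intro h
          exact this (congrArg Fin.val h)
      · simp
    · push Not at hi
      obtain ⟨p, q, hγpq, hne, heq⟩ := hi
      rw [col_sum_zero k γ (fun t => e (r t)) p q hne hγpq (Fin.ext heq)]
      rw [if_neg]
      intro h7
      have h8 : rk ρ γ p = rk ρ γ q := by
        have a1 := congrArg Fin.val (h7 p)
        have a2 := congrArg Fin.val (h7 q)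
        simp only [he] at a1 a2
        omega
      rcases lt_trichotomy (ρ p) (ρ q) with h | h | h
      · have := rk_lt (ρ := ρ) hγpq h
        omega
      · exact hne (hinj (Prod.ext h hγpq))
      · have := rk_lt (ρ := ρ) hγpq.symm h
        omega
  rw [h2, h3] at h1
  have h9 : (∑ r : Perm (Fin (2 * k + 1)), if (∀ p, ρ (r p) = ρ p) then
        (∑ c : Perm (Fin (2 * k + 1)), if (∀ p, γ (c p) = γ p) then
          ((Perm.sign c : ℤ) : ℚ) * Psi k (fun p => e (r (c p))) else 0) else 0) =
      (∑ r : Perm (Fin (2 * k + 1)), if (∀ p, ρ (r p) = ρ p) ∧ (∀ p, e (r p) = e p) then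
        (1 : ℚ) else 0) * ((∑ c : Perm (Fin (2 * k + 1)),
        if (∀ p, γ (c p) = γ p) then (1 : ℚ) else 0) * Psi k e) := by
    rw [Finset.sum_mul]
    apply Finset.sum_congr rfl
    intro r _
    by_cases hr : ∀ p, ρ (r p) = ρ p
    · rw [if_pos hr, h5 r hr]
      by_cases h7 : ∀ p, e (r p) = e p
      · rw [if_pos h7, if_pos ⟨hr, h7⟩, one_mul]
      · rw [if_neg h7, if_neg (fun h => h7 h.2), zero_mul]
    · rw [if_neg hr, if_neg (fun h => hr h.1), zero_mul]
  rw [h9] at h1
  have pos1 : (0 : ℚ) < ∑ r : Perm (Fin (2 * k + 1)),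
      if (∀ p, ρ (r p) = ρ p) ∧ (∀ p, e (r p) = e p) then (1 : ℚ) else 0 := by
    apply Finset.sum_pos'
    · intro r _; split_ifs <;> norm_num
    · exact ⟨1, mem_univ _, by simp⟩
  have pos2 : (0 : ℚ) < ∑ c : Perm (Fin (2 * k + 1)),
      if (∀ p, γ (c p) = γ p) then (1 : ℚ) else 0 := by
    apply Finset.sum_pos'
    · intro r _; split_ifs <;> norm_num
    · exact ⟨1, mem_univ _, by simp⟩
  exact mul_ne_zero pos1.ne' (mul_ne_zero pos2.ne' (Psi_ne_zero k e)) h1

/-! ### transport along an equivalence -/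

variable {V : Type} [Fintype V] [DecidableEq V]

theorem E_equiv (e : V ≃ U) (b : V → ℕ × ℕ) (x z : U → ℕ) :
    E (fun p => b (e.symm p)) x z = E b (fun p => x (e p)) (fun p => z (e p)) := by
  unfold E
  rw [← Equiv.sum_comp e.permCongr]
  apply Finset.sum_congr rfl
  intro g _
  rw [Equiv.Perm.sign_permCongr]
  have : (∀ p, b (e.symm ((e.permCongr g) p)) = (x p, z p)) ↔
      ∀ p, b (g p) = (x (e p), z (e p)) := by
    constructor
    · intro h p
      have := h (e p)
      simpa using this
    · intro h p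
      have := h (e.symm p)
      simpa using this
  simp only [this]

theorem YS_equiv (e : V ≃ U) (ρ γ : U → ℕ) (F : (U → ℕ) → (U → ℕ) → ℚ) (x y : V → ℕ) :
    YS ρ γ F (fun p => x (e.symm p)) (fun p => y (e.symm p)) =
      YS (fun p => ρ (e p)) (fun p => γ (e p))
        (fun u v => F (fun p => u (e.symm p)) (fun p => v (e.symm p))) x y := by
  unfold YS
  rw [← Equiv.sum_comp e.permCongr]
  apply Finset.sum_congr rfl
  intro c _
  rw [← Equiv.sum_comp e.permCongr]
  apply Finset.sum_congr rfl
  intro r _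
  rw [Equiv.Perm.sign_permCongr]
  have h1 : ∀ (δ : U → ℕ) (c : Perm V), (∀ p, δ (e.permCongr c p) = δ p) ↔
      ∀ p, δ (e (c p)) = δ (e p) := by
    intro δ c
    constructor
    · intro h p
      have := h (e p)
      simpa using this
    · intro h p
      have := h (e.symm p)
      simpa using this
  simp only [h1]
  simp

end Vale.Agent.P197.PAux

namespace Vale.Agent.P197

open Equiv Finset PAux

variable {U : Type} [Fintype U] [DecidableEq U]

theorem lemmaP (k : ℕ) (hk : 1 ≤ k) (hcard : Fintype.card U = 2 * k + 1) (ρ γ : U → ℕ)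
    (hinj : Function.Injective (fun p => (ρ p, γ p)))
    (hcol : ∀ j, (univ.filter (fun p => γ p = j)).card ≤ 4) :
    ∃ m : U → ℕ × ℕ, IsMu (k + 1) m ∧ ∃ x y w z : U → ℕ,
      (∀ p, k ≤ x p + y p + 1) ∧ (∀ p, x p + y p < k + 1) ∧ (∀ p, w p < 2) ∧ (∀ p, z p < 2) ∧
      YS ρ γ (fun u v => E m u w * E m v z) x y ≠ 0 := by
  -- order `U` column by column
  let e₀ : Fin (2 * k + 1) ≃ U := (Fintype.equivFinOfCardEq hcard).symm
  let σ : Perm (Fin (2 * k + 1)) := Tuple.sort (fun t => γ (e₀ t))
  let e : Fin (2 * k + 1) ≃ U := σ.trans e₀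
  have hmono : Monotone (fun t => γ (e t)) := Tuple.monotone_sort (fun t => γ (e₀ t))
  have hinj' : Function.Injective (fun t => (ρ (e t), γ (e t))) := hinj.comp e.injective
  have hcol' : ∀ j, (univ.filter (fun t => γ (e t) = j)).card ≤ 4 := by
    intro j
    refine le_trans (Finset.card_le_card_of_injOn (t := univ.filter (fun p => γ p = j))
      (fun t => e t) ?_ ?_) (hcol j)
    · intro t ht
      simpa using ht
    · intro t _ t' _ h
      exact e.injective h
  obtain ⟨w, z, hwz⟩ := core k (fun t => ρ (e t)) (fun t => γ (e t)) hmono hinj' hcol'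
  refine ⟨fun p => mref k (e.symm p), ?_, fun p => xw k (e.symm p), fun p => yw k (e.symm p),
    fun p => (w (e.symm p) : ℕ), fun p => (z (e.symm p) : ℕ), ?_, ?_, ?_, ?_, ?_⟩
  · refine ⟨(mref_isMu k).1.comp e.symm.injective, ?_⟩
    intro c
    rw [← (mref_isMu k).2 c]
    constructor
    · rintro ⟨p, hp⟩; exact ⟨e.symm p, hp⟩
    · rintro ⟨p, hp⟩; exact ⟨e p, by simpa using hp⟩
  · intro p
    have := (e.symm p).2
    simp only [xw, yw]
    omega
  · intro p
    have := (e.symm p).2
    simp only [xw, yw]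
    omega
  · intro p; exact (w (e.symm p)).2
  · intro p; exact (z (e.symm p)).2
  · rw [YS_equiv e ρ γ _ (xw k) (yw k)]
    simp only [E_equiv e, Equiv.symm_apply_apply]
    exact hwz

end Vale.Agent.P197
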