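import Vale.Agent.P197.Defs

/-! # P197 [NUM]: the four-row/four-column dichotomy and the choice of the top cells -/

namespace Vale.Agent.P197

open Equiv Finset

variable {I : Type} [Fintype I] [DecidableEq I]

namespace NumAux

/-- Points whose column is long. -/
def long (f : I → ℕ) : Finset ℕ :=
  (univ.image f).filter (fun j => 4 ≤ (univ.filter (fun p => f p = j)).card)

theorem sum_min (f : I → ℕ) :
    ∑ j ∈ univ.image f, min 4 (univ.filter (fun p => f p = j)).card =
      4 * (long f).card + (univ.filter (fun p => f p ∉ long f)).card := by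
  rw [← Finset.sum_filter_add_sum_filter_not (univ.image f)
    (fun j => 4 ≤ (univ.filter (fun p => f p = j)).card)]
  congr 1
  · rw [Finset.sum_congr rfl (g := fun _ => 4)]
    · rw [Finset.sum_const, smul_eq_mul, mul_comm, long]
    · intro j hj
      rw [Finset.mem_filter] at hj
      exact min_eq_left hj.2
  · rw [Finset.card_eq_sum_card_fiberwise (f := f)
      (t := (univ.image f).filter (fun j => ¬ 4 ≤ (univ.filter (fun p => f p = j)).card))]
    · refine Finset.sum_congr rfl fun j hj => ?_
      rw [Finset.mem_filter] at hj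
      rw [min_eq_right (by omega)]
      congr 1
      ext p
      simp only [long, Finset.mem_filter, Finset.mem_univ, true_and, Finset.mem_image, not_and]
      constructor
      · intro h; subst h; exact ⟨fun _ => hj.2, rfl⟩
      · intro h; exact h.2
    · intro p hp
      simp only [long, Finset.coe_filter, Finset.mem_filter, Finset.mem_univ, true_and,
        Finset.mem_image, not_and, Set.mem_ofPred_eq] at hp ⊢
      exact ⟨⟨p, rfl⟩, hp ⟨p, rfl⟩⟩

theorem card_le (ρ γ : I → ℕ) (hinj : Function.Injective (fun p => (ρ p, γ p))) :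
    Fintype.card I ≤ (long γ).card * (long ρ).card +
      (univ.filter (fun p => γ p ∉ long γ)).card +
      (univ.filter (fun p => ρ p ∉ long ρ)).card := by
  have h1 : (univ.filter (fun p => γ p ∈ long γ ∧ ρ p ∈ long ρ)).card ≤
      (long γ).card * (long ρ).card := by
    rw [← Finset.card_product]
    refine Finset.card_le_card_of_injOn (fun p => (γ p, ρ p)) ?_ ?_
    · intro p hp
      simp only [Finset.coe_filter, Finset.mem_univ, true_and, Set.mem_ofPred_eq] at hp
      simpa using hp
    · intro p _ q _ hpq
      simp only [Prod.mk.injEq] at hpq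
      exact hinj (by simp [hpq.1, hpq.2])
  have h2 : (univ : Finset I) ⊆ (univ.filter (fun p => γ p ∈ long γ ∧ ρ p ∈ long ρ)) ∪
      (univ.filter (fun p => γ p ∉ long γ)) ∪ (univ.filter (fun p => ρ p ∉ long ρ)) := by
    intro p _
    simp only [Finset.mem_union, Finset.mem_filter, Finset.mem_univ, true_and]
    tauto
  have h3 := Finset.card_le_card h2
  rw [Finset.card_univ] at h3
  have h4 := Finset.card_union_le ((univ.filter (fun p => γ p ∈ long γ ∧ ρ p ∈ long ρ)) ∪
      (univ.filter (fun p => γ p ∉ long γ))) (univ.filter (fun p => ρ p ∉ long ρ))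
  have h5 := Finset.card_union_le (univ.filter (fun p => γ p ∈ long γ ∧ ρ p ∈ long ρ))
      (univ.filter (fun p => γ p ∉ long γ))
  omega

theorem card_eq_of_long (f : I → ℕ) (h : (long f).card = 0) :
    (univ.filter (fun p => f p ∉ long f)).card = Fintype.card I := by
  rw [Finset.card_eq_zero] at h
  rw [h]
  simp

theorem arith (a C R s₁ s₂ N : ℤ) (ha : 0 ≤ a) (hN : 2 * N = (a + 2) * (a + 3))
    (hC : 1 ≤ C) (hR : 1 ≤ R) (hs1 : 0 ≤ s₁) (hs2 : 0 ≤ s₂)
    (h : N ≤ C * R + s₁ + s₂) (h1 : 4 * C + s₁ < 2 * a + 3) (h2 : 4 * R + s₂ < 2 * a + 3) :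
    False := by
  have hC2 : 0 ≤ a + 1 - 2 * C := by omega
  have hR2 : 0 ≤ a + 1 - 2 * R := by omega
  have p1 : 0 ≤ (C - 1) * (a + 1 - 2 * R) := mul_nonneg (by omega) hR2
  have p2 : 0 ≤ (R - 1) * (a + 1 - 2 * C) := mul_nonneg (by omega) hC2
  rcases le_or_gt a 13 with h13 | h13
  · have p3 : 0 ≤ (13 - a) * (C + R - 2) := mul_nonneg (by omega) (by omega)
    nlinarith
  · have p3 : 0 ≤ (a - 13) * (a + 1 - (C + R)) := mul_nonneg (by omega) (by omega)
    nlinarith

end NumAux

theorem numeric (a : ℕ) (ρ γ : I → ℕ) (hinj : Function.Injective (fun p => (ρ p, γ p)))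
    (hcard : 2 * Fintype.card I = (a + 2) * (a + 3)) :
    2 * a + 3 ≤ ∑ j ∈ univ.image γ, min 4 (univ.filter (fun p => γ p = j)).card ∨
    2 * a + 3 ≤ ∑ j ∈ univ.image ρ, min 4 (univ.filter (fun p => ρ p = j)).card := by
  by_contra hcon
  push Not at hcon
  obtain ⟨h1, h2⟩ := hcon
  rw [NumAux.sum_min] at h1 h2
  have h3 := NumAux.card_le ρ γ hinj
  have hbig : 2 * a + 3 ≤ Fintype.card I := by nlinarith
  rcases Nat.eq_zero_or_pos (NumAux.long γ).card with hc | hc
  · have := NumAux.card_eq_of_long γ hc
    omega
  rcases Nat.eq_zero_or_pos (NumAux.long ρ).card with hr | hr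
  · have := NumAux.card_eq_of_long ρ hr
    omega
  refine NumAux.arith a (NumAux.long γ).card (NumAux.long ρ).card
    (univ.filter (fun p => γ p ∉ NumAux.long γ)).card
    (univ.filter (fun p => ρ p ∉ NumAux.long ρ)).card (Fintype.card I) (by positivity)
    (by exact_mod_cast hcard) (by exact_mod_cast hc) (by exact_mod_cast hr) (by positivity)
    (by positivity) (by exact_mod_cast h3) (by exact_mod_cast h1) (by exact_mod_cast h2)

theorem choose_t (ρ γ : I → ℕ) (hinj : Function.Injective (fun p => (ρ p, γ p))) (n : ℕ)
    (hn : n ≤ ∑ j ∈ univ.image γ, min 4 (univ.filter (fun p => γ p = j)).card) :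
    ∃ t : ℕ → ℕ, (univ.filter (fun p => ρ p < t (γ p))).card = n ∧
      ∀ j, (univ.filter (fun p => γ p = j ∧ ρ p < t j)).card ≤ 4 := by
  induction n with
  | zero => exact ⟨fun _ => 0, by simp, by simp⟩
  | succ n ih =>
    obtain ⟨t, h1, h2⟩ := ih (by omega)
    have h3 : ∃ j ∈ univ.image γ, (univ.filter (fun p => γ p = j ∧ ρ p < t j)).card <
        min 4 (univ.filter (fun p => γ p = j)).card := by
      by_contra hcon
      push Not at hcon
      have h4 := Finset.sum_le_sum hcon
      have h5 : (univ.filter (fun p => ρ p < t (γ p))).card =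
          ∑ j ∈ univ.image γ, (univ.filter (fun p => γ p = j ∧ ρ p < t j)).card := by
        rw [Finset.card_eq_sum_card_fiberwise (f := γ) (t := univ.image γ)]
        · refine Finset.sum_congr rfl fun j _ => ?_
          congr 1
          ext p
          simp only [Finset.mem_filter, Finset.mem_univ, true_and]
          constructor
          · rintro ⟨h, rfl⟩; exact ⟨rfl, h⟩
          · rintro ⟨rfl, h⟩; exact ⟨h, rfl⟩
        · intro p _
          simp
      omega
    obtain ⟨j, _, hj⟩ := h3
    have hj1 := (lt_min_iff.mp hj).1
    have hj2 := (lt_min_iff.mp hj).2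
    have hS : (univ.filter (fun p => γ p = j ∧ t j ≤ ρ p)).Nonempty := by
      rw [Finset.nonempty_iff_ne_empty]
      intro hemp
      have : (univ.filter (fun p => γ p = j)) ⊆ univ.filter (fun p => γ p = j ∧ ρ p < t j) := by
        intro p hp
        simp only [Finset.mem_filter, Finset.mem_univ, true_and] at hp ⊢
        refine ⟨hp, ?_⟩
        by_contra hlt
        have : p ∈ (univ.filter (fun p => γ p = j ∧ t j ≤ ρ p)) := by
          simp only [Finset.mem_filter, Finset.mem_univ, true_and]
          exact ⟨hp, by omega⟩
        rw [hemp] at this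
        simp at this
      have := Finset.card_le_card this
      omega
    obtain ⟨p0, hp0, hmin⟩ := Finset.exists_min_image _ ρ hS
    simp only [Finset.mem_filter, Finset.mem_univ, true_and] at hp0 hmin
    have key : ∀ p, γ p = j → (ρ p < ρ p0 + 1 ↔ (p = p0 ∨ ρ p < t j)) := by
      intro p hp
      constructor
      · intro h
        by_cases hlt : ρ p < t j
        · exact Or.inr hlt
        · left
          have := hmin p ⟨hp, by omega⟩
          exact hinj (by simp only [Prod.mk.injEq]; exact ⟨by omega, by rw [hp, hp0.1]⟩)
      · rintro (rfl | h)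
        · omega
        · omega
    refine ⟨Function.update t j (ρ p0 + 1), ?_, ?_⟩
    · have : (univ.filter (fun p => ρ p < Function.update t j (ρ p0 + 1) (γ p))) =
          insert p0 (univ.filter (fun p => ρ p < t (γ p))) := by
        ext p
        simp only [Finset.mem_filter, Finset.mem_univ, true_and, Finset.mem_insert]
        by_cases hp : γ p = j
        · rw [hp, Function.update_self]
          exact key p hp
        · rw [Function.update_of_ne hp]
          constructor
          · intro h; exact Or.inr h
          · rintro (rfl | h)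
            · exact absurd hp0.1 hp
            · exact h
      rw [this, Finset.card_insert_of_notMem, h1]
      simp only [Finset.mem_filter, Finset.mem_univ, true_and, not_lt]
      rw [hp0.1]
      exact hp0.2
    · intro i
      by_cases hi : i = j
      · subst hi
        rw [Function.update_self]
        have : (univ.filter (fun p => γ p = i ∧ ρ p < ρ p0 + 1)) ⊆
            insert p0 (univ.filter (fun p => γ p = i ∧ ρ p < t i)) := by
          intro p hp
          simp only [Finset.mem_filter, Finset.mem_univ, true_and, Finset.mem_insert] at hp ⊢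
          rcases (key p hp.1).1 hp.2 with h | h
          · exact Or.inl h
          · exact Or.inr ⟨hp.1, h⟩
        have := Finset.card_le_card this
        have := Finset.card_insert_le p0 (univ.filter (fun p => γ p = i ∧ ρ p < t i))
        omega
      · rw [Function.update_of_ne hi]
        exact h2 i

end Vale.Agent.P197
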