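import Vale.Agent.P197.Kernel
import Vale.Agent.P197.Garnir
import Vale.Agent.P197.Block
import Vale.Agent.P197.Isolation
import Vale.Agent.P197.Numeric
import Vale.Agent.P197.ClaimA
import Vale.Agent.P197.LemmaP

/-! # P197: the induction step and the induction (piece [ASM]). -/

namespace Vale.Agent.P197

open Equiv Finset

variable {I : Type} [Fintype I] [DecidableEq I]

theorem YS_sum (ρ γ : I → ℕ) {ι : Type} (s : Finset ι) (c : ι → ℚ)
    (F : ι → (I → ℕ) → (I → ℕ) → ℚ) (x y : I → ℕ) :
    YS ρ γ (fun u v => ∑ i ∈ s, c i * F i u v) x y = ∑ i ∈ s, c i * YS ρ γ (F i) x y := by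
  unfold YS
  symm
  simp only [mul_sum]
  rw [Finset.sum_comm]
  refine Finset.sum_congr rfl fun g _ => ?_
  rw [Finset.sum_comm]
  refine Finset.sum_congr rfl fun r _ => ?_
  by_cases hc : (∀ p, γ (g p) = γ p) ∧ (∀ p, ρ (r p) = ρ p)
  · simp only [if_pos hc]
    exact Finset.sum_congr rfl fun i _ => by ring
  · simp only [if_neg hc, mul_zero, Finset.sum_const_zero]

theorem YS_congr (ρ γ : I → ℕ) {F F' : (I → ℕ) → (I → ℕ) → ℚ} (h : ∀ u v, F u v = F' u v)
    (x y : I → ℕ) : YS ρ γ F x y = YS ρ γ F' x y := by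
  have : F = F' := by funext u v; exact h u v
  rw [this]

theorem exists_of_YS_ne_zero {ρ γ : I → ℕ} {F : (I → ℕ) → (I → ℕ) → ℚ} {x y : I → ℕ}
    (h : YS ρ γ F x y ≠ 0) : ∃ c r : Perm I, F (fun p => x (c (r p))) (fun p => y (c (r p))) ≠ 0 := by
  by_contra hc
  push Not at hc
  apply h
  unfold YS
  refine Finset.sum_eq_zero fun c _ => Finset.sum_eq_zero fun r _ => ?_
  rw [hc c r, mul_zero, ite_self]

theorem sum_of_YS_ne_zero {b : I → ℕ × ℕ} {ρ γ x y x' z : I → ℕ}
    (h : YS ρ γ (fun u v => G b u x' * E b v z) x y ≠ 0) :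
    ∑ p, (x p + y p) = ∑ p, (b p).1 + ∑ p, (b p).1 := by
  obtain ⟨c, r, hcr⟩ := exists_of_YS_ne_zero h
  have h1 := G_sum (left_ne_zero_of_mul hcr)
  have h2 := E_sum_fst (right_ne_zero_of_mul hcr)
  have h3 : ∑ p, x (c (r p)) = ∑ p, x p := Equiv.sum_comp (r.trans c) x
  have h4 : ∑ p, y (c (r p)) = ∑ p, y p := Equiv.sum_comp (r.trans c) y
  rw [Finset.sum_add_distrib, ← h3, ← h4, h1, h2]

/-- the induction step, column case -/
theorem good_step_col (a : ℕ)
    (ih : ∀ (S : Type) [Fintype S] [DecidableEq S] (ρ γ : S → ℕ),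
      2 * Fintype.card S = a * (a + 1) → Function.Injective (fun p => (ρ p, γ p)) → Good a ρ γ)
    (I : Type) [Fintype I] [DecidableEq I] (ρ γ : I → ℕ)
    (hcard : 2 * Fintype.card I = (a + 2) * (a + 3))
    (hinj : Function.Injective (fun p => (ρ p, γ p)))
    (hn : 2 * a + 3 ≤ ∑ j ∈ univ.image γ, min 4 (univ.filter (fun p => γ p = j)).card) :
    Good (a + 2) ρ γ := by
  obtain ⟨t, ht1, ht2⟩ := choose_t ρ γ hinj (2 * a + 3) hn
  let P : I → Prop := fun p => ρ p < t (γ p)
  let U := {p : I // P p}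
  let S := {p : I // ¬ P p}
  have hcU : Fintype.card U = 2 * (a + 1) + 1 := by
    rw [Fintype.card_subtype, ht1]; ring
  have hcS : 2 * Fintype.card S = a * (a + 1) := by
    have h1 : Fintype.card S = Fintype.card I - Fintype.card U := by
      exact Fintype.card_subtype_compl P
    have h2 : Fintype.card U ≤ Fintype.card I := Fintype.card_subtype_le P
    have h3 : 2 * Fintype.card S + 2 * Fintype.card U = (a + 2) * (a + 3) := by
      rw [← hcard, h1]; omega
    rw [hcU] at h3
    nlinarith [h3]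
  have hinjS : Function.Injective (fun p : S => (ρ p.1, γ p.1)) := by
    intro p q h
    exact Subtype.ext (hinj h)
  have hinjU : Function.Injective (fun p : U => (ρ p.1, γ p.1)) := by
    intro p q h
    exact Subtype.ext (hinj h)
  obtain ⟨s, hs, x₁, y₁, x₁', z₁, h1, h2, h3⟩ :=
    ih S (fun p => ρ p.1) (fun p => γ p.1) hcS hinjS
  have hcol : ∀ j, (univ.filter (fun p : U => γ p.1 = j)).card ≤ 4 := by
    intro j
    refine le_trans ?_ (ht2 j)
    have : (univ.filter (fun p : U => γ p.1 = j)).map (Function.Embedding.subtype _) ⊆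
        univ.filter (fun p => γ p = j ∧ ρ p < t j) := by
      intro p hp
      simp only [Finset.mem_map, mem_filter, mem_univ, true_and] at hp ⊢
      obtain ⟨q, hq, rfl⟩ := hp
      refine ⟨hq, ?_⟩
      have := q.2
      simp only [Function.Embedding.subtype_apply]
      rw [← hq]
      exact this
    calc _ = ((univ.filter (fun p : U => γ p.1 = j)).map (Function.Embedding.subtype _)).card :=
          (Finset.card_map _).symm
      _ ≤ _ := Finset.card_le_card this
  obtain ⟨m, hm, x₂, y₂, w₂, z₂, k1, k2, k3, k4, k5⟩ :=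
    lemmaP (a + 1) (by omega) hcU (fun p : U => ρ p.1) (fun p : U => γ p.1) hinjU hcol
  have hm' : IsMu (a + 2) m := hm
  have hb : IsStair (a + 2) (glue s m) := glue_isStair hs hm'
  have hm2 : ∀ p, (m p).2 < 2 := fun p => ((hm.2 (m p)).1 ⟨p, rfl⟩).2
  have hmlt : ∀ p, (m p).1 + (m p).2 < a + 2 := fun p => ((hm.2 (m p)).1 ⟨p, rfl⟩).1
  -- isolation
  have hiso := isolation (fun p : S => ρ p.1) (fun p : S => γ p.1) x₁ y₁
    (fun p : U => ρ p.1) (fun p : U => γ p.1) x₂ y₂ t a
    (fun p => not_lt.1 p.2) (fun p => p.2) h1 (fun p => by have := k1 p; omega)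
    (fun u v => G s u x₁' * E s v z₁) (fun u v => E m u w₂ * E m v z₂)
    (by
      intro u v huv
      rw [sum_of_YS_ne_zero h3, Finset.sum_add_distrib,
        G_sum (left_ne_zero_of_mul huv), E_sum_fst (right_ne_zero_of_mul huv)])
  have hne : YS (Sum.elim (fun p : S => ρ p.1) (fun p : U => ρ p.1))
      (Sum.elim (fun p : S => γ p.1) (fun p : U => γ p.1))
      (fun u v => (G s (fun p => u (Sum.inl p)) x₁' * E s (fun p => v (Sum.inl p)) z₁) *
        (E m (fun p => u (Sum.inr p)) w₂ * E m (fun p => v (Sum.inr p)) z₂))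
      (Sum.elim x₁ x₂) (Sum.elim y₁ y₂) ≠ 0 := by
    rw [hiso]
    exact mul_ne_zero h3 k5
  obtain ⟨κ, hκ⟩ := claimA hs hm' w₂ k3 x₁'
  -- rewrite the kernel
  have hker : ∀ u v : S ⊕ U → ℕ,
      (G s (fun p => u (Sum.inl p)) x₁' * E s (fun p => v (Sum.inl p)) z₁) *
        (E m (fun p => u (Sum.inr p)) w₂ * E m (fun p => v (Sum.inr p)) z₂) =
      ∑ g : Perm U, (κ * E m (fun p => (m (g p)).1) w₂) *
        (G (glue s m) u (Sum.elim x₁' (fun p => (m (g p)).1)) *
          E (glue s m) v (Sum.elim (fun p => z₁ p + 2) z₂)) := by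
    intro u v
    have e1 := hκ u
    have e2 := block s m hm2 z₁ z₂ k4 v
    rw [e2]
    calc _ = (G s (fun p => u (Sum.inl p)) x₁' * E m (fun p => u (Sum.inr p)) w₂) *
          (E s (fun p => v (Sum.inl p)) z₁ * E m (fun p => v (Sum.inr p)) z₂) := by ring
      _ = _ := by
        rw [e1, mul_sum, Finset.sum_mul]
        exact Finset.sum_congr rfl fun g _ => by ring
  rw [YS_congr _ _ hker, YS_sum] at hne
  obtain ⟨g, _, hg⟩ := Finset.exists_ne_zero_of_sum_ne_zero hne
  have hg' := right_ne_zero_of_mul hg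
  clear hne hg
  -- transport
  let e : S ⊕ U ≃ I := (Equiv.sumComm S U).trans (Equiv.sumCompl P)
  have heρ : (fun p => ρ (e p)) = Sum.elim (fun p : S => ρ p.1) (fun p : U => ρ p.1) := by
    funext p
    rcases p with p | p <;> rfl
  have heγ : (fun p => γ (e p)) = Sum.elim (fun p : S => γ p.1) (fun p : U => γ p.1) := by
    funext p
    rcases p with p | p <;> rfl
  apply good_equiv e
  rw [heρ, heγ]
  have hΩ1 : ∀ p, Sum.elim x₁ x₂ p + Sum.elim y₁ y₂ p < a + 2 := by
    intro p
    rcases p with p | p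
    · have := h1 p; simp only [Sum.elim_inl]; omega
    · have := k2 p; simp only [Sum.elim_inr]; omega
  set x' : S ⊕ U → ℕ := Sum.elim x₁' (fun p => (m (g p)).1) with hx'
  set zz : S ⊕ U → ℕ := Sum.elim (fun p => z₁ p + 2) z₂ with hzz
  -- a bad position is the cell `(a+1, 0)`
  have hbad : ∀ p, ¬ (x' p + zz p < a + 2) → ∃ q : U, p = Sum.inr q ∧ m (g q) = (a + 1, 0) ∧
      z₂ q = 1 := by
    intro p hp
    rcases p with p | p
    · exfalso
      apply hp
      have := h2 p
      simp only [hx', hzz, Sum.elim_inl]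
      omega
    · refine ⟨p, rfl, ?_⟩
      simp only [hx', hzz, Sum.elim_inr] at hp
      have i1 := hmlt (g p)
      have i2 := k4 p
      refine ⟨?_, by omega⟩
      rw [Prod.ext_iff]
      exact ⟨by simp only []; omega, by simp only []; omega⟩
  by_cases hall : ∀ p, x' p + zz p < a + 2
  · exact ⟨glue s m, hb, _, _, x', zz, hΩ1, hall, hg'⟩
  · push Not at hall
    obtain ⟨p, hp⟩ := hall
    obtain ⟨q, rfl, hq1, hq2⟩ := hbad p (not_lt.2 hp)
    have hgar : ∀ v : S ⊕ U → ℕ, E (glue s m) v zz =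
        - ∑ q' ∈ univ.filter (fun q' => zz q' = 0),
          E (glue s m) v (fun r => zz (swap (Sum.inr q) q' r)) :=
      fun v => garnir hb v zz (Sum.inr q) 0 (by simp [hzz, hq2])
    have hker2 : ∀ u v : S ⊕ U → ℕ, G (glue s m) u x' * E (glue s m) v zz =
        ∑ q' ∈ univ.filter (fun q' => zz q' = 0), (-1 : ℚ) * (G (glue s m) u x' *
          E (glue s m) v (fun r => zz (swap (Sum.inr q) q' r))) := by
      intro u v
      rw [hgar v, mul_neg, mul_sum, ← Finset.sum_neg_distrib]
      exact Finset.sum_congr rfl fun g _ => by ring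
    rw [YS_congr _ _ hker2, YS_sum] at hg'
    obtain ⟨q', hq', hne'⟩ := Finset.exists_ne_zero_of_sum_ne_zero hg'
    refine ⟨glue s m, hb, _, _, x', fun r => zz (swap (Sum.inr q) q' r), hΩ1, ?_,
      right_ne_zero_of_mul hne'⟩
    have hz0 : zz q' = 0 := (mem_filter.1 hq').2
    have hz1 : zz (Sum.inr q) = 1 := by simp [hzz, hq2]
    have hx1 : x' (Sum.inr q) = a + 1 := by simp [hx', hq1]
    have huniq : ∀ r : U, m (g r) = (a + 1, 0) → r = q := by
      intro r hr
      apply g.injective
      apply hm.1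
      rw [hr, hq1]
    intro r
    by_cases hr1 : r = Sum.inr q
    · subst hr1
      show x' (Sum.inr q) + zz (swap (Sum.inr q) q' (Sum.inr q)) < a + 2
      rw [swap_apply_left, hz0, hx1]
      omega
    · by_cases hr2 : r = q'
      · subst hr2
        show x' r + zz (swap (Sum.inr q) r r) < a + 2
        rw [swap_apply_right, hz1]
        rcases r with r | r
        · simp [hzz] at hz0
        · have i1 := hmlt (g r)
          by_contra hcon
          apply hr1
          have : r = q := by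
            apply huniq
            rw [Prod.ext_iff]
            simp only [hx', Sum.elim_inr] at hcon
            exact ⟨by simp only []; omega, by simp only []; omega⟩
          rw [this]
      · show x' r + zz (swap (Sum.inr q) q' r) < a + 2
        rw [swap_apply_of_ne_of_ne hr1 hr2]
        by_contra hcon
        obtain ⟨q'', rfl, hq3, hq4⟩ := hbad r hcon
        exact hr1 (by rw [huniq q'' hq3])

theorem good_step (a : ℕ)
    (ih : ∀ (S : Type) [Fintype S] [DecidableEq S] (ρ γ : S → ℕ),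
      2 * Fintype.card S = a * (a + 1) → Function.Injective (fun p => (ρ p, γ p)) → Good a ρ γ)
    (I : Type) [Fintype I] [DecidableEq I] (ρ γ : I → ℕ)
    (hcard : 2 * Fintype.card I = (a + 2) * (a + 3))
    (hinj : Function.Injective (fun p => (ρ p, γ p))) : Good (a + 2) ρ γ := by
  rcases numeric a ρ γ hinj hcard with h | h
  · exact good_step_col a ih I ρ γ hcard hinj h
  · apply good_symm
    refine good_step_col a ih I γ ρ hcard ?_ h
    intro p q hpq
    apply hinj
    rw [Prod.ext_iff] at hpq ⊢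
    exact ⟨hpq.2, hpq.1⟩

theorem good_base {a : ℕ} (ha : a < 2) (I : Type) [Fintype I] [DecidableEq I] (ρ γ : I → ℕ)
    (hcard : 2 * Fintype.card I = a * (a + 1)) : Good a ρ γ := by
  have hsub : Subsingleton I := by
    rw [← Fintype.card_le_one_iff_subsingleton]
    interval_cases a <;> omega
  have hE : E (fun _ : I => ((0 : ℕ), (0 : ℕ))) (fun _ => 0) (fun _ => 0) = 1 := by
    rw [E_eq_sign (b := fun _ : I => ((0 : ℕ), (0 : ℕ))) (fun p q _ => Subsingleton.elim p q)
      _ _ 1 (fun p => rfl)]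
    simp
  refine ⟨fun _ => (0, 0), ⟨fun p q _ => Subsingleton.elim p q, ?_⟩, fun _ => 0, fun _ => 0,
    fun _ => 0, fun _ => 0, ?_, ?_, ?_⟩
  · intro c
    have hlt : (∃ _ : I, ((0 : ℕ), (0 : ℕ)) = c) ↔ (0 < Fintype.card I ∧ c = (0, 0)) := by
      rw [Fintype.card_pos_iff]
      constructor
      · rintro ⟨p, hp⟩; exact ⟨⟨p⟩, hp.symm⟩
      · rintro ⟨⟨p⟩, hp⟩; exact ⟨p, hp.symm⟩
    rw [hlt, Prod.ext_iff]
    interval_cases a
    · simp only [not_lt_zero, iff_false]
      rintro ⟨h, _⟩
      omega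
    · constructor
      · rintro ⟨_, h1, h2⟩
        simp only at h1 h2
        omega
      · intro h
        exact ⟨by omega, by simp only []; omega, by simp only []; omega⟩
  · intro p
    have : 0 < Fintype.card I := Fintype.card_pos_iff.2 ⟨p⟩
    show 0 + 0 < a
    interval_cases a <;> omega
  · intro p
    have : 0 < Fintype.card I := Fintype.card_pos_iff.2 ⟨p⟩
    show 0 + 0 < a
    interval_cases a <;> omega
  · have hG : G (fun _ : I => ((0 : ℕ), (0 : ℕ))) (fun _ => 0) (fun _ => 0) = 1 := by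
      unfold G
      simp only [hE, mul_one]
      simp
    unfold YS
    simp only [hE, hG, mul_one]
    have h1 : ∀ c r : Perm I, (∀ p, γ (c p) = γ p) ∧ (∀ p, ρ (r p) = ρ p) := by
      intro c r
      exact ⟨fun p => by rw [Subsingleton.elim (c p) p], fun p => by rw [Subsingleton.elim (r p) p]⟩
    simp only [if_pos (h1 _ _)]
    have h2 : ∀ c : Perm I, Perm.sign c = 1 := by
      intro c
      rw [Subsingleton.elim c 1, Perm.sign_one]
    simp [h2]

theorem good_all (a : ℕ) : ∀ (I : Type) [Fintype I] [DecidableEq I] (ρ γ : I → ℕ),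
    2 * Fintype.card I = a * (a + 1) → Function.Injective (fun p => (ρ p, γ p)) →
    Good a ρ γ := by
  induction a using Nat.strong_induction_on with
  | _ a ih =>
    intro I _ _ ρ γ hcard hinj
    by_cases ha : a < 2
    · exact good_base ha I ρ γ hcard
    · obtain ⟨a', rfl⟩ : ∃ a', a = a' + 2 := ⟨a - 2, by omega⟩
      exact good_step a' (fun S _ _ ρ γ h1 h2 => ih a' (by omega) S ρ γ h1 h2) I ρ γ
        (by rw [hcard]) hinj

end Vale.Agent.P197
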