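import Vale.Agent.P197.SpechtDefs

/-!
# P197: from a nonzero Young symmetrizer value to a positive Kronecker coefficient
-/

open scoped TensorProduct

namespace Vale.Agent.P197

/-- The row group of a tableau. -/
def rowGroup {n : ℕ} {ν : YoungDiagram} (t : Tableau n ν) : Finset (Equiv.Perm (Fin n)) :=
  Finset.univ.filter fun c => ∀ p, rowWord t (c p) = rowWord t p

instance (n : ℕ) (ν : YoungDiagram) : Finite (Tableau n ν) := inferInstance

instance specht_finiteDimensional (n : ℕ) (ν : YoungDiagram) :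
    FiniteDimensional ℂ (specht n ν).toSubmodule := by
  change FiniteDimensional ℂ (Submodule.span ℂ (Set.range (polytabloid (n := n) (ν := ν))))
  exact FiniteDimensional.span_of_finite ℂ (Set.finite_range _)

lemma intertwiningMap_finiteDimensional {G V W : Type*} [Group G] [AddCommGroup V] [Module ℂ V]
    [AddCommGroup W] [Module ℂ W] [FiniteDimensional ℂ V] [FiniteDimensional ℂ W]
    (ρ : Representation ℂ G V) (σ : Representation ℂ G W) :
    FiniteDimensional ℂ (Representation.IntertwiningMap ρ σ) := by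
  let L : Representation.IntertwiningMap ρ σ →ₗ[ℂ] (V →ₗ[ℂ] W) :=
    { toFun := fun f => f.toLinearMap
      map_add' := fun f g => rfl
      map_smul' := fun a f => rfl }
  exact FiniteDimensional.of_injective L
    (Representation.IntertwiningMap.toLinearMap_injective ρ σ)

lemma finrank_intertwiningMap_pos {G V W : Type*} [Group G] [AddCommGroup V] [Module ℂ V]
    [AddCommGroup W] [Module ℂ W] [FiniteDimensional ℂ V] [FiniteDimensional ℂ W]
    (ρ : Representation ℂ G V) (σ : Representation ℂ G W)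
    (Φ : Representation.IntertwiningMap ρ σ) (hΦ : Φ ≠ 0) :
    0 < Module.finrank ℂ (Representation.IntertwiningMap ρ σ) := by
  have := intertwiningMap_finiteDimensional ρ σ
  have : Nontrivial (Representation.IntertwiningMap ρ σ) := ⟨⟨Φ, 0, hΦ⟩⟩
  exact Module.finrank_pos

/-- Evaluation at a pair of words. -/
noncomputable def evalPair {n : ℕ} (V W : Submodule ℂ ((Fin n → ℕ) → ℂ)) (x y : Fin n → ℕ) :
    (V ⊗[ℂ] W) →ₗ[ℂ] ℂ :=
  TensorProduct.lift
    (LinearMap.mk₂ ℂ (fun (u : V) (v : W) => u.1 x * v.1 y)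
      (by intro a b c; simp [add_mul]) (by intro a b c; simp [mul_assoc])
      (by intro a b c; simp [mul_add]) (by intro a b c; simp [mul_left_comm]))

lemma evalPair_tmul {n : ℕ} (V W : Submodule ℂ ((Fin n → ℕ) → ℂ)) (x y : Fin n → ℕ)
    (u : V) (v : W) : evalPair V W x y (u ⊗ₜ[ℂ] v) = u.1 x * v.1 y := by
  simp [evalPair]

section

variable {n : ℕ} {V : Type*} [AddCommGroup V] [Module ℂ V]
  (σ : Representation ℂ (Equiv.Perm (Fin n)) V)

/-- `f ↦ ∑_g f (w ∘ g) · σ(g⁻¹) ξ`. -/
noncomputable def wordHom (w : Fin n → ℕ) (ξ : V) : ((Fin n → ℕ) → ℂ) →ₗ[ℂ] V where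
  toFun f := ∑ g : Equiv.Perm (Fin n), f (w ∘ g) • σ g⁻¹ ξ
  map_add' f g := by simp [add_smul, Finset.sum_add_distrib]
  map_smul' a f := by simp [Finset.smul_sum, mul_smul]

lemma wordHom_apply (w : Fin n → ℕ) (ξ : V) (f : (Fin n → ℕ) → ℂ) :
    wordHom σ w ξ f = ∑ g : Equiv.Perm (Fin n), f (w ∘ g) • σ g⁻¹ ξ := rfl

lemma wordHom_equivariant (w : Fin n → ℕ) (ξ : V) (h : Equiv.Perm (Fin n))
    (f : (Fin n → ℕ) → ℂ) :
    wordHom σ w ξ (wordRep n h f) = σ h (wordHom σ w ξ f) := by
  rw [wordHom_apply, wordHom_apply, map_sum]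
  rw [← Equiv.sum_comp (Equiv.mulRight h)
    (fun g : Equiv.Perm (Fin n) => σ h (f (w ∘ g) • σ g⁻¹ ξ))]
  refine Finset.sum_congr rfl fun g _ => ?_
  rw [map_smul]
  have h1 : σ h (σ (Equiv.mulRight h g)⁻¹ ξ) = σ g⁻¹ ξ := by
    rw [← Module.End.mul_apply, ← map_mul]
    congr 2
    simp
  rw [h1]
  rfl

end

theorem kronecker_pos_of_ne_zero {n : ℕ} {lam mu nu : YoungDiagram} (t : Tableau n nu)
    (f₁ f₂ : (Fin n → ℕ) → ℂ) (h₁ : f₁ ∈ specht n lam) (h₂ : f₂ ∈ specht n mu)
    (x y : Fin n → ℕ)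
    (h : ∑ c ∈ colGroup t, ∑ r ∈ rowGroup t,
      ((Equiv.Perm.sign c : ℤ) : ℂ) * (f₁ (x ∘ ⇑(c * r)) * f₂ (y ∘ ⇑(c * r))) ≠ 0) :
    0 < kronecker n lam mu nu := by
  classical
  set σ := (specht n lam).toRepresentation.tprod (specht n mu).toRepresentation with hσ
  set ξ : (specht n lam).toSubmodule ⊗[ℂ] (specht n mu).toSubmodule :=
    (⟨f₁, h₁⟩ : (specht n lam).toSubmodule) ⊗ₜ[ℂ] (⟨f₂, h₂⟩ : (specht n mu).toSubmodule) with hξ
  let Φ : Representation.IntertwiningMap (specht n nu).toRepresentation σ :=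
    { toLinearMap := (wordHom σ (rowWord t) ξ).comp (specht n nu).toSubmodule.subtype
      isIntertwining' := by
        intro g
        ext v
        exact wordHom_equivariant σ (rowWord t) ξ g v.1 }
  have he : polytabloid t ∈ (specht n nu).toSubmodule := Submodule.subset_span ⟨t, rfl⟩
  have hΦ : Φ ≠ 0 := by
    intro h0
    apply h
    have h1 : Φ ⟨polytabloid t, he⟩ = 0 := by rw [h0]; rfl
    have h2 : Φ ⟨polytabloid t, he⟩ = wordHom σ (rowWord t) ξ (polytabloid t) := rfl
    rw [h2, wordHom_apply] at h1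
    have h3 := congrArg (evalPair (specht n lam).toSubmodule (specht n mu).toSubmodule x y) h1
    rw [map_zero, map_sum] at h3
    rw [← h3]
    have h4 : ∀ g : Equiv.Perm (Fin n),
        evalPair (specht n lam).toSubmodule (specht n mu).toSubmodule x y
          (polytabloid t (rowWord t ∘ g) • σ g⁻¹ ξ) =
        ∑ c ∈ colGroup t, if rowWord t ∘ ⇑(g * c) = rowWord t then
          ((Equiv.Perm.sign c : ℤ) : ℂ) * (f₁ (x ∘ ⇑(g⁻¹)) * f₂ (y ∘ ⇑(g⁻¹))) else 0 := by
      intro g
      rw [map_smul, hσ, hξ, Representation.tprod_apply, TensorProduct.map_tmul, evalPair_tmul]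
      change _ • (f₁ (x ∘ ⇑(g⁻¹)) * f₂ (y ∘ ⇑(g⁻¹))) = _
      rw [polytabloid, Finset.sum_apply, Finset.sum_smul]
      refine Finset.sum_congr rfl fun c _ => ?_
      rw [Pi.smul_apply, wordRep_apply, Pi.single_apply]
      by_cases hc : rowWord t ∘ ⇑(g * c) = rowWord t
      · rw [if_pos hc, if_pos (show (rowWord t ∘ ⇑g) ∘ ⇑c = rowWord t from hc)]
        simp [smul_eq_mul]
      · rw [if_neg hc, if_neg (show ¬ (rowWord t ∘ ⇑g) ∘ ⇑c = rowWord t from hc)]
        simp
    refine Eq.trans (Eq.trans ?_ Finset.sum_comm) (Finset.sum_congr rfl fun g _ => h4 g).symm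
    refine Finset.sum_congr rfl fun c _ => ?_
    rw [← Finset.sum_filter]
    refine Finset.sum_nbij' (fun r => r⁻¹ * c⁻¹) (fun g => c⁻¹ * g⁻¹) ?_ ?_ ?_ ?_ ?_
    · intro r hr
      simp only [rowGroup, Finset.mem_filter, Finset.mem_univ, true_and] at hr ⊢
      ext p
      have := hr (r⁻¹ p)
      rw [Equiv.Perm.inv_def, Equiv.apply_symm_apply] at this
      simp only [inv_mul_cancel_right, Function.comp_apply]
      exact this.symm
    · intro g hg
      simp only [rowGroup, Finset.mem_filter, Finset.mem_univ, true_and] at hg ⊢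
      intro p
      have := congrFun hg ((c⁻¹ * g⁻¹) p)
      simp only [Function.comp_apply, Equiv.Perm.mul_apply, Equiv.Perm.inv_def,
        Equiv.apply_symm_apply] at this
      rw [Equiv.Perm.mul_apply]
      exact this.symm
    · intro r _; simp
    · intro g _; simp
    · intro r _
      simp
  exact finrank_intertwiningMap_pos (W := (specht n lam).toSubmodule ⊗[ℂ]
    (specht n mu).toSubmodule) _ σ Φ hΦ

end Vale.Agent.P197
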