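import Vale.Agent.P197.Bridge
import Vale.Agent.P197.Defs

/-! # P197 [FIN]: from `Good` to Kronecker coefficients -/

namespace Vale.Agent.P197

open Equiv Finset

theorem mem_staircase_cells {a : ℕ} {c : ℕ × ℕ} : c ∈ (staircase a).cells ↔ c.1 + c.2 < a := by
  simp only [staircase, Finset.mem_filter, Finset.mem_product, Finset.mem_range]
  omega

theorem E_mem_specht {n a : ℕ} {b : Fin n → ℕ × ℕ} (hb : IsStair a b) (z : Fin n → ℕ) :
    (fun x => ((E b x z : ℚ) : ℂ)) ∈ specht n (staircase a) := by
  by_cases hz : ∀ x, E b x z = 0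
  · have : (fun x => ((E b x z : ℚ) : ℂ)) = 0 := by
      funext x
      rw [hz x]
      simp
    rw [this]
    exact Submodule.zero_mem (specht n (staircase a)).toSubmodule
  · push Not at hz
    obtain ⟨x0, hx0⟩ := hz
    have hg : ∃ g : Perm (Fin n), ∀ p, b (g p) = (x0 p, z p) := by
      by_contra hcon
      push Not at hcon
      apply hx0
      unfold E
      refine Finset.sum_eq_zero fun g _ => ?_
      rw [if_neg]
      obtain ⟨p, hp⟩ := hcon g
      exact fun h => hp (h p)
    obtain ⟨g, hg⟩ := hg
    let s0 : Fin n → (staircase a).cells := fun p =>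
      ⟨(x0 p, z p), mem_staircase_cells.2 ((hb.2 _).1 ⟨g p, hg p⟩)⟩
    have hs0 : Function.Bijective s0 := by
      constructor
      · intro p q hpq
        have h1 : (x0 p, z p) = (x0 q, z q) := congrArg Subtype.val hpq
        rw [← hg p, ← hg q] at h1
        exact g.injective (hb.1 h1)
      · intro c
        obtain ⟨q, hq⟩ := (hb.2 c.1).2 (mem_staircase_cells.1 c.2)
        refine ⟨g.symm q, ?_⟩
        apply Subtype.ext
        change (x0 (g.symm q), z (g.symm q)) = c.1
        rw [← hg, Equiv.apply_symm_apply, hq]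
    let s : Tableau n (staircase a) := Equiv.ofBijective s0 hs0
    have hrow : rowWord s = x0 := rfl
    have hcol : colWord s = z := rfl
    have key : (fun x => ((E b x z : ℚ) : ℂ)) = ((Perm.sign g : ℤ) : ℂ) • polytabloid s := by
      funext x
      rw [Pi.smul_apply, polytabloid, Finset.sum_apply, smul_eq_mul, Finset.mul_sum]
      have hE : E b x z = ∑ h ∈ univ.filter
          (fun h : Perm (Fin n) => ∀ p, b (h p) = (x p, z p)), ((Perm.sign h : ℤ) : ℚ) := by
        rw [Finset.sum_filter]
        unfold E
        refine Finset.sum_congr rfl fun h _ => ?_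
        congr
      rw [hE]
      push_cast
      have : ∀ c ∈ colGroup s, ((Perm.sign g : ℤ) : ℂ) *
          ((((Perm.sign c : ℤ) : ℂ) • wordRep n c (Pi.single (rowWord s) 1)) x) =
          if x ∘ ⇑c = x0 then ((Perm.sign g : ℤ) : ℂ) * ((Perm.sign c : ℤ) : ℂ) else 0 := by
        intro c _
        rw [Pi.smul_apply, wordRep_apply, Pi.single_apply, hrow]
        by_cases h : x ∘ ⇑c = x0
        · simp [h]
        · simp [h]
      rw [Finset.sum_congr rfl this, ← Finset.sum_filter]
      refine Finset.sum_nbij' (fun h => h⁻¹ * g) (fun c => g * c⁻¹) ?_ ?_ ?_ ?_ ?_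
      · intro h hh
        simp only [Finset.mem_filter, Finset.mem_univ, true_and, colGroup] at hh ⊢
        have h2 : ∀ p, (x ((h⁻¹ * g) p), z ((h⁻¹ * g) p)) = (x0 p, z p) := by
          intro p
          rw [← hh, ← hg]
          simp [Perm.mul_apply, Perm.inv_def]
        constructor
        · intro p
          rw [hcol]
          exact congrArg Prod.snd (h2 p)
        · funext p
          exact congrArg Prod.fst (h2 p)
      · intro c hc
        simp only [Finset.mem_filter, Finset.mem_univ, true_and, colGroup] at hc ⊢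
        intro p
        rw [Perm.mul_apply, hg]
        have h1 := hc.1 (c⁻¹ p)
        have h2 := congrFun hc.2 (c⁻¹ p)
        rw [hcol, Perm.inv_def, Equiv.apply_symm_apply] at h1
        rw [Function.comp_apply, Perm.inv_def, Equiv.apply_symm_apply] at h2
        rw [Perm.inv_def, h2, ← h1]
      · intro h _; simp
      · intro c _; simp
      · intro h _
        have h5 : ((Perm.sign g : ℤ) : ℂ) * ((Perm.sign g : ℤ) : ℂ) = 1 := by
          rw [← Int.cast_mul]
          rw [← Units.val_mul, Int.units_mul_self]
          simp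
        rw [Perm.sign_mul, Perm.sign_inv, Units.val_mul, Int.cast_mul]
        linear_combination (-((Perm.sign h : ℤ) : ℂ)) * h5
    rw [key]
    exact Submodule.smul_mem (specht n (staircase a)).toSubmodule _
      (Submodule.subset_span ⟨s, rfl⟩)

theorem G_mem_specht {n a : ℕ} {b : Fin n → ℕ × ℕ} (hb : IsStair a b) (x' : Fin n → ℕ) :
    (fun x => ((G b x x' : ℚ) : ℂ)) ∈ specht n (staircase a) := by
  have : (fun x => ((G b x x' : ℚ) : ℂ)) =
      ∑ g : Perm (Fin n), ((E b x' (fun p => (b (g p)).2) : ℚ) : ℂ) •
        (fun x => ((E b x (fun p => (b (g p)).2) : ℚ) : ℂ)) := by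
    funext x
    rw [Finset.sum_apply]
    unfold G
    push_cast
    refine Finset.sum_congr rfl fun g _ => ?_
    rw [Pi.smul_apply, smul_eq_mul, mul_comm]
  rw [this]
  exact Submodule.sum_mem (specht n (staircase a)).toSubmodule fun g _ =>
    Submodule.smul_mem (specht n (staircase a)).toSubmodule _ (E_mem_specht hb _)

theorem kronecker_pos_of_good {n a : ℕ} {nu : YoungDiagram} (t : Tableau n nu)
    (h : Good a (rowWord t) (colWord t)) : 0 < kronecker n (staircase a) (staircase a) nu := by
  obtain ⟨b, hb, x, y, x', z, _, _, hne⟩ := h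
  refine kronecker_pos_of_ne_zero t _ _ (G_mem_specht hb x') (E_mem_specht hb z) x y ?_
  intro h0
  apply hne
  have h1 : ((YS (rowWord t) (colWord t) (fun u v => G b u x' * E b v z) x y : ℚ) : ℂ) = 0 := by
    rw [← h0]
    unfold YS
    push_cast
    rw [colGroup, Finset.sum_filter]
    refine Finset.sum_congr rfl fun c _ => ?_
    by_cases hc : ∀ p, colWord t (c p) = colWord t p
    · rw [if_pos hc, rowGroup, Finset.sum_filter]
      refine Finset.sum_congr rfl fun r _ => ?_
      by_cases hr : ∀ p, rowWord t (r p) = rowWord t p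
      · rw [if_pos ⟨hc, hr⟩, if_pos hr]
        push_cast
        rfl
      · rw [if_neg (fun h => hr h.2), if_neg hr, Rat.cast_zero]
    · rw [if_neg hc]
      refine Finset.sum_eq_zero fun r _ => ?_
      rw [if_neg (fun h => hc h.1), Rat.cast_zero]
  exact_mod_cast h1

/-- Saxl's conjecture from `good_all`. -/
theorem saxl_of_good
    (good_all : ∀ (a : ℕ) (I : Type) [Fintype I] [DecidableEq I] (ρ γ : I → ℕ),
      2 * Fintype.card I = a * (a + 1) → Function.Injective (fun p => (ρ p, γ p)) → Good a ρ γ)
    (m : ℕ) (nu : YoungDiagram) (h : nu.card = m * (m + 1) / 2) :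
    0 < kronecker (m * (m + 1) / 2) (staircase m) (staircase m) nu := by
  have hc : Fintype.card nu.cells = m * (m + 1) / 2 := by
    rw [Fintype.card_coe]; exact h
  let t : Tableau (m * (m + 1) / 2) nu := (Fintype.equivFinOfCardEq hc).symm
  refine kronecker_pos_of_good t (good_all m (Fin (m * (m + 1) / 2)) _ _ ?_ ?_)
  · rw [Fintype.card_fin]
    exact Nat.mul_div_cancel' (Nat.even_mul_succ_self m).two_dvd
  · intro p q hpq
    simp only [Prod.mk.injEq] at hpq
    apply t.injective
    apply Subtype.ext
    exact Prod.ext hpq.1 hpq.2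

end Vale.Agent.P197
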