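import Vale.Agent.P197.Bridge
import Vale.Agent.P197.Weight

/-! # P197: Specht modules are irreducible and pairwise non-isomorphic -/

namespace Vale.Agent.P197

open Equiv Finset

variable {n : ℕ} {ν μ : YoungDiagram}

/-- A word of the right weight which is injective on the columns of a tableau is obtained from the
row word by a column permutation. -/
theorem exists_colGroup (t : Tableau n ν) (x : Fin n → ℕ)
    (hsum : ∑ p, x p = ∑ p, rowWord t p)
    (hinj : ∀ p q, colWord t p = colWord t q → x p = x q → p = q) :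
    ∃ c ∈ colGroup t, x ∘ ⇑c = rowWord t := by
  classical
  -- the cell set of `(x, colWord t)` equals the Young diagram
  have hinj' : Function.Injective (fun p => (x p, colWord t p)) := by
    intro p q hpq
    simp only [Prod.mk.injEq] at hpq
    exact hinj p q hpq.2 hpq.1
  have hinjt : Function.Injective (fun p => ((rowWord t p, colWord t p) : ℕ × ℕ)) := by
    intro p q hpq
    simp only [Prod.mk.injEq] at hpq
    apply t.injective
    apply Subtype.ext
    exact Prod.ext hpq.1 hpq.2
  have himt : univ.image (fun p => ((rowWord t p, colWord t p) : ℕ × ℕ)) = ν.cells := by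
    ext c
    simp only [Finset.mem_image, Finset.mem_univ, true_and]
    constructor
    · rintro ⟨p, rfl⟩
      exact (t p).2
    · intro hc
      exact ⟨t.symm ⟨c, hc⟩, by simp [rowWord, colWord]⟩
  have hset : univ.image (fun p => (x p, colWord t p)) = ν.cells := by
    refine eq_of_sum_eq _ _ (fun c => (c.1 : ℤ) - ν.colLen c.2) 0 ?_ ?_ ?_ ?_
    · rw [← himt, Finset.card_image_of_injective _ hinj', Finset.card_image_of_injective _ hinjt]
    · rintro ⟨i, j⟩ hc
      have := (YoungDiagram.mem_iff_lt_colLen (μ := ν)).1 hc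
      simp only
      omega
    · rintro ⟨i, j⟩ hc
      have : ¬ i < ν.colLen j := fun h =>
        hc ((YoungDiagram.mem_iff_lt_colLen (μ := ν)).2 h)
      simp only
      omega
    · rw [← himt, Finset.sum_image (fun p _ q _ h => hinj' h),
        Finset.sum_image (fun p _ q _ h => hinjt h)]
      simp only [Finset.sum_sub_distrib]
      have : ∑ p, (x p : ℤ) = ∑ p, (rowWord t p : ℤ) := by exact_mod_cast hsum
      rw [this]
  let s0 : Fin n → ν.cells := fun p => ⟨(x p, colWord t p), by
    rw [← hset]; exact Finset.mem_image_of_mem _ (Finset.mem_univ p)⟩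
  have hs0 : Function.Bijective s0 := by
    constructor
    · intro p q hpq
      exact hinj' (congrArg Subtype.val hpq)
    · rintro ⟨c, hc⟩
      rw [← hset] at hc
      obtain ⟨p, _, hp⟩ := Finset.mem_image.1 hc
      exact ⟨p, Subtype.ext hp⟩
  let s : Tableau n ν := Equiv.ofBijective s0 hs0
  refine ⟨t.trans s.symm, ?_, ?_⟩
  · simp only [colGroup, Finset.mem_filter, Finset.mem_univ, true_and]
    intro p
    have h1 : s (s.symm (t p)) = t p := s.apply_symm_apply _
    have h2 := congrArg (fun c : ν.cells => c.1.2) h1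
    exact h2
  · funext p
    have h1 : s (s.symm (t p)) = t p := s.apply_symm_apply _
    exact congrArg (fun c : ν.cells => c.1.1) h1

/-- The value of a polytabloid at a word. -/
theorem polytabloid_apply (t : Tableau n ν) (x : Fin n → ℕ) :
    polytabloid t x = ∑ c ∈ colGroup t, if x ∘ ⇑c = rowWord t then
      ((Perm.sign c : ℤ) : ℂ) else 0 := by
  rw [polytabloid, Finset.sum_apply]
  refine Finset.sum_congr rfl fun c _ => ?_
  rw [Pi.smul_apply, wordRep_apply, Pi.single_apply]
  split_ifs <;> simp

/-- Functions in a Specht module are supported on words that are row words of tableaux. -/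
theorem support_specht {f : (Fin n → ℕ) → ℂ} (hf : f ∈ (specht n μ).toSubmodule)
    {x : Fin n → ℕ} (hx : f x ≠ 0) : ∃ s : Tableau n μ, rowWord s = x := by
  change f ∈ Submodule.span ℂ (Set.range (polytabloid (n := n) (ν := μ))) at hf
  by_contra hcon
  push Not at hcon
  apply hx
  clear hx
  induction hf using Submodule.span_induction with
  | mem f hf =>
    obtain ⟨t, rfl⟩ := hf
    rw [polytabloid_apply]
    refine Finset.sum_eq_zero fun c _ => if_neg fun h => ?_
    apply hcon (c.symm.trans t)
    funext p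
    have := congrFun h (c.symm p)
    simp only [Function.comp_apply, Equiv.apply_symm_apply] at this
    rw [this]
    rfl
  | zero => rfl
  | add f g _ _ hf hg => rw [Pi.add_apply, hf, hg, add_zero]
  | smul a f _ hf => rw [Pi.smul_apply, hf, smul_zero]

theorem rowWord_sum (t : Tableau n ν) (F : ℕ → ℕ) :
    ∑ p, F (rowWord t p) = ∑ c ∈ ν.cells, F c.1 := by
  rw [← Finset.sum_coe_sort ν.cells (fun c => F c.1)]
  exact Equiv.sum_comp t (fun c : ν.cells => F c.1.1)

/-- The signed column sum of a function. -/
noncomputable def colSum (t : Tableau n ν) (f : (Fin n → ℕ) → ℂ) : (Fin n → ℕ) → ℂ :=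
  ∑ c ∈ colGroup t, ((Perm.sign c : ℤ) : ℂ) • wordRep n c f

theorem colSum_apply (t : Tableau n ν) (f : (Fin n → ℕ) → ℂ) (x : Fin n → ℕ) :
    colSum t f x = ∑ c ∈ colGroup t, ((Perm.sign c : ℤ) : ℂ) * f (x ∘ ⇑c) := by
  rw [colSum, Finset.sum_apply]
  rfl

theorem one_mem_colGroup (t : Tableau n ν) : (1 : Perm (Fin n)) ∈ colGroup t := by
  simp [colGroup]

theorem mul_mem_colGroup {t : Tableau n ν} {c d : Perm (Fin n)} (hc : c ∈ colGroup t)
    (hd : d ∈ colGroup t) : c * d ∈ colGroup t := by
  simp only [colGroup, Finset.mem_filter, Finset.mem_univ, true_and] at *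
  intro p
  rw [Perm.mul_apply, hc, hd]

theorem inv_mem_colGroup {t : Tableau n ν} {c : Perm (Fin n)} (hc : c ∈ colGroup t) :
    c⁻¹ ∈ colGroup t := by
  simp only [colGroup, Finset.mem_filter, Finset.mem_univ, true_and] at *
  intro p
  rw [← hc (c⁻¹ p)]
  simp [Perm.inv_def]

/-- Column sums are alternating under the column group. -/
theorem colSum_comp (t : Tableau n ν) (f : (Fin n → ℕ) → ℂ) (x : Fin n → ℕ)
    {d : Perm (Fin n)} (hd : d ∈ colGroup t) :
    colSum t f (x ∘ ⇑d) = ((Perm.sign d : ℤ) : ℂ) * colSum t f x := by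
  rw [colSum_apply, colSum_apply, Finset.mul_sum]
  refine Finset.sum_nbij' (fun c => d * c) (fun c => d⁻¹ * c) ?_ ?_ ?_ ?_ ?_
  · intro c hc; exact mul_mem_colGroup hd hc
  · intro c hc; exact mul_mem_colGroup (inv_mem_colGroup hd) hc
  · intro c _; simp
  · intro c _; simp
  · intro c _
    rw [Perm.sign_mul, Units.val_mul, Int.cast_mul]
    have h5 : ((Perm.sign d : ℤ) : ℂ) * ((Perm.sign d : ℤ) : ℂ) = 1 := by
      rw [← Int.cast_mul, ← Units.val_mul, Int.units_mul_self]
      simp
    have h6 : x ∘ ⇑(d * c) = (x ∘ ⇑d) ∘ ⇑c := rfl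
    rw [h6]
    linear_combination (-(((Perm.sign c : ℤ) : ℂ) * f ((x ∘ ⇑d) ∘ ⇑c))) * h5

theorem swap_mem_colGroup {t : Tableau n ν} {p q : Fin n} (h : colWord t p = colWord t q) :
    swap p q ∈ colGroup t := by
  simp only [colGroup, Finset.mem_filter, Finset.mem_univ, true_and]
  intro r
  by_cases h1 : r = p
  · subst h1; rw [swap_apply_left, h]
  · by_cases h2 : r = q
    · subst h2; rw [swap_apply_right, h]
    · rw [swap_apply_of_ne_of_ne h1 h2]

/-- If a column sum does not vanish at `x` then `x` is injective on columns. -/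
theorem inj_of_colSum_ne_zero {t : Tableau n ν} {f : (Fin n → ℕ) → ℂ} {x : Fin n → ℕ}
    (h : colSum t f x ≠ 0) (p q : Fin n) (hpq : colWord t p = colWord t q)
    (hx : x p = x q) : p = q := by
  by_contra hne
  apply h
  have h1 := colSum_comp t f x (swap_mem_colGroup hpq)
  have h2 : x ∘ ⇑(swap p q) = x := by
    funext r
    simp only [Function.comp_apply]
    by_cases h1 : r = p
    · subst h1; rw [swap_apply_left, hx]
    · by_cases h2 : r = q
      · subst h2; rw [swap_apply_right, hx]
      · rw [swap_apply_of_ne_of_ne h1 h2]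
  rw [h2, Perm.sign_swap hne] at h1
  simp only [Units.val_neg, Units.val_one, Int.cast_neg, Int.cast_one, neg_mul, one_mul] at h1
  linear_combination h1 / 2

theorem polytabloid_eq_colSum (t : Tableau n ν) :
    polytabloid t = colSum t (Pi.single (rowWord t) 1) := rfl

theorem polytabloid_self (t : Tableau n ν) : polytabloid t (rowWord t) = 1 := by
  rw [polytabloid_apply, Finset.sum_eq_single 1]
  · simp
  · intro c hc hne
    refine if_neg fun h => hne ?_
    ext p
    simp only [colGroup, Finset.mem_filter, Finset.mem_univ, true_and] at hc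
    have h1 : t (c p) = t p := Subtype.ext (Prod.ext (congrFun h p) (hc p))
    rw [t.injective h1]
    rfl
  · intro h; exact absurd (one_mem_colGroup t) h

theorem polytabloid_ne_zero (t : Tableau n ν) : polytabloid t ≠ 0 := by
  intro h
  have := polytabloid_self t
  rw [h] at this
  simp at this

theorem rowWord_comp (t : Tableau n ν) (c : Perm (Fin n)) :
    rowWord t ∘ ⇑c = rowWord (c.trans t : Tableau n ν) := rfl

/-- James: the column sum of an element of the Specht module is a multiple of the polytabloid. -/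
theorem colSum_eq (t : Tableau n ν) {f : (Fin n → ℕ) → ℂ} (hf : f ∈ (specht n ν).toSubmodule) :
    colSum t f = colSum t f (rowWord t) • polytabloid t := by
  funext x
  rw [Pi.smul_apply, smul_eq_mul]
  by_cases hc : ∃ c ∈ colGroup t, x ∘ ⇑c = rowWord t
  · obtain ⟨c, hc, hx⟩ := hc
    have h5 : ((Perm.sign c : ℤ) : ℂ) * ((Perm.sign c : ℤ) : ℂ) = 1 := by
      rw [← Int.cast_mul, ← Units.val_mul, Int.units_mul_self]
      simp
    have h1 := colSum_comp t f x hc
    have h2 := colSum_comp t (Pi.single (rowWord t) 1) x hc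
    rw [← polytabloid_eq_colSum, hx, polytabloid_self] at h2
    rw [hx] at h1
    rw [h1]
    linear_combination (colSum t f x) * h2
  · have h1 : polytabloid t x = 0 := by
      rw [polytabloid_apply]
      exact Finset.sum_eq_zero fun c hc' => if_neg fun h => hc ⟨c, hc', h⟩
    rw [h1, mul_zero]
    by_contra hne
    apply hc
    refine exists_colGroup t x ?_ (inj_of_colSum_ne_zero hne)
    rw [colSum_apply] at hne
    obtain ⟨c, _, hc2⟩ := Finset.exists_ne_zero_of_sum_ne_zero hne
    obtain ⟨s, hs⟩ := support_specht hf (right_ne_zero_of_mul hc2)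
    have h3 := rowWord_sum t id
    have h4 := rowWord_sum s id
    simp only [id] at h3 h4
    rw [h3, ← h4, hs]
    exact (Equiv.sum_comp c x).symm

/-- Specht modules are stable under complex conjugation. -/
theorem conj_mem {f : (Fin n → ℕ) → ℂ} (hf : f ∈ (specht n ν).toSubmodule) :
    (fun x => (starRingEnd ℂ) (f x)) ∈ (specht n ν).toSubmodule := by
  change f ∈ Submodule.span ℂ (Set.range (polytabloid (n := n) (ν := ν))) at hf
  induction hf using Submodule.span_induction with
  | mem f hf =>
    obtain ⟨t, rfl⟩ := hf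
    have : (fun x => (starRingEnd ℂ) (polytabloid t x)) = polytabloid t := by
      funext x
      rw [polytabloid_apply, map_sum]
      refine Finset.sum_congr rfl fun c _ => ?_
      split_ifs <;> simp
    rw [this]
    exact Submodule.subset_span ⟨t, rfl⟩
  | zero =>
    have : (fun x : Fin n → ℕ => (starRingEnd ℂ) ((0 : (Fin n → ℕ) → ℂ) x)) = 0 := by
      funext x; simp
    rw [this]
    exact Submodule.zero_mem _
  | add f g _ _ hf hg =>
    have : (fun x => (starRingEnd ℂ) ((f + g) x)) =
        (fun x => (starRingEnd ℂ) (f x)) + (fun x => (starRingEnd ℂ) (g x)) := by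
      funext x; simp
    rw [this]
    exact Submodule.add_mem _ hf hg
  | smul a f _ hf =>
    have : (fun x => (starRingEnd ℂ) ((a • f) x)) =
        (starRingEnd ℂ a) • (fun x => (starRingEnd ℂ) (f x)) := by
      funext x; simp
    rw [this]
    exact Submodule.smul_mem _ _ hf

/-- The invariant form (sum over the group). -/
theorem form_polytabloid (t t₀ : Tableau n ν) {u : (Fin n → ℕ) → ℂ}
    (h : colSum t u (rowWord t) = 0) :
    ∑ g : Perm (Fin n), u (rowWord t₀ ∘ ⇑g) * polytabloid t (rowWord t₀ ∘ ⇑g) = 0 := by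
  have h1 : ∀ g : Perm (Fin n), u (rowWord t₀ ∘ ⇑g) * polytabloid t (rowWord t₀ ∘ ⇑g) =
      ∑ c ∈ colGroup t, if rowWord t₀ ∘ ⇑(g * c) = rowWord t then
        ((Perm.sign c : ℤ) : ℂ) * u (rowWord t ∘ ⇑(c⁻¹)) else 0 := by
    intro g
    rw [polytabloid_apply, Finset.mul_sum]
    refine Finset.sum_congr rfl fun c _ => ?_
    by_cases hc : rowWord t₀ ∘ ⇑(g * c) = rowWord t
    · rw [if_pos hc, if_pos (show (rowWord t₀ ∘ ⇑g) ∘ ⇑c = rowWord t from hc), ← hc]
      have : (rowWord t₀ ∘ ⇑(g * c)) ∘ ⇑c⁻¹ = rowWord t₀ ∘ ⇑g := by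
        funext p; simp [Perm.inv_def]
      rw [this, mul_comm]
    · rw [if_neg hc, if_neg (show ¬ (rowWord t₀ ∘ ⇑g) ∘ ⇑c = rowWord t from hc), mul_zero]
  rw [Finset.sum_congr rfl fun g _ => h1 g, Finset.sum_comm]
  have h2 : ∀ c ∈ colGroup t, (∑ g : Perm (Fin n), if rowWord t₀ ∘ ⇑(g * c) = rowWord t then
        ((Perm.sign c : ℤ) : ℂ) * u (rowWord t ∘ ⇑(c⁻¹)) else 0) =
      (∑ g : Perm (Fin n), if rowWord t₀ ∘ ⇑g = rowWord t then (1 : ℂ) else 0) *
        (((Perm.sign c : ℤ) : ℂ) * u (rowWord t ∘ ⇑(c⁻¹))) := by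
    intro c _
    rw [Finset.sum_mul]
    refine Fintype.sum_equiv (Equiv.mulRight c) _ _ fun g => ?_
    change _ = (if rowWord t₀ ∘ ⇑(g * c) = rowWord t then (1 : ℂ) else 0) * _
    by_cases hg : rowWord t₀ ∘ ⇑(g * c) = rowWord t
    · rw [if_pos hg, if_pos hg, one_mul]
    · rw [if_neg hg, if_neg hg, zero_mul]
  rw [Finset.sum_congr rfl h2, ← Finset.mul_sum]
  have h3 : ∑ c ∈ colGroup t, ((Perm.sign c : ℤ) : ℂ) * u (rowWord t ∘ ⇑(c⁻¹)) =
      colSum t u (rowWord t) := by
    rw [colSum_apply]
    refine Finset.sum_nbij' (fun c => c⁻¹) (fun c => c⁻¹) ?_ ?_ ?_ ?_ ?_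
    · intro c hc; exact inv_mem_colGroup hc
    · intro c hc; exact inv_mem_colGroup hc
    · intro c _; simp
    · intro c _; simp
    · intro c _; simp
  rw [h3, h, mul_zero]

/-- Nondegeneracy. -/
theorem eq_zero_of_colSum {u : (Fin n → ℕ) → ℂ} (hu : u ∈ (specht n ν).toSubmodule)
    (h : ∀ t : Tableau n ν, colSum t u (rowWord t) = 0) : u = 0 := by
  funext x
  by_contra hx
  obtain ⟨t₀, ht₀⟩ := support_specht hu hx
  have h1 : ∀ f ∈ (specht n ν).toSubmodule,
      ∑ g : Perm (Fin n), u (rowWord t₀ ∘ ⇑g) * f (rowWord t₀ ∘ ⇑g) = 0 := by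
    intro f hf
    change f ∈ Submodule.span ℂ (Set.range (polytabloid (n := n) (ν := ν))) at hf
    induction hf using Submodule.span_induction with
    | mem f hf =>
      obtain ⟨t, rfl⟩ := hf
      exact form_polytabloid t t₀ (h t)
    | zero => simp
    | add f g _ _ hf hg =>
      simp only [Pi.add_apply, mul_add, Finset.sum_add_distrib, hf, hg, add_zero]
    | smul a f _ hf =>
      simp only [Pi.smul_apply, smul_eq_mul, mul_left_comm _ a, ← Finset.mul_sum, hf, mul_zero]
  have h2 := h1 _ (conj_mem hu)
  have h3 : ∑ g : Perm (Fin n), Complex.normSq (u (rowWord t₀ ∘ ⇑g)) = 0 := by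
    have h4 : ((∑ g : Perm (Fin n), Complex.normSq (u (rowWord t₀ ∘ ⇑g)) : ℝ) : ℂ) = 0 := by
      rw [← h2]
      push_cast
      refine Finset.sum_congr rfl fun g _ => ?_
      rw [Complex.mul_conj]
    exact_mod_cast h4
  have h5 := (Finset.sum_eq_zero_iff_of_nonneg (fun g _ => Complex.normSq_nonneg _)).1 h3 1
    (Finset.mem_univ _)
  rw [Complex.normSq_eq_zero] at h5
  apply hx
  rw [← ht₀]
  exact h5

/-- A tableau exists when the shape has `n` cells. -/
theorem nonempty_tableau (h : ν.card = n) : Nonempty (Tableau n ν) := by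
  have hc : Fintype.card ν.cells = n := by rw [Fintype.card_coe]; exact h
  exact ⟨(Fintype.equivFinOfCardEq hc).symm⟩

/-- The Specht modules of partitions of `n` are irreducible. -/
theorem specht_irreducible (n : ℕ) (ν : YoungDiagram) (h : ν.card = n) :
    (specht n ν).toRepresentation.IsIrreducible := by
  obtain ⟨t₀⟩ := nonempty_tableau h
  have hmem : ∀ t : Tableau n ν, polytabloid t ∈ (specht n ν).toSubmodule :=
    fun t => Submodule.subset_span ⟨t, rfl⟩
  have hnt : Nontrivial (Subrepresentation (specht n ν).toRepresentation) := by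
    refine ⟨⟨⊥, ⊤, fun heq => ?_⟩⟩
    have h1 : (⟨polytabloid t₀, hmem t₀⟩ : (specht n ν).toSubmodule) ∈
        (⊤ : Subrepresentation (specht n ν).toRepresentation) := Submodule.mem_top
    rw [← heq] at h1
    have h2 : (⟨polytabloid t₀, hmem t₀⟩ : (specht n ν).toSubmodule) = 0 := h1
    exact polytabloid_ne_zero t₀ (congrArg Subtype.val h2)
  refine { hnt with eq_bot_or_eq_top := fun U => ?_ }
  by_cases hU : ∃ u ∈ U, ∃ t : Tableau n ν, colSum t u.1 (rowWord t) ≠ 0
  · right
    obtain ⟨u, hu, t, ht⟩ := hU
    have h1 : (⟨polytabloid t, hmem t⟩ : (specht n ν).toSubmodule) ∈ U := by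
      have h2 : (⟨polytabloid t, hmem t⟩ : (specht n ν).toSubmodule) =
          (colSum t u.1 (rowWord t))⁻¹ • ∑ c ∈ colGroup t,
            ((Perm.sign c : ℤ) : ℂ) • (specht n ν).toRepresentation c u := by
        apply Subtype.ext
        have h3 : (((colSum t u.1 (rowWord t))⁻¹ • ∑ c ∈ colGroup t,
            ((Perm.sign c : ℤ) : ℂ) • (specht n ν).toRepresentation c u :
              (specht n ν).toSubmodule) : (Fin n → ℕ) → ℂ) =
            (colSum t u.1 (rowWord t))⁻¹ • colSum t u.1 := by
          rw [Submodule.coe_smul, Submodule.coe_sum]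
          rfl
        rw [h3, colSum_eq t u.2, smul_smul]
        have h4 : (colSum t u.1 (rowWord t) • polytabloid t) (rowWord t) =
            colSum t u.1 (rowWord t) := by
          rw [Pi.smul_apply, polytabloid_self, smul_eq_mul, mul_one]
        rw [h4, inv_mul_cancel₀ ht, one_smul]
      rw [h2]
      refine Submodule.smul_mem U.toSubmodule _ (Submodule.sum_mem U.toSubmodule fun c _ =>
        Submodule.smul_mem U.toSubmodule _ (U.apply_mem_toSubmodule c hu))
    have h5 : ∀ t' : Tableau n ν, (⟨polytabloid t', hmem t'⟩ : (specht n ν).toSubmodule) ∈ U := by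
      intro t'
      have h6 : (⟨polytabloid t', hmem t'⟩ : (specht n ν).toSubmodule) =
          (specht n ν).toRepresentation (t.trans t'.symm) ⟨polytabloid t, hmem t⟩ := by
        apply Subtype.ext
        change polytabloid t' = wordRep n (t.trans t'.symm) (polytabloid t)
        rw [wordRep_polytabloid]
        congr 1
        ext p : 1
        simp
      rw [h6]
      exact U.apply_mem_toSubmodule _ h1
    refine eq_top_iff.2 fun v _ => ?_
    obtain ⟨v, hv⟩ := v
    change (⟨v, hv⟩ : (specht n ν).toSubmodule) ∈ U.toSubmodule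
    have h7 : v ∈ U.toSubmodule.map (specht n ν).toSubmodule.subtype := by
      have h8 : (specht n ν).toSubmodule ≤ U.toSubmodule.map (specht n ν).toSubmodule.subtype := by
        change Submodule.span ℂ (Set.range (polytabloid (n := n) (ν := ν))) ≤ _
        rw [Submodule.span_le]
        rintro _ ⟨t', rfl⟩
        exact ⟨_, h5 t', rfl⟩
      exact h8 hv
    obtain ⟨w, hw, hwv⟩ := h7
    have : w = ⟨v, hv⟩ := Subtype.ext hwv
    rw [← this]
    exact hw
  · left
    push Not at hU
    refine eq_bot_iff.2 fun v hv => ?_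
    have : v = 0 := Subtype.ext (eq_zero_of_colSum v.2 (hU v hv))
    rw [this]
    exact Submodule.zero_mem _

/-- Number of cells in the first `i` rows. -/
theorem card_rows (t : Tableau n ν) (i : ℕ) :
    (univ.filter (fun p => rowWord t p < i)).card =
      (ν.cells.filter (fun c => c.1 < i)).card := by
  rw [Finset.card_filter, Finset.card_filter]
  exact rowWord_sum t (fun k => if k < i then 1 else 0)

/-- Dominance: a word injective on the columns of `t` has at most as many small letters as the
row word of `t`. -/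
theorem card_lt_le (t : Tableau n ν) (x : Fin n → ℕ)
    (hinj : ∀ p q, colWord t p = colWord t q → x p = x q → p = q) (i : ℕ) :
    (univ.filter (fun p => x p < i)).card ≤ (univ.filter (fun p => rowWord t p < i)).card := by
  rw [Finset.card_eq_sum_card_fiberwise (f := colWord t) (t := univ.image (colWord t))
    (fun p _ => by simp),
    Finset.card_eq_sum_card_fiberwise (f := colWord t) (s := univ.filter (fun p => rowWord t p < i))
    (t := univ.image (colWord t)) (fun p _ => by simp)]
  refine Finset.sum_le_sum fun j _ => ?_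
  by_cases h : i ≤ ν.colLen j
  · have h1 : ((univ.filter (fun p => x p < i)).filter (fun p => colWord t p = j)).card ≤ i := by
      rw [← Finset.card_range i]
      refine Finset.card_le_card_of_injOn x ?_ ?_
      · intro p hp
        simp only [Finset.coe_filter, Finset.mem_filter, Finset.mem_univ, true_and,
          Set.mem_ofPred_eq] at hp
        simpa using hp.1
      · intro p hp q hq hpq
        simp only [Finset.coe_filter, Finset.mem_filter, Finset.mem_univ, true_and,
          Set.mem_ofPred_eq] at hp hq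
        exact hinj p q (by rw [hp.2, hq.2]) hpq
    have h2 : i ≤ ((univ.filter (fun p => rowWord t p < i)).filter
        (fun p => colWord t p = j)).card := by
      have hmem : ∀ k ∈ Finset.range i, (k, j) ∈ ν.cells := by
        intro k hk
        rw [Finset.mem_range] at hk
        exact (YoungDiagram.mem_iff_lt_colLen (μ := ν)).2 (by omega)
      have h3 := Finset.card_le_card_of_injOn (s := (Finset.range i).attach)
        (t := (univ.filter (fun p => rowWord t p < i)).filter (fun p => colWord t p = j))
        (fun k => t.symm ⟨(k.1, j), hmem k.1 k.2⟩) (by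
          intro k _
          have := k.2
          rw [Finset.mem_range] at this
          rw [Finset.mem_coe, Finset.mem_filter, Finset.mem_filter]
          refine ⟨⟨Finset.mem_univ _, ?_⟩, ?_⟩
          · change ((t (t.symm ⟨(k.1, j), hmem k.1 k.2⟩)).1).1 < i
            rw [Equiv.apply_symm_apply]
            exact this
          · change ((t (t.symm ⟨(k.1, j), hmem k.1 k.2⟩)).1).2 = j
            rw [Equiv.apply_symm_apply]) (by
          intro k _ l _ hkl
          have h4 := t.symm.injective hkl
          have h5 := congrArg (fun c : ν.cells => c.1.1) h4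
          exact Subtype.ext h5)
      rwa [Finset.card_attach, Finset.card_range] at h3
    exact h1.trans h2
  · refine Finset.card_le_card fun p hp => ?_
    simp only [Finset.mem_filter, Finset.mem_univ, true_and] at hp ⊢
    refine ⟨?_, hp.2⟩
    have h1 : (rowWord t p, colWord t p) ∈ ν := (t p).2
    have h2 := YoungDiagram.mem_iff_lt_colLen.1 h1
    rw [hp.2] at h2
    omega

theorem colSum_polytabloid (t : Tableau n ν) :
    colSum t (polytabloid t) = ((colGroup t).card : ℂ) • polytabloid t := by
  have hmem : polytabloid t ∈ (specht n ν).toSubmodule := Submodule.subset_span ⟨t, rfl⟩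
  rw [colSum_eq t hmem]
  congr 1
  rw [colSum_apply, Finset.sum_congr rfl (g := fun _ => (1 : ℂ))]
  · simp
  · intro c hc
    have h1 := colSum_comp t (Pi.single (rowWord t) 1) (rowWord t) hc
    rw [← polytabloid_eq_colSum, polytabloid_self] at h1
    rw [h1, mul_one, ← Int.cast_mul, ← Units.val_mul, Int.units_mul_self]
    simp

theorem hom_dominance
    (Φ : Representation.IntertwiningMap (specht n ν).toRepresentation
      (specht n μ).toRepresentation) (hΦ : Φ ≠ 0) (i : ℕ) :
    (μ.cells.filter (fun c => c.1 < i)).card ≤ (ν.cells.filter (fun c => c.1 < i)).card := by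
  have hmem : ∀ t : Tableau n ν, polytabloid t ∈ (specht n ν).toSubmodule :=
    fun t => Submodule.subset_span ⟨t, rfl⟩
  obtain ⟨t, ht⟩ : ∃ t : Tableau n ν, Φ ⟨polytabloid t, hmem t⟩ ≠ 0 := by
    by_contra hcon
    push Not at hcon
    apply hΦ
    refine Representation.IntertwiningMap.ext (LinearMap.ext fun v => ?_)
    obtain ⟨v, hv⟩ := v
    have h1 : v ∈ (LinearMap.ker Φ.toLinearMap).map (specht n ν).toSubmodule.subtype := by
      have h8 : (specht n ν).toSubmodule ≤
          (LinearMap.ker Φ.toLinearMap).map (specht n ν).toSubmodule.subtype := by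
        change Submodule.span ℂ (Set.range (polytabloid (n := n) (ν := ν))) ≤ _
        rw [Submodule.span_le]
        rintro _ ⟨t', rfl⟩
        exact ⟨_, hcon t', rfl⟩
      exact h8 hv
    obtain ⟨w, hw, hwv⟩ := h1
    have : w = ⟨v, hv⟩ := Subtype.ext hwv
    rw [← this]
    exact hw
  set F := Φ ⟨polytabloid t, hmem t⟩ with hF
  have h1 : colSum t F.1 = ((colGroup t).card : ℂ) • F.1 := by
    have h2 : (∑ c ∈ colGroup t, ((Perm.sign c : ℤ) : ℂ) •
        (specht n ν).toRepresentation c ⟨polytabloid t, hmem t⟩) =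
        ((colGroup t).card : ℂ) • (⟨polytabloid t, hmem t⟩ : (specht n ν).toSubmodule) := by
      apply Subtype.ext
      rw [Submodule.coe_sum, Submodule.coe_smul]
      exact colSum_polytabloid t
    have h3 := congrArg Φ h2
    rw [map_smul, map_sum] at h3
    have h4 := congrArg Subtype.val h3
    rw [Submodule.coe_smul, Submodule.coe_sum] at h4
    rw [← h4]
    unfold colSum
    refine Finset.sum_congr rfl fun c _ => ?_
    rw [map_smul, Representation.IntertwiningMap.isIntertwining]
    rfl
  have hF0 : F.1 ≠ 0 := fun h => ht (Subtype.ext h)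
  obtain ⟨x, hx⟩ := Function.ne_iff.1 hF0
  obtain ⟨s, hs⟩ := support_specht F.2 hx
  have h5 : colSum t F.1 x ≠ 0 := by
    rw [h1, Pi.smul_apply, smul_eq_mul]
    refine mul_ne_zero ?_ hx
    exact_mod_cast (Finset.card_pos.2 ⟨1, one_mem_colGroup t⟩).ne'
  have h6 := card_lt_le t x (inj_of_colSum_ne_zero h5) i
  rw [← hs, card_rows, card_rows] at h6
  exact h6

theorem rowLen_eq (ν : YoungDiagram) (i : ℕ) : (ν.cells.filter (fun c => c.1 < i + 1)).card =
    (ν.cells.filter (fun c => c.1 < i)).card + ν.rowLen i := by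
  rw [YoungDiagram.rowLen_eq_card, YoungDiagram.row, ← Finset.card_union_of_disjoint]
  · congr 1
    ext c
    simp only [Finset.mem_filter, Finset.mem_union]
    constructor
    · rintro ⟨h1, h2⟩
      rcases Nat.lt_succ_iff_lt_or_eq.1 h2 with h | h
      · exact Or.inl ⟨h1, h⟩
      · exact Or.inr ⟨h1, h⟩
    · rintro (⟨h1, h2⟩ | ⟨h1, h2⟩)
      · exact ⟨h1, by omega⟩
      · exact ⟨h1, by omega⟩
  · rw [Finset.disjoint_filter]
    intro c _ h1 h2
    omega

/-- Specht modules of different partitions are not isomorphic. -/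
theorem eq_of_specht_hom (hν : ν.card = n) (hμ : μ.card = n)
    (Φ : Representation.IntertwiningMap (specht n ν).toRepresentation
      (specht n μ).toRepresentation) (hΦ : Φ ≠ 0) : ν = μ := by
  have := specht_irreducible n ν hν
  have := specht_irreducible n μ hμ
  have hb : Function.Bijective Φ :=
    (Representation.IsIrreducible.bijective_or_eq_zero Φ).resolve_right hΦ
  let Ψ := (Φ.ofBijective hb).symm.toIntertwiningMap
  have hΨ : Ψ ≠ 0 := by
    intro h0
    obtain ⟨t⟩ := nonempty_tableau hμ
    have hmem : polytabloid t ∈ (specht n μ).toSubmodule := Submodule.subset_span ⟨t, rfl⟩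
    have h1 : (Φ.ofBijective hb).symm (⟨polytabloid t, hmem⟩ : (specht n μ).toSubmodule) = 0 := by
      have h2 : Ψ (⟨polytabloid t, hmem⟩ : (specht n μ).toSubmodule) = 0 := by rw [h0]; rfl
      exact h2
    have h2 : (⟨polytabloid t, hmem⟩ : (specht n μ).toSubmodule) = 0 := by
      have h3 := (Φ.ofBijective hb).apply_symm_apply
        (⟨polytabloid t, hmem⟩ : (specht n μ).toSubmodule)
      rw [h1, map_zero] at h3
      exact h3.symm
    exact polytabloid_ne_zero t (congrArg Subtype.val h2)
  have heq : ∀ i, (ν.cells.filter (fun c => c.1 < i)).card =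
      (μ.cells.filter (fun c => c.1 < i)).card :=
    fun i => le_antisymm (hom_dominance Ψ hΨ i) (hom_dominance Φ hΦ i)
  have hrow : ∀ i, ν.rowLen i = μ.rowLen i := by
    intro i
    have h1 := rowLen_eq ν i
    have h2 := rowLen_eq μ i
    rw [heq, heq] at h1
    omega
  ext ⟨i, j⟩
  rw [YoungDiagram.mem_cells, YoungDiagram.mem_cells, YoungDiagram.mem_iff_lt_rowLen,
    YoungDiagram.mem_iff_lt_rowLen, hrow]

end Vale.Agent.P197
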