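import Vale.Agent.P197.KronDefs
import Vale.Agent.P197.Bridge
import Vale.Agent.P197.FinalAux

/-!
# P197: bridge from `Good` to the Kronecker coefficients of `KronDefs`
-/

open scoped TensorProduct Pointwise

namespace Vale.Agent.P197.Kron

/-- the sequence of the level sets of a word -/
def rows {n : ℕ} (w : Fin n → ℕ) : ℕ → Finset (Fin n) := fun i => {p | w p = i}

lemma rows_injective {n : ℕ} : Function.Injective (rows (n := n)) := by
  intro w w' h
  funext p
  have h1 : p ∈ rows w (w p) := by simp [rows]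
  rw [h] at h1
  have h2 : w' p = w p := by simpa [rows] using h1
  exact h2.symm

lemma smul_rows {n : ℕ} (g : Equiv.Perm (Fin n)) (w : Fin n → ℕ) :
    g • rows w = rows (fun p => w (g⁻¹ p)) := by
  funext i
  ext p
  rw [Pi.smul_apply, ← Finset.inv_smul_mem_iff]
  simp only [rows, Finset.mem_filter, Finset.mem_univ, true_and]
  rfl

lemma tabloid_eq {n : ℕ} {ν : YoungDiagram} (t : Tableau n ν) :
    tabloid t = rows (rowWord t) := rfl

/-- the value of `g • F` at `rows w` -/
lemma coeff_rowRep {n : ℕ} (g : Equiv.Perm (Fin n)) (F : MonoidAlgebra ℂ (ℕ → Finset (Fin n)))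
    (w : Fin n → ℕ) : (rowRep n g F).coeff (rows w) = F.coeff (rows (fun p => w (g p))) := by
  rw [rowRep, Representation.coeff_ofMulAction, smul_rows, inv_inv]

/-- formal combination to function on words -/
noncomputable def toFun {n : ℕ} :
    MonoidAlgebra ℂ (ℕ → Finset (Fin n)) →ₗ[ℂ] ((Fin n → ℕ) → ℂ) where
  toFun F w := F.coeff (rows w)
  map_add' F F' := by
    funext w
    simp
  map_smul' a F := by
    funext w
    simp

lemma toFun_apply {n : ℕ} (F : MonoidAlgebra ℂ (ℕ → Finset (Fin n))) (w : Fin n → ℕ) :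
    toFun F w = F.coeff (rows w) := rfl

lemma toFun_polytabloid {n : ℕ} {ν : YoungDiagram} (t : Tableau n ν) :
    toFun (polytabloid t) = Vale.Agent.P197.polytabloid t := by
  classical
  rw [polytabloid, map_sum, Vale.Agent.P197.polytabloid]
  refine Finset.sum_congr rfl fun c _ => ?_
  funext w
  rw [toFun_apply, MonoidAlgebra.coeff_single, Finsupp.single_apply, Pi.smul_apply,
    wordRep_apply, Pi.single_apply, tabloid_eq, smul_rows]
  have : (rows (fun p => rowWord t (c⁻¹ p)) = rows w) ↔ (w ∘ ⇑c = rowWord t) := by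
    rw [rows_injective.eq_iff]
    constructor
    · intro h
      funext p
      have := congrFun h (c p)
      simpa using this.symm
    · intro h
      funext p
      have := congrFun h (c⁻¹ p)
      simpa using this.symm
  by_cases h : w ∘ ⇑c = rowWord t
  · rw [if_pos (this.2 h), if_pos h]
    simp
  · rw [if_neg (fun h' => h (this.1 h')), if_neg h]
    simp

lemma exists_lift {n : ℕ} {ν : YoungDiagram} {f : (Fin n → ℕ) → ℂ}
    (hf : f ∈ Vale.Agent.P197.specht n ν) :
    ∃ F ∈ specht n ν, ∀ w, F.coeff (rows w) = f w := by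
  have h1 : Submodule.span ℂ (Set.range (Vale.Agent.P197.polytabloid (n := n) (ν := ν))) =
      (Submodule.span ℂ (Set.range (polytabloid (n := n) (ν := ν)))).map toFun := by
    rw [Submodule.map_span, ← Set.range_comp]
    congr 1
    congr 1
    funext t
    exact (toFun_polytabloid t).symm
  have h2 : f ∈ Submodule.span ℂ
      (Set.range (Vale.Agent.P197.polytabloid (n := n) (ν := ν))) := hf
  rw [h1, Submodule.mem_map] at h2
  obtain ⟨F, hF, hFf⟩ := h2
  exact ⟨F, hF, fun w => congrFun hFf w⟩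

instance specht_finite (n : ℕ) (ν : YoungDiagram) :
    Module.Finite ℂ (specht n ν).toSubmodule := by
  change Module.Finite ℂ (Submodule.span ℂ (Set.range (polytabloid (n := n) (ν := ν))))
  exact FiniteDimensional.span_of_finite ℂ (Set.finite_range _)

/-- Evaluation at a pair of sequences. -/
noncomputable def evalPair {X : Type} (V W : Submodule ℂ (MonoidAlgebra ℂ X)) (a b : X) :
    (V ⊗[ℂ] W) →ₗ[ℂ] ℂ :=
  TensorProduct.lift
    (LinearMap.mk₂ ℂ (fun (u : V) (v : W) => u.1.coeff a * v.1.coeff b)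
      (by intro u v c; simp [add_mul]) (by intro u v c; simp [mul_assoc])
      (by intro u v c; simp [mul_add]) (by intro u v c; simp [mul_left_comm]))

lemma evalPair_tmul {X : Type} (V W : Submodule ℂ (MonoidAlgebra ℂ X)) (a b : X)
    (u : V) (v : W) : evalPair V W a b (u ⊗ₜ[ℂ] v) = u.1.coeff a * v.1.coeff b := by
  simp [evalPair]

section

variable {n : ℕ} {V : Type} [AddCommMonoid V] [Module ℂ V]
  (σ : Representation ℂ (Equiv.Perm (Fin n)) V)

/-- `f ↦ ∑_g f (g • rows w) · σ(g) ξ`. -/
noncomputable def rowHom (w : Fin n → ℕ) (ξ : V) :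
    MonoidAlgebra ℂ (ℕ → Finset (Fin n)) →ₗ[ℂ] V where
  toFun f := ∑ g : Equiv.Perm (Fin n), f.coeff (rows (fun p => w (g⁻¹ p))) • σ g ξ
  map_add' f g := by simp [add_smul, Finset.sum_add_distrib]
  map_smul' a f := by simp [Finset.smul_sum, mul_smul]

lemma rowHom_apply (w : Fin n → ℕ) (ξ : V) (f : MonoidAlgebra ℂ (ℕ → Finset (Fin n))) :
    rowHom σ w ξ f =
      ∑ g : Equiv.Perm (Fin n), f.coeff (rows (fun p => w (g⁻¹ p))) • σ g ξ := rfl

lemma rowHom_equivariant (w : Fin n → ℕ) (ξ : V) (h : Equiv.Perm (Fin n))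
    (f : MonoidAlgebra ℂ (ℕ → Finset (Fin n))) :
    rowHom σ w ξ (rowRep n h f) = σ h (rowHom σ w ξ f) := by
  rw [rowHom_apply, rowHom_apply, map_sum]
  refine Fintype.sum_equiv (Equiv.mulLeft h⁻¹) _ _ ?_
  intro g
  rw [map_smul, coeff_rowRep]
  have h1 : σ h (σ ((Equiv.mulLeft h⁻¹) g) ξ) = σ g ξ := by
    rw [← Module.End.mul_apply, ← map_mul]
    congr 2
    simp
  rw [h1]
  congr 3

end

theorem kronecker_pos_of_ne_zero {n : ℕ} {lam mu nu : YoungDiagram} (t : Tableau n nu)
    (F₁ F₂ : MonoidAlgebra ℂ (ℕ → Finset (Fin n))) (h₁ : F₁ ∈ specht n lam)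
    (h₂ : F₂ ∈ specht n mu) (x y : Fin n → ℕ)
    (h : ∑ c ∈ Vale.Agent.P197.colGroup t, ∑ r ∈ rowGroup t, ((Equiv.Perm.sign c : ℤ) : ℂ) *
      (F₁.coeff (rows (x ∘ ⇑(c * r))) * F₂.coeff (rows (y ∘ ⇑(c * r)))) ≠ 0) :
    0 < kronecker n lam mu nu := by
  classical
  set σ := (specht n lam).toRepresentation.tprod (specht n mu).toRepresentation with hσ
  set ξ : (specht n lam).toSubmodule ⊗[ℂ] (specht n mu).toSubmodule :=
    (⟨F₁, h₁⟩ : (specht n lam).toSubmodule) ⊗ₜ[ℂ] (⟨F₂, h₂⟩ : (specht n mu).toSubmodule) with hξ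
  let Φ : Representation.IntertwiningMap (specht n nu).toRepresentation σ :=
    { toLinearMap := (rowHom σ (rowWord t) ξ).comp (specht n nu).toSubmodule.subtype
      isIntertwining' := by
        intro g
        ext v
        exact rowHom_equivariant σ (rowWord t) ξ g v.1 }
  have he : polytabloid t ∈ (specht n nu).toSubmodule := Submodule.subset_span ⟨t, rfl⟩
  have hΦ : Φ ≠ 0 := by
    intro h0
    apply h
    have h1 : Φ ⟨polytabloid t, he⟩ = 0 := by rw [h0]; rfl
    have h2 : Φ ⟨polytabloid t, he⟩ = rowHom σ (rowWord t) ξ (polytabloid t) := rfl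
    rw [h2, rowHom_apply] at h1
    have h3 := congrArg
      (evalPair (specht n lam).toSubmodule (specht n mu).toSubmodule (rows x) (rows y)) h1
    rw [map_zero, map_sum] at h3
    rw [← h3]
    have h4 : ∀ g : Equiv.Perm (Fin n),
        evalPair (specht n lam).toSubmodule (specht n mu).toSubmodule (rows x) (rows y)
          ((polytabloid t).coeff (rows (fun p => rowWord t (g⁻¹ p))) • σ g ξ) =
        ∑ c ∈ Vale.Agent.P197.colGroup t,
          if (fun p => rowWord t (c⁻¹ p)) = (fun p => rowWord t (g⁻¹ p)) then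
          ((Equiv.Perm.sign c : ℤ) : ℂ) *
            (F₁.coeff (rows (x ∘ ⇑g)) * F₂.coeff (rows (y ∘ ⇑g))) else 0 := by
      intro g
      rw [map_smul, hσ, hξ, Representation.tprod_apply, TensorProduct.map_tmul, evalPair_tmul]
      change _ • ((rowRep n g F₁).coeff (rows x) * (rowRep n g F₂).coeff (rows y)) = _
      rw [coeff_rowRep, coeff_rowRep, polytabloid, MonoidAlgebra.coeff_sum, Finset.sum_apply',
        Finset.sum_smul]
      refine Finset.sum_congr rfl fun c _ => ?_
      rw [MonoidAlgebra.coeff_single, Finsupp.single_apply, tabloid_eq, smul_rows,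
        rows_injective.eq_iff]
      by_cases hc : (fun p => rowWord t (c⁻¹ p)) = (fun p => rowWord t (g⁻¹ p))
      · rw [if_pos hc, if_pos hc]
        simp only [smul_eq_mul]
        rfl
      · rw [if_neg hc, if_neg hc]
        simp
    refine Eq.trans (Eq.trans ?_ Finset.sum_comm) (Finset.sum_congr rfl fun g _ => h4 g).symm
    refine Finset.sum_congr rfl fun c _ => ?_
    rw [← Finset.sum_filter]
    refine Finset.sum_nbij' (fun r => c * r) (fun g => c⁻¹ * g) ?_ ?_ ?_ ?_ ?_
    · intro r hr
      simp only [rowGroup, Finset.mem_filter, Finset.mem_univ, true_and] at hr ⊢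
      funext p
      have := hr (r⁻¹ (c⁻¹ p))
      simp only [mul_inv_rev, Equiv.Perm.mul_apply]
      rw [← this]
      simp
    · intro g hg
      simp only [rowGroup, Finset.mem_filter, Finset.mem_univ, true_and] at hg ⊢
      intro p
      have := congrFun hg (g p)
      simpa using this
    · intro r _; simp
    · intro g _; simp
    · intro r _
      rfl
  exact finrank_intertwiningMap_pos (W := (specht n lam).toSubmodule ⊗[ℂ]
    (specht n mu).toSubmodule) _ σ Φ hΦ

end Vale.Agent.P197.Kron
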