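import Mathlib

/-!
# P197: Specht modules and Kronecker coefficients

`S_n = Equiv.Perm (Fin n)`.  A tableau of shape `ν` is a bijection `t : Fin n ≃ ν.cells`, its
tabloid is the sequence of the sets of entries of its rows, and the Specht module `S^ν` is the
complex span of the polytabloids.
-/

open scoped Pointwise

namespace Vale.Agent.P197.Kron

/-- A tableau of shape `ν`: a bijection from `Fin n` onto the cells of `ν`. -/
abbrev Tableau (n : ℕ) (ν : YoungDiagram) : Type := Fin n ≃ ν.cells

/-- The tabloid of a tableau: the sequence of the sets of entries of its rows. -/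
def tabloid {n : ℕ} {ν : YoungDiagram} (t : Tableau n ν) : ℕ → Finset (Fin n) :=
  fun i => {p | (t p).1.1 = i}

/-- The column group of a tableau: the permutations which preserve every column. -/
def colGroup {n : ℕ} {ν : YoungDiagram} (t : Tableau n ν) : Finset (Equiv.Perm (Fin n)) :=
  {c | ∀ p, (t (c p)).1.2 = (t p).1.2}

/-- `S_n` acts on sequences of subsets of `Fin n`, hence on their formal combinations. -/
noncomputable def rowRep (n : ℕ) :
    Representation ℂ (Equiv.Perm (Fin n)) (MonoidAlgebra ℂ (ℕ → Finset (Fin n))) :=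
  Representation.ofMulAction ℂ (Equiv.Perm (Fin n)) (ℕ → Finset (Fin n))

/-- The polytabloid `∑_{c} sgn(c) c·{t}`, `c` in the column group of `t`. -/
noncomputable def polytabloid {n : ℕ} {ν : YoungDiagram} (t : Tableau n ν) :
    MonoidAlgebra ℂ (ℕ → Finset (Fin n)) :=
  ∑ c ∈ colGroup t, MonoidAlgebra.single (c • tabloid t) ((Equiv.Perm.sign c : ℤ) : ℂ)

lemma tabloid_trans {n : ℕ} {ν : YoungDiagram} (g : Equiv.Perm (Fin n)) (t : Tableau n ν) :
    tabloid (g.symm.trans t : Tableau n ν) = g • tabloid t := by
  funext i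
  ext p
  rw [Pi.smul_apply, ← Finset.inv_smul_mem_iff]
  simp only [tabloid, Finset.mem_filter, Finset.mem_univ, true_and]
  rfl

lemma rowRep_polytabloid {n : ℕ} {ν : YoungDiagram} (g : Equiv.Perm (Fin n))
    (t : Tableau n ν) :
    rowRep n g (polytabloid t) = polytabloid (g.symm.trans t : Tableau n ν) := by
  rw [polytabloid, polytabloid, map_sum]
  refine Finset.sum_nbij' (fun c => g * c * g⁻¹) (fun c => g⁻¹ * c * g) ?_ ?_ ?_ ?_ ?_
  · intro c hc
    simp only [colGroup, Finset.mem_filter, Finset.mem_univ, true_and] at hc ⊢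
    intro p
    have := hc (g.symm p)
    simpa [Equiv.Perm.mul_apply, Equiv.Perm.inv_def] using this
  · intro c hc
    simp only [colGroup, Finset.mem_filter, Finset.mem_univ, true_and] at hc ⊢
    intro p
    have := hc (g p)
    simpa [Equiv.Perm.mul_apply, Equiv.Perm.inv_def] using this
  · intro c _; simp [mul_assoc]
  · intro c _; simp [mul_assoc]
  · intro c _
    have h1 : Equiv.Perm.sign (g * c * g⁻¹) = Equiv.Perm.sign c := by
      rw [map_mul, map_mul, map_inv, mul_comm (Equiv.Perm.sign g), mul_inv_cancel_right]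
    rw [h1, tabloid_trans, rowRep, Representation.ofMulAction_single, ← mul_smul, ← mul_smul]
    congr 2
    group

lemma rowRep_mem_span {n : ℕ} {ν : YoungDiagram} (g : Equiv.Perm (Fin n))
    ⦃v : MonoidAlgebra ℂ (ℕ → Finset (Fin n))⦄
    (hv : v ∈ Submodule.span ℂ (Set.range (polytabloid (n := n) (ν := ν)))) :
    rowRep n g v ∈ Submodule.span ℂ (Set.range (polytabloid (n := n) (ν := ν))) := by
  induction hv using Submodule.span_induction with
  | mem x hx =>
    obtain ⟨t, rfl⟩ := hx
    rw [rowRep_polytabloid]
    exact Submodule.subset_span ⟨_, rfl⟩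
  | zero => rw [map_zero]; exact Submodule.zero_mem _
  | add x y _ _ hx hy => rw [map_add]; exact Submodule.add_mem _ hx hy
  | smul a x _ hx => rw [map_smul]; exact Submodule.smul_mem _ _ hx

/-- The Specht module `S^ν`: the span of the polytabloids of all tableaux of shape `ν`,
a subrepresentation of `rowRep n`. -/
noncomputable def specht (n : ℕ) (ν : YoungDiagram) : Subrepresentation (rowRep n) where
  toSubmodule := Submodule.span ℂ (Set.range (polytabloid (n := n) (ν := ν)))
  apply_mem_toSubmodule := rowRep_mem_span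

/-- `dim Hom_G (P, V ⊗ W)`, where `G` acts diagonally on `V ⊗ W`. -/
noncomputable def multTensor {G P V W : Type} [Group G] [AddCommMonoid P] [Module ℂ P]
    [AddCommMonoid V] [Module ℂ V] [AddCommMonoid W] [Module ℂ W] (π : Representation ℂ G P)
    (ρ : Representation ℂ G V) (σ : Representation ℂ G W) : ℕ :=
  Module.finrank ℂ (Representation.IntertwiningMap π (ρ.tprod σ))

/-- The Kronecker coefficient `g(lam, mu, nu) = dim Hom_{S_n} (S^nu, S^lam ⊗ S^mu)`. -/
noncomputable def kronecker (n : ℕ) (lam mu nu : YoungDiagram) : ℕ :=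
  multTensor (specht n nu).toRepresentation (specht n lam).toRepresentation
    (specht n mu).toRepresentation

lemma staircase_isLowerSet (m : ℕ) : IsLowerSet
    (((Finset.range m ×ˢ Finset.range m).filter (fun c => c.1 + c.2 < m) : Finset (ℕ × ℕ)) :
      Set (ℕ × ℕ)) := by
  intro a b hab ha
  simp only [Finset.coe_filter, Finset.mem_product, Finset.mem_range, Set.mem_ofPred_eq] at ha ⊢
  have h1 : b.1 ≤ a.1 := hab.1
  have h2 : b.2 ≤ a.2 := hab.2
  omega

/-- The staircase `ρ_m = (m, m-1, …, 1)`: the cells `(i, j)` with `i + j < m`. -/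
def staircase (m : ℕ) : YoungDiagram where
  cells := (Finset.range m ×ˢ Finset.range m).filter (fun c => c.1 + c.2 < m)
  isLowerSet := staircase_isLowerSet m

end Vale.Agent.P197.Kron
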