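import Vale.Agent.P197.KronBridge
import Vale.Agent.P197.Assembly

/-!
# P197: Saxl's conjecture for the Kronecker coefficients of `KronDefs`
-/

namespace Vale.Agent.P197.Kron

open Equiv

theorem kronecker_pos_of_good {n a : ℕ} {nu : YoungDiagram} (t : Tableau n nu)
    (h : Good a (rowWord t) (colWord t)) : 0 < kronecker n (staircase a) (staircase a) nu := by
  obtain ⟨b, hb, x, y, x', z, _, _, hne⟩ := h
  obtain ⟨F₁, hF₁, e₁⟩ := exists_lift (G_mem_specht hb x')
  obtain ⟨F₂, hF₂, e₂⟩ := exists_lift (E_mem_specht hb z)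
  refine kronecker_pos_of_ne_zero t F₁ F₂ hF₁ hF₂ x y ?_
  intro h0
  apply hne
  have h1 : ((YS (rowWord t) (colWord t) (fun u v => G b u x' * E b v z) x y : ℚ) : ℂ) = 0 := by
    rw [← h0]
    unfold YS
    push_cast
    rw [Vale.Agent.P197.colGroup, Finset.sum_filter]
    refine Finset.sum_congr rfl fun c _ => ?_
    by_cases hc : ∀ p, colWord t (c p) = colWord t p
    · rw [if_pos hc, rowGroup, Finset.sum_filter]
      refine Finset.sum_congr rfl fun r _ => ?_
      by_cases hr : ∀ p, rowWord t (r p) = rowWord t p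
      · rw [if_pos ⟨hc, hr⟩, if_pos hr, e₁, e₂]
        push_cast
        rfl
      · rw [if_neg (fun h => hr h.2), if_neg hr, Rat.cast_zero]
    · rw [if_neg hc]
      refine Finset.sum_eq_zero fun r _ => ?_
      rw [if_neg (fun h => hc h.1), Rat.cast_zero]
  exact_mod_cast h1

/-- **Saxl's conjecture.** -/
theorem saxl (m : ℕ) (nu : YoungDiagram) (h : nu.card = m * (m + 1) / 2) :
    0 < kronecker (m * (m + 1) / 2) (staircase m) (staircase m) nu := by
  have hc : Fintype.card nu.cells = m * (m + 1) / 2 := by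
    rw [Fintype.card_coe]; exact h
  let t : Tableau (m * (m + 1) / 2) nu := (Fintype.equivFinOfCardEq hc).symm
  refine kronecker_pos_of_good t (good_all m (Fin (m * (m + 1) / 2)) _ _ ?_ ?_)
  · rw [Fintype.card_fin]
    exact Nat.mul_div_cancel' (Nat.even_mul_succ_self m).two_dvd
  · intro p q hpq
    simp only [Prod.mk.injEq] at hpq
    apply t.injective
    apply Subtype.ext
    exact Prod.ext hpq.1 hpq.2

end Vale.Agent.P197.Kron
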