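import Mathlib

/-!
# P197: Specht modules, Kronecker coefficients, staircases

`S_n = Equiv.Perm (Fin n)` acts on words `x : Fin n → ℕ` by place permutations.  A tableau of
shape `ν` is a bijection `t : Fin n ≃ ν.cells`; its tabloid is recorded by the word
`p ↦ row of p in t`.  The Specht module `S^ν` is the complex span of the polytabloids.
-/

open scoped TensorProduct

namespace Vale.Agent.P197

/-- The representation of `S_n` on complex valued functions of words by permutation of the places:
`(g · f) (x) = f (x ∘ g)`. -/
noncomputable def wordRep (n : ℕ) :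
    Representation ℂ (Equiv.Perm (Fin n)) ((Fin n → ℕ) → ℂ) where
  toFun g :=
    { toFun := fun f x => f (x ∘ g)
      map_add' := fun _ _ => rfl
      map_smul' := fun _ _ => rfl }
  map_one' := rfl
  map_mul' := fun _ _ => rfl

@[simp] lemma wordRep_apply {n : ℕ} (g : Equiv.Perm (Fin n)) (f : (Fin n → ℕ) → ℂ)
    (x : Fin n → ℕ) : wordRep n g f x = f (x ∘ g) := rfl

/-- A tableau of shape `ν` with entries `0, …, n-1` (each used once). -/
abbrev Tableau (n : ℕ) (ν : YoungDiagram) := Fin n ≃ ν.cells

/-- The word `p ↦ row of the entry p in the tableau t`; it records the tabloid of `t`. -/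
def rowWord {n : ℕ} {ν : YoungDiagram} (t : Tableau n ν) (p : Fin n) : ℕ := (t p).1.1

/-- The word `p ↦ column of the entry p in the tableau t`. -/
def colWord {n : ℕ} {ν : YoungDiagram} (t : Tableau n ν) (p : Fin n) : ℕ := (t p).1.2

/-- The column group of a tableau: the permutations preserving every column. -/
def colGroup {n : ℕ} {ν : YoungDiagram} (t : Tableau n ν) : Finset (Equiv.Perm (Fin n)) :=
  Finset.univ.filter fun c => ∀ p, colWord t (c p) = colWord t p

/-- The polytabloid `e_t = ∑_{c ∈ C_t} sgn(c) c·{t}`, where `C_t` is the column group, and the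
tabloid `{t}` is the indicator function of the word `rowWord t`. -/
noncomputable def polytabloid {n : ℕ} {ν : YoungDiagram} (t : Tableau n ν) :
    (Fin n → ℕ) → ℂ :=
  ∑ c ∈ colGroup t, ((Equiv.Perm.sign c : ℤ) : ℂ) • wordRep n c (Pi.single (rowWord t) 1)

lemma wordRep_polytabloid {n : ℕ} {ν : YoungDiagram} (g : Equiv.Perm (Fin n))
    (t : Tableau n ν) :
    wordRep n g (polytabloid t) = polytabloid (g.symm.trans t : Tableau n ν) := by
  have hrow : rowWord (g.symm.trans t : Tableau n ν) = rowWord t ∘ g.symm := rfl
  have hcol : ∀ p, colWord (g.symm.trans t : Tableau n ν) p = colWord t (g.symm p) :=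
    fun _ => rfl
  rw [polytabloid, polytabloid, map_sum]
  refine Finset.sum_nbij' (fun c => g * c * g⁻¹) (fun c => g⁻¹ * c * g) ?_ ?_ ?_ ?_ ?_
  · intro c hc
    simp only [colGroup, Finset.mem_filter, Finset.mem_univ, true_and] at hc ⊢
    intro p
    rw [hcol, hcol]
    have := hc (g.symm p)
    simpa [Equiv.Perm.mul_apply, Equiv.Perm.inv_def] using this
  · intro c hc
    simp only [colGroup, Finset.mem_filter, Finset.mem_univ, true_and] at hc ⊢
    intro p
    have := hc (g p)
    rw [hcol, hcol] at this
    simpa [Equiv.Perm.mul_apply, Equiv.Perm.inv_def] using this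
  · intro c _; simp [mul_assoc]
  · intro c _; simp [mul_assoc]
  · intro c _
    rw [hrow, map_smul]
    congr 1
    · have h1 : Equiv.Perm.sign (g * c * g⁻¹) = Equiv.Perm.sign c := by
        rw [map_mul, map_mul, map_inv, mul_comm (Equiv.Perm.sign g), mul_inv_cancel_right]
      rw [h1]
    · ext x
      simp only [wordRep_apply, Pi.single_apply]
      congr 1
      rw [eq_iff_iff]
      constructor
      · intro h
        rw [← h]; ext p
        simp [Function.comp, Equiv.Perm.mul_apply, Equiv.Perm.inv_def]
      · intro h
        have h2 := congrArg (fun w => w ∘ g) h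
        ext p
        have := congrFun h2 p
        simpa [Function.comp, Equiv.Perm.mul_apply, Equiv.Perm.inv_def] using this

/-- The Specht module `S^ν`: the span of all polytabloids of tableaux of shape `ν`,
a subrepresentation of `wordRep n`. -/
noncomputable def specht (n : ℕ) (ν : YoungDiagram) : Subrepresentation (wordRep n) where
  toSubmodule := Submodule.span ℂ (Set.range (polytabloid (n := n) (ν := ν)))
  apply_mem_toSubmodule := by
    intro g v hv
    induction hv using Submodule.span_induction with
    | mem x hx =>
      obtain ⟨t, rfl⟩ := hx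
      rw [wordRep_polytabloid]
      exact Submodule.subset_span ⟨_, rfl⟩
    | zero => rw [map_zero]; exact Submodule.zero_mem _
    | add x y _ _ hx hy => rw [map_add]; exact Submodule.add_mem _ hx hy
    | smul a x _ hx => rw [map_smul]; exact Submodule.smul_mem _ _ hx

/-- The Kronecker coefficient `g(lam, mu, nu) = dim Hom_{S_n} (S^nu, S^lam ⊗ S^mu)`,
`S_n` acting diagonally on the tensor product. -/
noncomputable def kronecker (n : ℕ) (lam mu nu : YoungDiagram) : ℕ :=
  Module.finrank ℂ (Representation.IntertwiningMap (specht n nu).toRepresentation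
    ((specht n lam).toRepresentation.tprod (specht n mu).toRepresentation))

/-- The staircase `ρ_m = (m, m-1, …, 1)`: the cells `(i, j)` with `i + j < m`. -/
def staircase (m : ℕ) : YoungDiagram where
  cells := (Finset.range m ×ˢ Finset.range m).filter (fun c => c.1 + c.2 < m)
  isLowerSet := by
    intro a b hab ha
    simp only [Finset.coe_filter, Finset.mem_product, Finset.mem_range, Set.mem_ofPred_eq] at ha ⊢
    have h1 : b.1 ≤ a.1 := hab.1
    have h2 : b.2 ≤ a.2 := hab.2
    omega

end Vale.Agent.P197
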